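import Vale.Agent.P278.Defs
import Vale.Agent.P274.SCV1

/-! Abstract layer: spaces with a product atlas, compatible maps, taming forms. -/

open Set Filter Topology Metric
open scoped Manifold ContDiff

namespace Vale.Agent.P278

section Prod

variable {A B A' B' D : Type*} [NormedAddCommGroup A] [NormedSpace ℂ A]
  [NormedAddCommGroup B] [NormedSpace ℂ B] [NormedAddCommGroup A'] [NormedSpace ℂ A']
  [NormedAddCommGroup B'] [NormedSpace ℂ B'] [NormedAddCommGroup D] [NormedSpace ℂ D]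
  {Z : Type*} [TopologicalSpace Z]

/-- Near `p` the map `T` is a product of two analytic maps. -/
def IsProdAt (T : A' × B' → A × B) (p : A' × B') : Prop :=
  ∃ (f₁ : A' → A) (f₂ : B' → B), AnalyticAt ℂ f₁ p.1 ∧ AnalyticAt ℂ f₂ p.2 ∧
    T =ᶠ[𝓝 p] fun q => (f₁ q.1, f₂ q.2)

/-- An atlas whose transition maps are locally products of analytic maps. -/
structure ProdAtlas (Z : Type*) [TopologicalSpace Z] (A B : Type*) [NormedAddCommGroup A]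
    [NormedSpace ℂ A] [NormedAddCommGroup B] [NormedSpace ℂ B] where
  charts : Set (OpenPartialHomeomorph Z (A × B))
  cover : ∀ z, ∃ φ ∈ charts, z ∈ φ.source
  compat : ∀ φ ∈ charts, ∀ ψ ∈ charts, ∀ z ∈ φ.source, z ∈ ψ.source →
    IsProdAt (ψ ∘ φ.symm) (φ z)

/-- `F` is holomorphic at `p`. -/
def HolAt (𝒜 : ProdAtlas Z A B) (F : D → Z) (p : D) : Prop :=
  ContinuousAt F p ∧ ∀ φ ∈ 𝒜.charts, F p ∈ φ.source → AnalyticAt ℂ (φ ∘ F) p

/-- `F` is holomorphic and compatible with the product structures at `p`. -/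
def CompatAt (𝒜 : ProdAtlas Z A B) (F : A' × B' → Z) (p : A' × B') : Prop :=
  ContinuousAt F p ∧ ∀ φ ∈ 𝒜.charts, F p ∈ φ.source → IsProdAt (φ ∘ F) p

/-- `g` is holomorphic and horizontal at `a`. -/
def HorAt (𝒜 : ProdAtlas Z A B) (g : A' → Z) (a : A') : Prop :=
  ContinuousAt g a ∧ ∀ φ ∈ 𝒜.charts, g a ∈ φ.source →
    ∃ f : A' → A, AnalyticAt ℂ f a ∧ φ ∘ g =ᶠ[𝓝 a] fun a' => (f a', (φ (g a)).2)

/-- `h` is holomorphic and vertical at `b`. -/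
def VerAt (𝒜 : ProdAtlas Z A B) (h : B' → Z) (b : B') : Prop :=
  ContinuousAt h b ∧ ∀ φ ∈ 𝒜.charts, h b ∈ φ.source →
    ∃ f : B' → B, AnalyticAt ℂ f b ∧ φ ∘ h =ᶠ[𝓝 b] fun b' => ((φ (h b)).1, f b')

/-- `g` is horizontal at `a` and a local isomorphism onto the horizontal plaque. -/
def HorEt (𝒜 : ProdAtlas Z A B) (g : A → Z) (a : A) : Prop :=
  ContinuousAt g a ∧ ∀ φ ∈ 𝒜.charts, g a ∈ φ.source →
    ∃ (f : A → A) (L : A ≃L[ℂ] A), AnalyticAt ℂ f a ∧ HasFDerivAt f (L : A →L[ℂ] A) a ∧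
      φ ∘ g =ᶠ[𝓝 a] fun a' => (f a', (φ (g a)).2)

/-- Completion of rectangles: a horizontal ball and a vertical disc through one point. -/
def BRC (𝒜 : ProdAtlas Z A B) : Prop :=
  ∀ (R₁ R₂ : ℝ) (g : A → Z) (h : ℂ → Z), 0 < R₁ → 0 < R₂ →
    (∀ a ∈ ball (0 : A) R₁, HorAt 𝒜 g a) → (∀ b ∈ ball (0 : ℂ) R₂, VerAt 𝒜 h b) → g 0 = h 0 →
    ∃ F : A × ℂ → Z, (∀ p ∈ ball (0 : A) R₁ ×ˢ ball (0 : ℂ) R₂, CompatAt 𝒜 F p) ∧
      (∀ a ∈ ball (0 : A) R₁, F (a, 0) = g a) ∧ ∀ b ∈ ball (0 : ℂ) R₂, F (0, b) = h b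

/-- A closed real two-form, given in the charts, that is positive on complex lines. -/
structure TameForm (𝒜 : ProdAtlas Z A B)
    (w : OpenPartialHomeomorph Z (A × B) → A × B → (A × B) →L[ℝ] (A × B) →L[ℝ] ℝ) : Prop where
  smooth : ∀ φ ∈ 𝒜.charts, ContDiffOn ℝ 1 (w φ) φ.target
  anti : ∀ φ ∈ 𝒜.charts, ∀ z ∈ φ.target, ∀ u v, w φ z u v = -w φ z v u
  closed : ∀ φ ∈ 𝒜.charts, ∀ z ∈ φ.target, ∀ u v s,
    fderiv ℝ (w φ) z u v s + fderiv ℝ (w φ) z v s u + fderiv ℝ (w φ) z s u v = 0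
  tame : ∀ φ ∈ 𝒜.charts, ∀ z ∈ φ.target, ∀ v, v ≠ 0 → 0 < w φ z v (Complex.I • v)
  compat : ∀ φ ∈ 𝒜.charts, ∀ ψ ∈ 𝒜.charts, ∀ x ∈ φ.source, x ∈ ψ.source → ∀ u v,
    w φ (φ x) u v = w ψ (ψ x) (fderiv ℂ (ψ ∘ φ.symm) (φ x) u) (fderiv ℂ (ψ ∘ φ.symm) (φ x) v)

/-- Uniform bounds for the form in charts of uniform size. -/
def Unif (𝒜 : ProdAtlas Z A B)
    (w : OpenPartialHomeomorph Z (A × B) → A × B → (A × B) →L[ℝ] (A × B) →L[ℝ] ℝ)
    (r c C : ℝ) : Prop :=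
  ∀ x : Z, ∃ φ ∈ 𝒜.charts, x ∈ φ.source ∧ closedBall (φ x) (3 * r) ⊆ φ.target ∧
    ∀ z ∈ closedBall (φ x) (3 * r),
      (∀ v, c * ‖v‖ ^ 2 ≤ w φ z v (Complex.I • v)) ∧ ∀ u v, |w φ z u v| ≤ C * ‖u‖ * ‖v‖

/-- The point at depth `τ` and position `y` of the family of diagonal discs. -/
def dpt (τ : ℝ) (y : ℂ) : ℂ × ℂ := (-(τ : ℂ) + y, -(τ : ℂ) - y)

/-- The direction of the diagonal discs. -/
def dY : ℂ × ℂ := (1, -1)

/-- A closed two-form on an open set of pairs, controlled by its value on diagonal discs. -/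
structure DiagForm (O : Set (ℂ × ℂ)) (Ω : ℂ × ℂ → (ℂ × ℂ) →L[ℝ] (ℂ × ℂ) →L[ℝ] ℝ) (C : ℝ) :
    Prop where
  isOpen : IsOpen O
  smooth : ContDiffOn ℝ 1 Ω O
  anti : ∀ p ∈ O, ∀ u v, Ω p u v = -Ω p v u
  closed : ∀ p ∈ O, ∀ u v s,
    fderiv ℝ Ω p u v s + fderiv ℝ Ω p v s u + fderiv ℝ Ω p s u v = 0
  nonneg : ∀ p ∈ O, 0 ≤ Ω p dY (Complex.I • dY)
  bound : ∀ p ∈ O, ∀ l : ℂ, |Ω p (1, 1) (l • dY)| ≤ C * ‖l‖ * Ω p dY (Complex.I • dY)

/-- Smooth antitone cutoff, equal to `1` on `(-∞, 1/4]` and to `0` on `[1, ∞)`. -/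
noncomputable def cut (t : ℝ) : ℝ := Real.smoothTransition ((1 - t) * (4 / 3))

/-- Weighted area of the diagonal disc of depth `τ` and radius `ρ`. -/
noncomputable def en (Ω : ℂ × ℂ → (ℂ × ℂ) →L[ℝ] (ℂ × ℂ) →L[ℝ] ℝ) (τ ρ : ℝ) : ℝ :=
  ∫ y : ℂ, cut (‖y‖ ^ 2 / ρ ^ 2) * Ω (dpt τ y) dY (Complex.I • dY)

/-- The common point of the two circles of depth `τ` used in the neck argument. -/
noncomputable def npt (K τ : ℝ) : ℂ × ℂ :=
  dpt τ (Complex.I * ((Real.sqrt (4 * K ^ 2 - 1) * τ : ℝ) : ℂ))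

/-- A compatible map defined on a wide cone stays in one product chart near the vertex. -/
def ConeProp (𝒜 : ProdAtlas Z A B) : Prop :=
  ∃ Λ : ℝ, 1 ≤ Λ ∧ ∀ (O : Set (ℂ × ℂ)) (H : ℂ × ℂ → Z) (τ₀ : ℝ), IsOpen O → 0 < τ₀ →
    (∀ p ∈ O, CompatAt 𝒜 H p) → (∀ τ ∈ Ioc 0 τ₀, ∀ y : ℂ, ‖y‖ ≤ Λ * τ → dpt τ y ∈ O) →
    ∃ φ ∈ 𝒜.charts, ∃ (q : A × B) (R τ₂ : ℝ), ball q R ⊆ φ.target ∧ 0 < τ₂ ∧
      ∀ τ ∈ Ioo 0 τ₂, ∀ y : ℂ, ‖y‖ ≤ τ → H (dpt τ y) ∈ φ.source ∧ φ (H (dpt τ y)) ∈ ball q R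

/-- The rectangle with sides `g`, `h` is completed on the product of balls of radii `r`, `ρ`. -/
def Ex (𝒜 : ProdAtlas Z A B) (g : A → Z) (h : ℂ → Z) (r ρ : ℝ) : Prop :=
  ∃ F : A × ℂ → Z, (∀ p ∈ ball (0 : A) r ×ˢ ball (0 : ℂ) ρ, CompatAt 𝒜 F p) ∧
    (∀ a ∈ ball (0 : A) r, F (a, 0) = g a) ∧ ∀ b ∈ ball (0 : ℂ) ρ, F (0, b) = h b

/-- The union of all products of balls on which the rectangle is completed. -/
def ExDom (𝒜 : ProdAtlas Z A B) (g : A → Z) (h : ℂ → Z) : Set (A × ℂ) :=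
  {p | ∃ r ρ : ℝ, ‖p.1‖ < r ∧ ‖p.2‖ < ρ ∧ Ex 𝒜 g h r ρ}

/-- The horizontal plaque through `x` in the chart `φ`, centred at `x`. -/
noncomputable def plaque (φ : OpenPartialHomeomorph Z (A × B)) (x : Z) (a : A) : Z :=
  φ.symm ((φ x).1 + a, (φ x).2)

/-- One vertical translation of a horizontal germ at `0`. -/
def Step (𝒜 : ProdAtlas Z A B) (g g₁ : A → Z) : Prop :=
  ∃ F : A × ℂ → Z, (∀ t ∈ ball (0 : ℂ) 3, CompatAt 𝒜 F (0, t)) ∧
    g =ᶠ[𝓝 0] (fun a => F (a, 0)) ∧ g₁ =ᶠ[𝓝 0] fun a => F (a, 1)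

/-- Holonomy equivalence of horizontal germs at `0`. -/
def Hol (𝒜 : ProdAtlas Z A B) : (A → Z) → (A → Z) → Prop := Relation.EqvGen (Step 𝒜)

/-- Near `x`, the map `ψ` is a holonomy projection along the vertical foliation. -/
def Good (𝒜 : ProdAtlas Z A B) (x : Z) (ψ : Z → Z) : Prop :=
  ∃ φ ∈ 𝒜.charts, x ∈ φ.source ∧ ∃ g₁ : A → Z, Hol 𝒜 (plaque φ x) g₁ ∧
    ψ =ᶠ[𝓝 x] fun y => g₁ ((φ y).1 - (φ x).1)

/-- A global projection along the vertical foliation onto one horizontal leaf. -/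
structure Retr (𝒜 : ProdAtlas Z A B) (p : Z → Z) : Prop where
  cont : Continuous p
  idem : ∀ z, p (p z) = p z
  loc : ∀ x, ∀ φ ∈ 𝒜.charts, x ∈ φ.source → ∀ ψ ∈ 𝒜.charts, p x ∈ ψ.source →
    ∃ (f : A → A) (L : A ≃L[ℂ] A), AnalyticAt ℂ f (φ x).1 ∧
      HasFDerivAt f (L : A →L[ℂ] A) (φ x).1 ∧
      ∀ᶠ z in 𝓝 x, ψ (p z) = (f (φ z).1, (ψ (p x)).2)
  fix : ∀ y, p y = y → ∀ φ ∈ 𝒜.charts, y ∈ φ.source →
    ∀ᶠ z in 𝓝 y, p z = φ.symm ((φ z).1, (φ y).2)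
  move : ∀ (x : Z) (R : ℝ) (u : A → Z), 0 < R → (∀ a ∈ ball (0 : A) R, HorAt 𝒜 u a) →
    u 0 = p x → ∃ g : A → Z, (∀ a ∈ ball (0 : A) R, HorAt 𝒜 g a) ∧ g 0 = x ∧
      ∀ a ∈ ball (0 : A) R, p (g a) = u a

end Prod

/-- Pullback of a field of real bilinear forms. -/
noncomputable def pullForm {D₁ D₂ : Type*} [NormedAddCommGroup D₁] [NormedSpace ℝ D₁]
    [NormedAddCommGroup D₂] [NormedSpace ℝ D₂] (f : D₁ → D₂) (w : D₂ → D₂ →L[ℝ] D₂ →L[ℝ] ℝ)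
    (q : D₁) : D₁ →L[ℝ] D₁ →L[ℝ] ℝ :=
  (w (f q)).bilinearComp (fderiv ℝ f q) (fderiv ℝ f q)

section Multi

variable {ι : Type} [Fintype ι] [DecidableEq ι] {A : ι → Type*} [∀ i, NormedAddCommGroup (A i)]
  [∀ i, NormedSpace ℂ (A i)] {Z : Type*} [TopologicalSpace Z]

/-- An atlas whose transition maps are locally products of several analytic maps. -/
structure MultiAtlas (Z : Type*) [TopologicalSpace Z] {ι : Type} [Fintype ι] (A : ι → Type*)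
    [∀ i, NormedAddCommGroup (A i)] [∀ i, NormedSpace ℂ (A i)] where
  charts : Set (OpenPartialHomeomorph Z (∀ i, A i))
  cover : ∀ z, ∃ φ ∈ charts, z ∈ φ.source
  compat : ∀ φ ∈ charts, ∀ ψ ∈ charts, ∀ z ∈ φ.source, z ∈ ψ.source →
    ∃ f : ∀ i, A i → A i, (∀ i, AnalyticAt ℂ (f i) (φ z i)) ∧
      ψ ∘ φ.symm =ᶠ[𝓝 (φ z)] fun v i => f i (v i)

/-- The chart `φ` followed by the splitting off of the factor `i`. -/
noncomputable def splitChart (i : ι) (φ : OpenPartialHomeomorph Z (∀ j, A j)) :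
    OpenPartialHomeomorph Z (A i × ∀ j : {j // j ≠ i}, A j) :=
  φ.transHomeomorph (Homeomorph.piSplitAt i A)

omit [Fintype ι] [∀ i, NormedSpace ℂ (A i)] in
@[simp] theorem splitChart_source (i : ι) (φ : OpenPartialHomeomorph Z (∀ j, A j)) :
    (splitChart i φ).source = φ.source := rfl

omit [Fintype ι] [∀ i, NormedSpace ℂ (A i)] in
theorem splitChart_apply (i : ι) (φ : OpenPartialHomeomorph Z (∀ j, A j)) (z : Z) :
    splitChart i φ z = (φ z i, fun j : {j // j ≠ i} => φ z j) := rfl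

omit [Fintype ι] [∀ i, NormedSpace ℂ (A i)] in
theorem splitChart_symm_apply (i : ι) (φ : OpenPartialHomeomorph Z (∀ j, A j))
    (q : A i × ∀ j : {j // j ≠ i}, A j) :
    (splitChart i φ).symm q = φ.symm ((Homeomorph.piSplitAt i A).symm q) := rfl

omit [Fintype ι] [∀ i, NormedSpace ℂ (A i)] in
theorem splitChart_target (i : ι) (φ : OpenPartialHomeomorph Z (∀ j, A j)) :
    (splitChart i φ).target = (Homeomorph.piSplitAt i A).symm ⁻¹' φ.target := rfl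

/-- The two-fold product atlas obtained by splitting off the factor `i`. -/
noncomputable def MultiAtlas.split (ℳ : MultiAtlas Z A) (i : ι) :
    ProdAtlas Z (A i) (∀ j : {j // j ≠ i}, A j) where
  charts := splitChart i '' ℳ.charts
  cover := fun z => by
    obtain ⟨φ, hφ, hz⟩ := ℳ.cover z
    exact ⟨_, ⟨φ, hφ, rfl⟩, hz⟩
  compat := by
    rintro _ ⟨φ, hφ, rfl⟩ _ ⟨ψ, hψ, rfl⟩ z hz hz'
    obtain ⟨f, hf, he⟩ := ℳ.compat φ hφ ψ hψ z hz hz'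
    refine ⟨f i, fun v j => f j (v j), hf i, ?_, ?_⟩
    · refine analyticAt_pi_iff.2 fun j => ?_
      exact AnalyticAt.comp (g := f j) (f := fun v : (∀ j : {j // j ≠ i}, A j) => v j) (hf j)
        ((ContinuousLinearMap.proj (R := ℂ) (φ := fun j : {j // j ≠ i} => A j) j).analyticAt _)
    · have hc : Tendsto (Homeomorph.piSplitAt i A).symm (𝓝 (splitChart i φ z)) (𝓝 (φ z)) := by
        have h := (Homeomorph.piSplitAt i A).symm.continuous.tendsto (splitChart i φ z)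
        have e : (Homeomorph.piSplitAt i A).symm (splitChart i φ z) = φ z :=
          (Homeomorph.piSplitAt i A).symm_apply_apply (φ z)
        rwa [e] at h
      filter_upwards [hc.eventually he] with q hq
      have h1 : ψ (φ.symm ((Homeomorph.piSplitAt i A).symm q)) =
          fun j => f j ((Homeomorph.piSplitAt i A).symm q j) := hq
      have h2 : (Homeomorph.piSplitAt i A) ((Homeomorph.piSplitAt i A).symm q) = q :=
        (Homeomorph.piSplitAt i A).apply_symm_apply q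
      have h3 : (Homeomorph.piSplitAt i A).symm q i = q.1 := congrArg Prod.fst h2
      have h4 : ∀ j : {j // j ≠ i}, (Homeomorph.piSplitAt i A).symm q j = q.2 j :=
        fun j => congrFun (congrArg Prod.snd h2) j
      change splitChart i ψ ((splitChart i φ).symm q) = _
      rw [splitChart_symm_apply, splitChart_apply, h1]
      simp only [h3, h4]

/-- The charts of the set of fixed points of `p` are first coordinates of product charts. -/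
def FixCharts {A B : Type*} [NormedAddCommGroup A] [NormedSpace ℂ A] [NormedAddCommGroup B]
    [NormedSpace ℂ B] (𝒜 : ProdAtlas Z A B) (p : Z → Z) [ChartedSpace A {y // p y = y}] : Prop :=
  ∀ y : {y // p y = y}, ∃ φ ∈ 𝒜.charts, y.1 ∈ φ.source ∧ ∀ y' ∈ (chartAt A y).source,
    y'.1 ∈ φ.source ∧ φ y'.1 = (chartAt A y y', (φ y.1).2)

/-- Near `z`, in the chart `φ`, the `i`-th component of `P` is a local isomorphism of the `i`-th
coordinate. -/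
def LocProd {Y : ι → Type*} [∀ i, TopologicalSpace (Y i)] [∀ i, ChartedSpace (A i) (Y i)]
    (P : Z → ∀ i, Y i) (φ : OpenPartialHomeomorph Z (∀ i, A i)) (z : Z) : Prop :=
  ∀ i, ∃ (f : A i → A i) (L : A i ≃L[ℂ] A i), AnalyticAt ℂ f (φ z i) ∧
    HasFDerivAt f (L : A i →L[ℂ] A i) (φ z i) ∧
    ∀ᶠ z' in 𝓝 z, chartAt (A i) (P z i) (P z' i) = f (φ z' i)

end Multi

section Bridge

variable (E : Type*) [NormedAddCommGroup E] [NormedSpace ℂ E]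
  {X : Type*} [TopologicalSpace X] [ChartedSpace E X]

/-- `φ` is a holomorphic chart with values in `D`. -/
def HolChart {D : Type*} [NormedAddCommGroup D] [NormedSpace ℂ D]
    (φ : OpenPartialHomeomorph X D) : Prop :=
  ContMDiffOn 𝓘(ℂ, E) 𝓘(ℂ, D) ω φ φ.source ∧ ContMDiffOn 𝓘(ℂ, D) 𝓘(ℂ, E) ω φ.symm φ.target

variable {E}

/-- `φ` is a holomorphic chart that carries `V i` to the `i`-th coordinate subspace. -/
def AdaptedChart {ι : Type} [Fintype ι] {A : ι → Type*} [∀ i, NormedAddCommGroup (A i)]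
    [∀ i, NormedSpace ℂ (A i)] (V : ι → ∀ x : X, Submodule ℂ (TangentSpace 𝓘(ℂ, E) x))
    (φ : OpenPartialHomeomorph X (∀ i, A i)) : Prop :=
  HolChart E φ ∧ ∀ x ∈ φ.source, ∀ i (v : TangentSpace 𝓘(ℂ, E) x), v ∈ V i x ↔
    ∀ j, j ≠ i → (mfderiv 𝓘(ℂ, E) 𝓘(ℂ, ∀ i, A i) φ x v : ∀ i, A i) j = 0

end Bridge

end Vale.Agent.P278
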