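import Vale.Agent.P278.Monot

/-! The area of the necks tends to zero near the vertex of the cone. -/

open Set Filter Topology Metric
open scoped Manifold ContDiff

namespace Vale.Agent.P278

namespace AreaAux

variable {O : Set (ℂ × ℂ)} {Ω : ℂ × ℂ → (ℂ × ℂ) →L[ℝ] (ℂ × ℂ) →L[ℝ] ℝ} {C : ℝ}

theorem cut_out {ρ : ℝ} (hρ : 0 < ρ) {y : ℂ} (hy : ρ ≤ ‖y‖) : cut (‖y‖ ^ 2 / ρ ^ 2) = 0 :=
  cut_eq_zero ((one_le_div (by positivity)).2 (pow_le_pow_left₀ hρ.le hy 2))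

theorem cut_in {ρ : ℝ} (hρ : 0 < ρ) {y : ℂ} (hy : ‖y‖ ≤ ρ / 2) : cut (‖y‖ ^ 2 / ρ ^ 2) = 1 := by
  refine cut_eq_one ((div_le_iff₀ (by positivity)).2 ?_)
  nlinarith [norm_nonneg y]

theorem continuous_cut : Continuous cut :=
  Real.smoothTransition.continuous.comp (by fun_prop)

theorem integrable (h : DiagForm O Ω C) {τ ρ : ℝ} (hρ : 0 < ρ)
    (hO : ∀ y : ℂ, ‖y‖ ≤ ρ → dpt τ y ∈ O) :
    MeasureTheory.Integrable fun y : ℂ =>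
      cut (‖y‖ ^ 2 / ρ ^ 2) * Ω (dpt τ y) dY (Complex.I • dY) := by
  refine MeasureTheory.IntegrableOn.integrable_of_forall_notMem_eq_zero
    (s := closedBall (0 : ℂ) ρ) (ContinuousOn.integrableOn_compact (isCompact_closedBall _ _) ?_)
    fun y hy => ?_
  · have h1 : Continuous (dpt τ) := by unfold dpt; fun_prop
    have h2 : ContinuousOn (fun y => Ω (dpt τ y)) (closedBall (0 : ℂ) ρ) :=
      h.smooth.continuousOn.comp h1.continuousOn fun y hy => hO y (by simpa using hy)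
    exact (continuous_cut.comp (by fun_prop)).continuousOn.mul
      ((h2.clm_apply continuousOn_const).clm_apply continuousOn_const)
  · rw [cut_out hρ (le_of_not_ge (by simpa using hy)), zero_mul]

theorem pt_mono (h : DiagForm O Ω C) {τ ρ ρ' : ℝ} (hρ : 0 < ρ) (hρ' : ρ ≤ ρ')
    (hO : ∀ y : ℂ, ‖y‖ ≤ ρ' → dpt τ y ∈ O) (y : ℂ) :
    cut (‖y‖ ^ 2 / ρ ^ 2) * Ω (dpt τ y) dY (Complex.I • dY) ≤
      cut (‖y‖ ^ 2 / ρ' ^ 2) * Ω (dpt τ y) dY (Complex.I • dY) := by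
  rcases le_total ‖y‖ ρ' with hy | hy
  · refine mul_le_mul_of_nonneg_right (cut_antitone ?_) (h.nonneg _ (hO y hy))
    exact div_le_div_of_nonneg_left (by positivity) (by positivity) (pow_le_pow_left₀ hρ.le hρ' 2)
  · rw [cut_out hρ (hρ'.trans hy), cut_out (hρ.trans_le hρ') hy]

theorem en_mono (h : DiagForm O Ω C) {τ ρ ρ' : ℝ} (hρ : 0 < ρ) (hρ' : ρ ≤ ρ')
    (hO : ∀ y : ℂ, ‖y‖ ≤ ρ' → dpt τ y ∈ O) : en Ω τ ρ ≤ en Ω τ ρ' :=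
  MeasureTheory.integral_mono (integrable h hρ fun y hy => hO y (hy.trans hρ'))
    (integrable h (hρ.trans_le hρ') hO) (pt_mono h hρ hρ' hO)

theorem en_nonneg (h : DiagForm O Ω C) {τ ρ : ℝ} (hρ : 0 < ρ)
    (hO : ∀ y : ℂ, ‖y‖ ≤ ρ → dpt τ y ∈ O) : 0 ≤ en Ω τ ρ := by
  refine MeasureTheory.integral_nonneg fun y => ?_
  rcases le_total ‖y‖ ρ with hy | hy
  · exact mul_nonneg (cut_nonneg _) (h.nonneg _ (hO y hy))
  · simp only [cut_out hρ hy, zero_mul, Pi.zero_apply, le_refl]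

end AreaAux

open AreaAux in
/-- Proof idea. `en Ω τ ρ` is monotone in `ρ ∈ (0, Λ τ]` (`cut_antitone`, integrand continuous with
compact support). By `monot`, `m τ = en Ω τ (Λ τ)` is monotone on `(0, τ₀]` and nonnegative; pick
`τ₁` with `m τ₁ ≤ inf m + ε`. For `τ ≤ τ₁` and `τ' = 2 C τ / Λ`, `monot` gives
`inf m ≤ m τ' ≤ en Ω τ (4 C τ)`, so `en Ω τ (Λ τ) - en Ω τ (4 C τ) ≤ ε`, and the difference of the
two cutoffs is nonnegative and equals `1` on the disc. -/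
theorem area_small {O : Set (ℂ × ℂ)} {Ω : ℂ × ℂ → (ℂ × ℂ) →L[ℝ] (ℂ × ℂ) →L[ℝ] ℝ} {C : ℝ}
    (h : DiagForm O Ω C) (hC : 0 < C) {Λ τ₀ : ℝ} (hΛ : 4 * C ≤ Λ) (hτ₀ : 0 < τ₀)
    (hO : ∀ τ ∈ Ioc 0 τ₀, ∀ y : ℂ, ‖y‖ ≤ Λ * τ → dpt τ y ∈ O) {ε : ℝ} (hε : 0 < ε) :
    ∃ τ₁ ∈ Ioc 0 τ₀, ∀ τ ∈ Ioc 0 τ₁, ∀ (y₀ : ℂ) (ρ : ℝ),
      (∀ y ∈ closedBall y₀ ρ, 4 * C * τ ≤ ‖y‖ ∧ ‖y‖ ≤ Λ * τ / 2) →
      ∫ y in closedBall y₀ ρ, Ω (dpt τ y) dY (Complex.I • dY) ≤ ε := by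
  have hΛ0 : 0 < Λ := by linarith
  have key : ∀ τ' τ ρ : ℝ, 0 < τ' → τ' ≤ τ → τ ≤ τ₀ → Λ * τ' + 2 * C * (τ - τ') ≤ ρ →
      ρ ≤ Λ * τ → en Ω τ' (Λ * τ') ≤ en Ω τ ρ := fun τ' τ ρ h0 h1 h2 h3 h4 => by
    have a1 := monot h hC h1 (mul_pos hΛ0 h0) fun s hs y hy =>
      hO s ⟨h0.trans_le hs.1, hs.2.trans h2⟩ y (hy.trans (by nlinarith [hs.1]))
    have a2 : 0 < Λ * τ' + 2 * C * (τ - τ') := by
      have := mul_pos hΛ0 h0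
      nlinarith
    exact a1.trans (en_mono h a2 h3 fun y hy => hO τ ⟨h0.trans_le h1, h2⟩ y (hy.trans h4))
  have hbd : BddBelow ((fun τ => en Ω τ (Λ * τ)) '' Ioc 0 τ₀) := by
    refine ⟨0, ?_⟩
    rintro _ ⟨τ, hτ, rfl⟩
    exact en_nonneg h (mul_pos hΛ0 hτ.1) (hO τ hτ)
  obtain ⟨_, ⟨τ₁, hτ₁, rfl⟩, hlt⟩ := exists_lt_of_csInf_lt
    (s := (fun τ => en Ω τ (Λ * τ)) '' Ioc 0 τ₀) ⟨_, τ₀, ⟨hτ₀, le_rfl⟩, rfl⟩
    (lt_add_of_pos_right _ hε)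
  refine ⟨τ₁, hτ₁, fun τ hτ y₀ ρ hy => ?_⟩
  have hτ' : τ ∈ Ioc 0 τ₀ := ⟨hτ.1, hτ.2.trans hτ₁.2⟩
  have hp := hτ.1
  have b1 : en Ω τ (Λ * τ) ≤ en Ω τ₁ (Λ * τ₁) :=
    key τ τ₁ _ hτ.1 hτ.2 hτ₁.2 (by nlinarith [hτ.2]) le_rfl
  have c0 : 0 < 2 * C * τ / Λ := by positivity
  have c1 : Λ * (2 * C * τ / Λ) = 2 * C * τ := by field_simp
  have c2 : 2 * C * τ / Λ ≤ τ := by
    rw [div_le_iff₀ hΛ0]
    nlinarith
  have c3 : 4 * C * τ ≤ Λ * τ := mul_le_mul_of_nonneg_right hΛ hp.le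
  have c4 : 0 < 4 * C * τ := by positivity
  have b2 := key _ τ (4 * C * τ) c0 c2 hτ'.2 (by rw [c1]; nlinarith) c3
  have b3 := csInf_le hbd ⟨2 * C * τ / Λ, ⟨c0, c2.trans hτ'.2⟩, rfl⟩
  have i1 := integrable h (mul_pos hΛ0 hp) (hO τ hτ')
  have i2 := integrable h c4 fun y hy => hO τ hτ' y (hy.trans c3)
  have b4 := MeasureTheory.setIntegral_le_integral (s := closedBall y₀ ρ) (i1.sub i2)
    (Eventually.of_forall fun y => sub_nonneg.2 (pt_mono h c4 c3 (hO τ hτ') y))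
  have b5 : ∫ y in closedBall y₀ ρ, Ω (dpt τ y) dY (Complex.I • dY) ≤
      en Ω τ (Λ * τ) - en Ω τ (4 * C * τ) := by
    rw [en, en, ← MeasureTheory.integral_sub i1 i2]
    refine le_of_eq_of_le (MeasureTheory.setIntegral_congr_fun measurableSet_closedBall
      fun y hy' => ?_) b4
    simp only [Pi.sub_apply, cut_in (mul_pos hΛ0 hp) (hy y hy').2, cut_out c4 (hy y hy').1]
    ring
  simp only at hlt b3
  linarith

end Vale.Agent.P278
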