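import Vale.Agent.P278.Glue

/-! The maximal completed rectangle. -/

open Set Filter Topology Metric
open scoped Manifold ContDiff

namespace Vale.Agent.P278

variable {A B A' B' D : Type*} [NormedAddCommGroup A] [NormedSpace ℂ A]
  [NormedAddCommGroup B] [NormedSpace ℂ B] [NormedAddCommGroup A'] [NormedSpace ℂ A']
  [NormedAddCommGroup B'] [NormedSpace ℂ B'] [NormedAddCommGroup D] [NormedSpace ℂ D]
  {Z : Type*} [TopologicalSpace Z] {𝒜 : ProdAtlas Z A B}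

namespace BRC1Aux

theorem near {E : Type*} [NormedAddCommGroup E] [NormedSpace ℂ E] {s : E} (hs : s ≠ 0) {ε : ℝ}
    (hε : 0 < ε) : ∃ s₁ ∈ ball s ε, s₁ ∈ ball (0 : E) ‖s‖ :=
  mem_closure_iff.1 (show s ∈ closure (ball (0 : E) ‖s‖) by
    rw [closure_ball _ (norm_ne_zero_iff.2 hs)]; simp) _ isOpen_ball (mem_ball_self hε)

theorem at_pt [CompleteSpace A] [CompleteSpace B] {φ : OpenPartialHomeomorph Z (A × B)}
    (hφ : φ ∈ 𝒜.charts) {q : A × B} {R : ℝ} (hq : ball q R ⊆ φ.target) {G₁ : A' → Z}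
    {G₂ : B' → Z} {p : A' × B'}
    (hG₁ : HorAt 𝒜 G₁ p.1 ∧ G₁ p.1 ∈ φ.source ∧ φ (G₁ p.1) ∈ ball q R)
    (hG₂ : VerAt 𝒜 G₂ p.2 ∧ G₂ p.2 ∈ φ.source ∧ φ (G₂ p.2) ∈ ball q R) :
    CompatAt 𝒜 (fun p : A' × B' => φ.symm ((φ (G₁ p.1)).1, (φ (G₂ p.2)).2)) p := by
  obtain ⟨δ, hδ, h⟩ := localExt hφ hq isCompact_singleton isCompact_singleton
    (forall_eq.2 hG₁) (forall_eq.2 hG₂)
  exact h p ⟨self_subset_thickening hδ _ rfl, self_subset_thickening hδ _ rfl⟩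

theorem ev_hor [CompleteSpace A] [CompleteSpace B] {φ : OpenPartialHomeomorph Z (A × B)}
    {q : A × B} {R : ℝ} {g : A' → Z} {s : A'} (hg : HorAt 𝒜 g s) (h1 : g s ∈ φ.source)
    (h2 : φ (g s) ∈ ball q R) :
    ∀ᶠ a in 𝓝 s, HorAt 𝒜 g a ∧ g a ∈ φ.source ∧ φ (g a) ∈ ball q R :=
  hg.eventually.and ((hg.1.eventually (φ.open_source.mem_nhds h1)).and
    (((φ.continuousAt h1).comp hg.1).eventually (isOpen_ball.mem_nhds h2)))

theorem ev_ver [CompleteSpace A] [CompleteSpace B] {φ : OpenPartialHomeomorph Z (A × B)}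
    {q : A × B} {R : ℝ} {g : B' → Z} {s : B'} (hg : VerAt 𝒜 g s) (h1 : g s ∈ φ.source)
    (h2 : φ (g s) ∈ ball q R) :
    ∀ᶠ a in 𝓝 s, VerAt 𝒜 g a ∧ g a ∈ φ.source ∧ φ (g a) ∈ ball q R :=
  hg.eventually.and ((hg.1.eventually (φ.open_source.mem_nhds h1)).and
    (((φ.continuousAt h1).comp hg.1).eventually (isOpen_ball.mem_nhds h2)))

theorem chart (𝒜 : ProdAtlas Z A B) (z : Z) :
    ∃ φ ∈ 𝒜.charts, z ∈ φ.source ∧ ∃ R > 0, ball (φ z) R ⊆ φ.target := by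
  obtain ⟨φ, hφ, hz⟩ := 𝒜.cover z
  exact ⟨φ, hφ, hz, Metric.mem_nhds_iff.1 (φ.open_target.mem_nhds (φ.map_source hz))⟩

end BRC1Aux

open BRC1Aux

/-- Proof idea: two witnesses of `Ex` agree near `(0,0)` (`CompatAt.agree`), hence on the common
product of balls (`ident`). Define `F p` as the value at `p` of a chosen witness. -/
theorem exDom_glue [T2Space Z] [CompleteSpace A] [CompleteSpace B] (g : A → Z) (h : ℂ → Z) :
    IsOpen (ExDom 𝒜 g h) ∧ ∃ F : A × ℂ → Z, (∀ p ∈ ExDom 𝒜 g h, CompatAt 𝒜 F p) ∧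
      (∀ a : A, (a, (0 : ℂ)) ∈ ExDom 𝒜 g h → F (a, 0) = g a) ∧
      ∀ b : ℂ, ((0 : A), b) ∈ ExDom 𝒜 g h → F (0, b) = h b := by
  have : Nonempty (A × ℂ → Z) := ⟨fun _ => g 0⟩
  have h0 : ∀ p ∈ ExDom 𝒜 g h, ∃ (r ρ : ℝ) (F : A × ℂ → Z), p ∈ ball (0 : A) r ×ˢ ball (0 : ℂ) ρ ∧
      (∀ p ∈ ball (0 : A) r ×ˢ ball (0 : ℂ) ρ, CompatAt 𝒜 F p) ∧
      (∀ a ∈ ball (0 : A) r, F (a, 0) = g a) ∧ ∀ b ∈ ball (0 : ℂ) ρ, F (0, b) = h b :=
    fun p ⟨r, ρ, h1, h2, F, hF⟩ =>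
      ⟨r, ρ, F, ⟨mem_ball_zero_iff.2 h1, mem_ball_zero_iff.2 h2⟩, hF⟩
  choose! r ρ F h1 h2 h3 h4 using h0
  have h5 : ∀ p ∈ ExDom 𝒜 g h, ball (0 : A) (r p) ×ˢ ball (0 : ℂ) (ρ p) ⊆ ExDom 𝒜 g h :=
    fun p hp q hq => ⟨r p, ρ p, mem_ball_zero_iff.1 hq.1, mem_ball_zero_iff.1 hq.2, F p, h2 p hp,
      h3 p hp, h4 p hp⟩
  have h6 : ∀ p ∈ ExDom 𝒜 g h, ball (0 : A) (r p) ×ˢ ball (0 : ℂ) (ρ p) ∈ 𝓝 p := fun p hp =>
    (isOpen_ball.prod isOpen_ball).mem_nhds (h1 p hp)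
  have h7 : ∀ p ∈ ExDom 𝒜 g h, ∀ q ∈ ball (0 : A) (r p) ×ˢ ball (0 : ℂ) (ρ p),
      F p q = F q q := fun p hp q hq => by
    have hq' := h5 p hp hq
    have a1 := pos_of_mem_ball hq.1
    have a2 := pos_of_mem_ball hq.2
    have a3 := pos_of_mem_ball (h1 q hq').1
    have a4 := pos_of_mem_ball (h1 q hq').2
    have b1 : ((0 : A), (0 : ℂ)) ∈ ball (0 : A) (r p) ×ˢ ball (0 : ℂ) (ρ p) :=
      ⟨mem_ball_self a1, mem_ball_self a2⟩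
    have b2 : ((0 : A), (0 : ℂ)) ∈ ball (0 : A) (r q) ×ˢ ball (0 : ℂ) (ρ q) :=
      ⟨mem_ball_self a3, mem_ball_self a4⟩
    refine (ident (((convex_ball _ _).prod (convex_ball _ _)).inter
      ((convex_ball _ _).prod (convex_ball _ _))).isPreconnected
      (fun x hx => (h2 p hp x hx.1).holAt) (fun x hx => (h2 q hq' x hx.2).holAt) (mem_inter b1 b2)
      ((h2 p hp _ b1).agree (h2 q hq' _ b2) ?_ ?_) q (mem_inter hq (h1 q hq'))).eq_of_nhds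
    · filter_upwards [ball_mem_nhds _ a1, ball_mem_nhds _ a3] with a c1 c2
      rw [h3 p hp a c1, h3 q hq' a c2]
    · filter_upwards [ball_mem_nhds _ a2, ball_mem_nhds _ a4] with a c1 c2
      rw [h4 p hp a c1, h4 q hq' a c2]
  exact ⟨isOpen_iff_mem_nhds.2 fun p hp => mem_of_superset (h6 p hp) (h5 p hp), fun q => F q q,
    fun p hp => (h2 p hp p (h1 p hp)).congr (mem_of_superset (h6 p hp) (h7 p hp)),
    fun a ha => h3 _ ha a (h1 _ ha).1, fun b hb => h4 _ hb b (h1 _ hb).2⟩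

/-- Proof idea: `localExt` with the two one-point sets, in a chart at `g 0 = h 0`; shrink `δ` so that
`φ ∘ g` and `φ ∘ h` have their normal forms on the balls. -/
theorem ex_small [CompleteSpace A] [CompleteSpace B] {g : A → Z} {h : ℂ → Z}
    (hg : HorAt 𝒜 g 0) (hh : VerAt 𝒜 h 0) (h0 : g 0 = h 0) : ∃ δ > 0, Ex 𝒜 g h δ δ := by
  obtain ⟨φ, hφ, h1, R, hR, h2⟩ := chart 𝒜 (g 0)
  obtain ⟨f₁, -, e₁⟩ := hg.2 φ hφ h1
  obtain ⟨f₂, -, e₂⟩ := hh.2 φ hφ (h0 ▸ h1)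
  obtain ⟨δ₁, d₁, a₁⟩ := Metric.eventually_nhds_iff_ball.1
    ((ev_hor hg h1 (mem_ball_self hR)).and e₁)
  obtain ⟨δ₂, d₂, a₂⟩ := Metric.eventually_nhds_iff_ball.1
    ((ev_ver hh (h0 ▸ h1) (mem_of_eq_of_mem (congrArg φ h0.symm) (mem_ball_self hR))).and e₂)
  refine ⟨min δ₁ δ₂, lt_min d₁ d₂, _, fun p hp => at_pt hφ h2
    (a₁ _ (ball_subset_ball (min_le_left _ _) hp.1)).1
    (a₂ _ (ball_subset_ball (min_le_right _ _) hp.2)).1, fun a ha => ?_, fun b hb => ?_⟩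
  · obtain ⟨c1, c2⟩ := a₁ _ (ball_subset_ball (min_le_left _ _) ha)
    have c3 : (φ (g a)).2 = (φ (g 0)).2 := (Prod.ext_iff.1 c2).2
    simp only [← h0, ← c3, φ.left_inv c1.2.1]
  · obtain ⟨c1, c2⟩ := a₂ _ (ball_subset_ball (min_le_right _ _) hb)
    have c3 : (φ (h b)).1 = (φ (h 0)).1 := (Prod.ext_iff.1 c2).1
    simp only [h0, ← c3, φ.left_inv c1.2.1]

/-- Extension across a point of the horizontal axis. Proof idea: take a chart `φ` at `g s`, a point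
`s₁ = (1 - η) s` close to `s` such that `g` maps the segment `[s₁, s]` into a small ball of the
chart, `localExt` with `S₁` the segment, `S₂ = {0}`, `G₁ = g`, `G₂ = F (s₁, ·)`; the new map agrees
with `F` near `(s₁, 0)` (`CompatAt.local_form`), hence near every `m` by `ident` on the segment from
`(s₁, 0)` to `m` (thickenings of convex sets are convex). -/
theorem ext_hor [T2Space Z] [CompleteSpace A] [CompleteSpace B] {g : A → Z} {F : A × ℂ → Z}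
    {s : A} (hs : s ≠ 0) (hg : HorAt 𝒜 g s)
    (hF : ∀ a : A, ‖a‖ < ‖s‖ → CompatAt 𝒜 F (a, 0) ∧ F (a, 0) = g a) :
    ∃ (W : Set (A × ℂ)) (G : A × ℂ → Z), IsOpen W ∧ (s, (0 : ℂ)) ∈ W ∧
      (∀ q ∈ W, CompatAt 𝒜 G q) ∧ ∀ a : A, ‖a‖ < ‖s‖ → (a, (0 : ℂ)) ∈ W → G =ᶠ[𝓝 (a, 0)] F := by
  obtain ⟨φ, hφ, h1, R, hR, h2⟩ := chart 𝒜 (g s)
  obtain ⟨ε, hε, a₁⟩ := Metric.eventually_nhds_iff_ball.1 (ev_hor hg h1 (mem_ball_self hR))
  obtain ⟨s₁, b1, b2⟩ := near hs hε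
  obtain ⟨c1, c2⟩ := hF s₁ (mem_ball_zero_iff.1 b2)
  have c3 : F (s₁, 0) ∈ φ.source := c2 ▸ (a₁ _ b1).2.1
  obtain ⟨δ, hδ, a₂⟩ := Metric.eventually_nhds_iff_ball.1
    (ev_ver (q := φ (g s)) (R := R) c1.verAt c3 (mem_of_eq_of_mem (congrArg φ c2) (a₁ _ b1).2.2))
  have h3 := fun p (hp : p ∈ ball s ε ×ˢ ball (0 : ℂ) δ) => at_pt hφ h2 (a₁ _ hp.1) (a₂ _ hp.2)
  refine ⟨ball s ε ×ˢ ball 0 δ, _, isOpen_ball.prod isOpen_ball,
    ⟨mem_ball_self hε, mem_ball_self hδ⟩, h3, fun a ha ha' => ident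
      (((convex_ball s ε).inter (convex_ball 0 ‖s‖)).prod (convex_singleton 0)).isPreconnected
      (fun x hx => (h3 x ⟨hx.1.1, mem_of_eq_of_mem hx.2 (mem_ball_self hδ)⟩).holAt)
      (fun x hx => ?_) (mk_mem_prod (mem_inter b1 b2) (mem_singleton _)) ?_ _
      (mk_mem_prod (mem_inter ha'.1 (mem_ball_zero_iff.2 ha)) (mem_singleton _))⟩
  · obtain ⟨x, y⟩ := x
    obtain rfl : y = 0 := hx.2
    exact (hF x (mem_ball_zero_iff.1 hx.1.2)).1.holAt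
  · filter_upwards [c1.local_form hφ c3, continuousAt_fst.eventually
      (isOpen_ball.mem_nhds (show (s₁, (0 : ℂ)).1 ∈ _ from b2))] with p d1 d2
    rw [d1, (hF p.1 (mem_ball_zero_iff.1 d2)).2]

/-- Extension across a point of the vertical axis; the same proof. -/
theorem ext_ver [T2Space Z] [CompleteSpace A] [CompleteSpace B] {h : ℂ → Z} {F : A × ℂ → Z}
    {t : ℂ} (ht : t ≠ 0) (hh : VerAt 𝒜 h t)
    (hF : ∀ b : ℂ, ‖b‖ < ‖t‖ → CompatAt 𝒜 F (0, b) ∧ F (0, b) = h b) :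
    ∃ (W : Set (A × ℂ)) (G : A × ℂ → Z), IsOpen W ∧ ((0 : A), t) ∈ W ∧
      (∀ q ∈ W, CompatAt 𝒜 G q) ∧ ∀ b : ℂ, ‖b‖ < ‖t‖ → ((0 : A), b) ∈ W → G =ᶠ[𝓝 (0, b)] F := by
  obtain ⟨φ, hφ, h1, R, hR, h2⟩ := chart 𝒜 (h t)
  obtain ⟨ε, hε, a₁⟩ := Metric.eventually_nhds_iff_ball.1 (ev_ver hh h1 (mem_ball_self hR))
  obtain ⟨s₁, b1, b2⟩ := near ht hε
  obtain ⟨c1, c2⟩ := hF s₁ (mem_ball_zero_iff.1 b2)
  have c3 : F (0, s₁) ∈ φ.source := c2 ▸ (a₁ _ b1).2.1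
  obtain ⟨δ, hδ, a₂⟩ := Metric.eventually_nhds_iff_ball.1
    (ev_hor (q := φ (h t)) (R := R) c1.horAt c3 (mem_of_eq_of_mem (congrArg φ c2) (a₁ _ b1).2.2))
  have h3 := fun p (hp : p ∈ ball (0 : A) δ ×ˢ ball t ε) => at_pt hφ h2 (a₂ _ hp.1) (a₁ _ hp.2)
  refine ⟨ball 0 δ ×ˢ ball t ε, _, isOpen_ball.prod isOpen_ball,
    ⟨mem_ball_self hδ, mem_ball_self hε⟩, h3, fun a ha ha' => ident
      ((convex_singleton 0).prod ((convex_ball t ε).inter (convex_ball 0 ‖t‖))).isPreconnected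
      (fun x hx => (h3 x ⟨mem_of_eq_of_mem hx.1 (mem_ball_self hδ), hx.2.1⟩).holAt)
      (fun x hx => ?_) (mk_mem_prod (mem_singleton _) (mem_inter b1 b2)) ?_ _
      (mk_mem_prod (mem_singleton _) (mem_inter ha'.2 (mem_ball_zero_iff.2 ha)))⟩
  · obtain ⟨x, y⟩ := x
    obtain rfl : x = 0 := hx.1
    exact (hF y (mem_ball_zero_iff.1 hx.2.2)).1.holAt
  · filter_upwards [c1.local_form hφ c3, continuousAt_snd.eventually
      (isOpen_ball.mem_nhds (show ((0 : A), s₁).2 ∈ _ from b2))] with p d1 d2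
    rw [d1, (hF p.2 (mem_ball_zero_iff.1 d2)).2]

end Vale.Agent.P278
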