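import Vale.Agent.P278.Glue

/-! Extension across a corner point, from the cone property. -/

open Set Filter Topology Metric
open scoped Manifold ContDiff

namespace Vale.Agent.P278

variable {A B A' B' D : Type*} [NormedAddCommGroup A] [NormedSpace ℂ A]
  [NormedAddCommGroup B] [NormedSpace ℂ B] [NormedAddCommGroup A'] [NormedSpace ℂ A']
  [NormedAddCommGroup B'] [NormedSpace ℂ B'] [NormedAddCommGroup D] [NormedSpace ℂ D]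
  {Z : Type*} [TopologicalSpace Z] {𝒜 : ProdAtlas Z A B}

namespace BRC2Aux

theorem norm_one_add_le (x : ℂ) : ‖1 + x‖ ≤ 1 + x.re + ‖x‖ ^ 2 / 2 := by
  have h1 : ‖1 + x‖ ^ 2 = 1 + 2 * x.re + ‖x‖ ^ 2 := by
    rw [Complex.sq_norm, Complex.sq_norm, Complex.normSq_apply, Complex.normSq_apply]
    simp
    ring
  nlinarith [sq_nonneg (‖1 + x‖ - 1)]

theorem gap {E : Type*} [NormedAddCommGroup E] [NormedSpace ℂ E] {s : E} {R α e : ℝ} {z : ℂ}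
    (hα : 0 < α) (hR : R - ‖s‖ = α * ‖s‖) (he : α * ‖z‖ ^ 2 / 2 ≤ e) :
    (R - ‖s‖) * (1 - z.re - e) ≤ R - ‖(1 + (α : ℂ) * z) • s‖ := by
  have h1 := norm_one_add_le ((α : ℂ) * z)
  rw [norm_mul, Complex.norm_real, Real.norm_eq_abs, abs_of_pos hα, Complex.re_ofReal_mul] at h1
  have h2 := mul_le_mul_of_nonneg_right h1 (norm_nonneg s)
  have h3 := mul_le_mul_of_nonneg_left he (mul_nonneg hα.le (norm_nonneg s))
  rw [norm_smul]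
  have h4 : R = ‖s‖ + α * ‖s‖ := by linarith
  rw [h4]
  nlinarith

theorem prod_lt {U V a b τ u Λ : ℝ} (hU : 0 < U) (hV : 0 < V) (hτ : 0 < τ) (hΛ : 1 ≤ Λ)
    (hΛτ : Λ ^ 2 * τ ≤ 1 / 2) (hu : |u| ≤ Λ * τ) (ha : U * (1 + τ / 2 - u) ≤ a)
    (hb : V * (1 + τ / 2 + u) ≤ b) : 0 < a ∧ 0 < b ∧ U * V < a * b := by
  have h1 : Λ * τ ≤ 1 / 2 := by nlinarith [mul_pos (show 0 < Λ by linarith) hτ]
  obtain ⟨h2, h3⟩ := abs_le.1 hu
  have h4 : 0 < 1 + τ / 2 - u := by linarith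
  have h5 : 0 < 1 + τ / 2 + u := by linarith
  have h6 := mul_pos hU h4
  have h7 := mul_pos hV h5
  refine ⟨by linarith, by linarith, ?_⟩
  have h8 : u ^ 2 ≤ (Λ * τ) ^ 2 := sq_le_sq' h2 h3
  have h9 : 1 < (1 + τ / 2 - u) * (1 + τ / 2 + u) := by nlinarith
  have h10 : U * V * 1 < U * V * ((1 + τ / 2 - u) * (1 + τ / 2 + u)) :=
    mul_lt_mul_of_pos_left h9 (mul_pos hU hV)
  have h11 := mul_le_mul ha hb h7.le (by linarith)
  nlinarith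

theorem norm_real_smul {E : Type*} [NormedAddCommGroup E] [NormedSpace ℂ E] (s : E) {c : ℝ}
    (h1 : c ≤ 1) : ‖(1 - c) • s‖ = ‖s‖ - c * ‖s‖ := by
  rw [norm_smul, Real.norm_eq_abs, abs_of_nonneg (by linarith)]
  ring

theorem mem_seg {E : Type*} [NormedAddCommGroup E] [NormedSpace ℂ E] {s x : E} {c : ℝ}
    (hx : x ∈ segment ℝ ((1 - c) • s) s) : ∃ a : ℝ, 0 ≤ a ∧ a ≤ 1 ∧ x = (1 - c * a) • s := by
  obtain ⟨a, b, ha, hb, hab, rfl⟩ := hx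
  refine ⟨a, ha, by linarith, ?_⟩
  rw [smul_smul, ← add_smul]
  congr 1
  rw [show b = 1 - a by linarith]
  ring

theorem compact_seg {E : Type*} [NormedAddCommGroup E] [NormedSpace ℂ E] (x y : E) :
    IsCompact (segment ℝ x y) := by
  rw [segment_eq_image]
  exact isCompact_Icc.image (by fun_prop)

theorem smul_eq {E : Type*} [NormedAddCommGroup E] [NormedSpace ℂ E] (s : E) {c : ℝ} {z : ℂ}
    (h : z = (c : ℂ)) : z • s = c • s := by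
  rw [h, Complex.coe_smul]

/-- the wide cone is mapped into `Ω` -/
theorem cone_in {Ω : Set (A × ℂ)} {R₁ R₂ α β Λ : ℝ} {s : A} {t : ℂ} (hs₁ : ‖s‖ < R₁)
    (ht₂ : ‖t‖ < R₂) (hα : 0 < α) (hβ : 0 < β) (hR₁ : R₁ - ‖s‖ = α * ‖s‖)
    (hR₂ : R₂ - ‖t‖ = β * ‖t‖) (hΛ : 1 ≤ Λ)
    (hin : ∀ p : A × ℂ, ‖p.1‖ < R₁ → ‖p.2‖ < R₂ →
      (R₁ - ‖s‖) * (R₂ - ‖t‖) < (R₁ - ‖p.1‖) * (R₂ - ‖p.2‖) → p ∈ Ω) :
    ∃ τ₀ > 0, ∀ τ ∈ Ioc (0 : ℝ) τ₀, ∀ y : ℂ, ‖y‖ ≤ Λ * τ →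
      ((1 + (α : ℂ) * (dpt τ y).1) • s, (1 + (β : ℂ) * (dpt τ y).2) • t) ∈ Ω := by
  have hΛ0 : 0 < Λ := by linarith
  refine ⟨min (1 / (2 * Λ ^ 2)) (1 / ((α + β) * (1 + Λ) ^ 2)), by positivity, ?_⟩
  rintro τ ⟨hτ, hτ₀⟩ y hy
  have h1 : Λ ^ 2 * τ ≤ 1 / 2 := by
    have := (le_div_iff₀ (by positivity)).1 (hτ₀.trans (min_le_left _ _))
    linarith
  have h2 : τ * ((α + β) * (1 + Λ) ^ 2) ≤ 1 :=
    (le_div_iff₀ (by positivity)).1 (hτ₀.trans (min_le_right _ _))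
  have hn : ‖-(τ : ℂ)‖ = τ := by
    rw [norm_neg, Complex.norm_real, Real.norm_eq_abs, abs_of_pos hτ]
  have key : ∀ (γ : ℝ) (z : ℂ), 0 < γ → γ ≤ α + β → ‖z‖ ≤ (1 + Λ) * τ →
      γ * ‖z‖ ^ 2 / 2 ≤ τ / 2 := by
    intro γ z hγ hγ' hz
    have h3 : ‖z‖ ^ 2 ≤ ((1 + Λ) * τ) ^ 2 := pow_le_pow_left₀ (norm_nonneg _) hz 2
    have h4 : γ * ‖z‖ ^ 2 ≤ (α + β) * ((1 + Λ) * τ) ^ 2 :=
      mul_le_mul hγ' h3 (by positivity) (by positivity)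
    have h5 := mul_le_mul_of_nonneg_left h2 hτ.le
    nlinarith
  have h3 := gap (s := s) (z := (dpt τ y).1) hα hR₁ (key α _ hα (by linarith) (by
    refine (norm_add_le _ _).trans ?_
    rw [hn]
    linarith))
  have h4 := gap (s := t) (z := (dpt τ y).2) hβ hR₂ (key β _ hβ (by linarith) (by
    refine (norm_sub_le _ _).trans ?_
    rw [hn]
    linarith))
  have h5 : 1 - (dpt τ y).1.re - τ / 2 = 1 + τ / 2 - y.re := by
    simp [dpt]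
    ring
  have h6 : 1 - (dpt τ y).2.re - τ / 2 = 1 + τ / 2 + y.re := by
    simp [dpt]
    ring
  rw [h5] at h3
  rw [h6] at h4
  obtain ⟨h7, h8, h9⟩ := prod_lt (sub_pos.2 hs₁) (sub_pos.2 ht₂) hτ hΛ h1
    ((Complex.abs_re_le_norm y).trans hy) h3 h4
  exact hin _ (sub_pos.1 h7) (sub_pos.1 h8) h9

/-- the set of points below the corner -/
def low (s : A) (t : ℂ) : Set (A × ℂ) :=
  {m | ‖m.1‖ ≤ ‖s‖ ∧ ‖m.2‖ ≤ ‖t‖ ∧ ‖m.1‖ + ‖m.2‖ < ‖s‖ + ‖t‖}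

theorem convex_low (s : A) (t : ℂ) : Convex ℝ (low s t) := by
  rintro x ⟨x1, x2, x3⟩ y ⟨y1, y2, y3⟩ a b ha hb hab
  have h1 : ‖(a • x + b • y).1‖ ≤ a * ‖x.1‖ + b * ‖y.1‖ := by
    refine (norm_add_le _ _).trans (le_of_eq ?_)
    rw [Prod.smul_fst, Prod.smul_fst, norm_smul, norm_smul, Real.norm_of_nonneg ha,
      Real.norm_of_nonneg hb]
  have h2 : ‖(a • x + b • y).2‖ ≤ a * ‖x.2‖ + b * ‖y.2‖ := by
    refine (norm_add_le _ _).trans (le_of_eq ?_)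
    rw [Prod.smul_snd, Prod.smul_snd, norm_smul, norm_smul, Real.norm_of_nonneg ha,
      Real.norm_of_nonneg hb]
  have h3 := convex_Iio (𝕜 := ℝ) (‖s‖ + ‖t‖) x3 y3 ha hb hab
  have h4 := convex_Iic (𝕜 := ℝ) ‖s‖ x1 y1 ha hb hab
  have h5 := convex_Iic (𝕜 := ℝ) ‖t‖ x2 y2 ha hb hab
  simp only [smul_eq_mul, mem_Iio, mem_Iic] at h3 h4 h5
  exact ⟨by linarith, by linarith, by linarith⟩

omit [NormedSpace ℂ A] in
theorem low_subset {Ω : Set (A × ℂ)} {R₁ R₂ : ℝ} {s : A} {t : ℂ} (hs₁ : ‖s‖ < R₁)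
    (ht₂ : ‖t‖ < R₂)
    (hin : ∀ p : A × ℂ, ‖p.1‖ < R₁ → ‖p.2‖ < R₂ →
      (R₁ - ‖s‖) * (R₂ - ‖t‖) < (R₁ - ‖p.1‖) * (R₂ - ‖p.2‖) → p ∈ Ω) : low s t ⊆ Ω := by
  rintro p ⟨h1, h2, h3⟩
  refine hin p (by linarith) (by linarith) ?_
  have h4 := sub_pos.2 hs₁
  have h5 := sub_pos.2 ht₂
  rcases h1.lt_or_eq with h6 | h6
  · exact mul_lt_mul (by linarith) (by linarith) h5 (by linarith)
  · rw [h6]
    exact mul_lt_mul_of_pos_left (by linarith) h4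

end BRC2Aux

open BRC2Aux in
/-- Proof idea. Put `U = R₁ - ‖s‖`, `V = R₂ - ‖t‖`, `α = U / ‖s‖`, `β = V / ‖t‖` and
`H (σ,θ) = F ((1 + α σ) • s, (1 + β θ) * t)` (`CompatAt.comp`), `O` the preimage of `Ω`.
Since `‖1 + x‖ ≤ 1 + re x + ‖x‖^2 / 2`, at `dpt τ y` with `‖y‖ ≤ Λ τ` one has
`R₁ - ‖·‖ ≥ U (1 + τ - re y - η)`, `R₂ - ‖·‖ ≥ V (1 + τ + re y - η)` with
`η = max α β (1+Λ)^2 τ^2 / 2`, and the product of the brackets is `> 1` for small `τ`; so the cone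
lies in `O`. Take `φ q R τ₂` from the cone property and `τ` small (`2τ < τ₂`, `2ατ < 1`,
`2βτ < 1`), `s₁ = (1 - 2ατ) s`, `t₁ = (1 - 2βτ) t`. The points `(σ, -2τ)` and `(-2τ, σ)`,
`σ ∈ [-2τ, 0]`, are `dpt τ' y` with `τ' = τ - σ/2`, `y = ±(τ + σ/2)`. Apply `localExt` to the
segments `[s₁, s]`, `[t₁, t]`, `G₁ = F (·, t₁)`, `G₂ = F (s₁, ·)`; the new map agrees with `F` near
`(s₁, t₁)` (`CompatAt.local_form`), and near `m` by `ident` on the segment from `(s₁, t₁)` to `m`,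
which lies in `W` (convex) and in `Ω`. -/
theorem ext_corner [T2Space Z] [CompleteSpace A] [CompleteSpace B] (hcone : ConeProp 𝒜)
    {F : A × ℂ → Z} {Ω : Set (A × ℂ)} (hΩ : IsOpen Ω) (hF : ∀ p ∈ Ω, CompatAt 𝒜 F p)
    {R₁ R₂ : ℝ} {s : A} {t : ℂ} (hs : s ≠ 0) (ht : t ≠ 0) (hs₁ : ‖s‖ < R₁) (ht₂ : ‖t‖ < R₂)
    (hin : ∀ p : A × ℂ, ‖p.1‖ < R₁ → ‖p.2‖ < R₂ →
      (R₁ - ‖s‖) * (R₂ - ‖t‖) < (R₁ - ‖p.1‖) * (R₂ - ‖p.2‖) → p ∈ Ω) :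
    ∃ (W : Set (A × ℂ)) (G : A × ℂ → Z), IsOpen W ∧ (s, t) ∈ W ∧ (∀ q ∈ W, CompatAt 𝒜 G q) ∧
      ∀ m ∈ W, ‖m.1‖ ≤ ‖s‖ → ‖m.2‖ ≤ ‖t‖ → ‖m.1‖ + ‖m.2‖ < ‖s‖ + ‖t‖ → G =ᶠ[𝓝 m] F := by
  obtain ⟨Λ, hΛ, hcone⟩ := hcone
  have hs0 : 0 < ‖s‖ := norm_pos_iff.2 hs
  have ht0 : 0 < ‖t‖ := norm_pos_iff.2 ht
  obtain ⟨α, hα, hR₁⟩ : ∃ α : ℝ, 0 < α ∧ R₁ - ‖s‖ = α * ‖s‖ :=
    ⟨(R₁ - ‖s‖) / ‖s‖, div_pos (sub_pos.2 hs₁) hs0, by field_simp⟩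
  obtain ⟨β, hβ, hR₂⟩ : ∃ β : ℝ, 0 < β ∧ R₂ - ‖t‖ = β * ‖t‖ :=
    ⟨(R₂ - ‖t‖) / ‖t‖, div_pos (sub_pos.2 ht₂) ht0, by field_simp⟩
  obtain ⟨τ₀, hτ₀, hc⟩ := cone_in hs₁ ht₂ hα hβ hR₁ hR₂ hΛ hin
  have hk : Continuous fun p : ℂ × ℂ =>
      (((1 + (α : ℂ) * p.1) • s, (1 + (β : ℂ) * p.2) • t) : A × ℂ) := by fun_prop
  obtain ⟨φ, hφ, q, R, τ₂, hq, hτ₂, hH⟩ := hcone _
    (fun p : ℂ × ℂ => F ((1 + (α : ℂ) * p.1) • s, (1 + (β : ℂ) * p.2) • t)) τ₀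
    (hΩ.preimage hk) hτ₀ (fun p hp => CompatAt.comp (k₁ := fun z : ℂ => (1 + (α : ℂ) * z) • s)
      (k₂ := fun z : ℂ => (1 + (β : ℂ) * z) • t) (hF _ hp) (by fun_prop) (by fun_prop)) hc
  obtain ⟨τ, hτ, h2τ, hατ, hβτ⟩ : ∃ τ : ℝ, 0 < τ ∧ 2 * τ < τ₂ ∧ 2 * α * τ ≤ 1 ∧ 2 * β * τ ≤ 1 := by
    refine ⟨min (τ₂ / 4) (1 / (2 * (α + β))), by positivity, ?_, ?_, ?_⟩
    · have := min_le_left (τ₂ / 4) (1 / (2 * (α + β)))
      linarith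
    · have h1 := (le_div_iff₀ (by positivity)).1 (min_le_right (τ₂ / 4) (1 / (2 * (α + β))))
      have h2 : 0 < min (τ₂ / 4) (1 / (2 * (α + β))) := by positivity
      nlinarith
    · have h1 := (le_div_iff₀ (by positivity)).1 (min_le_right (τ₂ / 4) (1 / (2 * (α + β))))
      have h2 : 0 < min (τ₂ / 4) (1 / (2 * (α + β))) := by positivity
      nlinarith
  have hlow := low_subset hs₁ ht₂ hin
  have hατ0 : 0 < 2 * α * τ := by positivity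
  have hβτ0 : 0 < 2 * β * τ := by positivity
  have hmem : ∀ a b : ℝ, 0 ≤ a → a ≤ 1 → 0 ≤ b → b ≤ 1 → 0 < a + b →
      ((1 - 2 * α * τ * a) • s, (1 - 2 * β * τ * b) • t) ∈ low s t := by
    intro a b ha ha' hb hb' hab
    have e1 := norm_real_smul s (c := 2 * α * τ * a) (by nlinarith)
    have e2 := norm_real_smul t (c := 2 * β * τ * b) (by nlinarith)
    have e3 : 0 ≤ 2 * α * τ * a * ‖s‖ := by positivity
    have e4 : 0 ≤ 2 * β * τ * b * ‖t‖ := by positivity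
    refine ⟨by linarith, by linarith, ?_⟩
    rcases ha.lt_or_eq with h | h
    · have : 0 < 2 * α * τ * a * ‖s‖ := by positivity
      linarith
    · have hb0 : 0 < b := by linarith
      have : 0 < 2 * β * τ * b * ‖t‖ := by positivity
      linarith
  have hch : ∀ a b : ℝ, 0 ≤ a → a ≤ 1 → 0 ≤ b → b ≤ 1 → 0 < a + b →
      F ((1 - 2 * α * τ * a) • s, (1 - 2 * β * τ * b) • t) ∈ φ.source ∧
        φ (F ((1 - 2 * α * τ * a) • s, (1 - 2 * β * τ * b) • t)) ∈ ball q R := by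
    intro a b ha ha' hb hb' hab
    have e := hH (τ * (a + b)) ⟨by positivity, by nlinarith⟩ ((τ * (b - a) : ℝ) : ℂ) (by
      rw [Complex.norm_real, Real.norm_eq_abs, abs_le]
      constructor <;> nlinarith)
    rw [smul_eq s (c := 1 - 2 * α * τ * a) (by simp only [dpt]; push_cast; ring),
      smul_eq t (c := 1 - 2 * β * τ * b) (by simp only [dpt]; push_cast; ring)] at e
    exact e
  obtain ⟨δ, hδ, hG⟩ := localExt (𝒜 := 𝒜) hφ hq (compact_seg ((1 - 2 * α * τ) • s) s)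
    (compact_seg ((1 - 2 * β * τ) • t) t) (G₁ := fun a => F (a, (1 - 2 * β * τ) • t))
    (G₂ := fun b => F ((1 - 2 * α * τ) • s, b)) (fun x hx => by
      obtain ⟨a, ha, ha', rfl⟩ := mem_seg hx
      have e1 := hmem a 1 ha ha' zero_le_one le_rfl (by linarith)
      have e2 := hch a 1 ha ha' zero_le_one le_rfl (by linarith)
      rw [mul_one] at e1 e2
      exact ⟨(hF _ (hlow e1)).horAt, e2⟩) (fun x hx => by
      obtain ⟨b, hb, hb', rfl⟩ := mem_seg hx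
      have e1 := hmem 1 b zero_le_one le_rfl hb hb' (by linarith)
      have e2 := hch 1 b zero_le_one le_rfl hb hb' (by linarith)
      rw [mul_one] at e1 e2
      exact ⟨(hF _ (hlow e1)).verAt, e2⟩)
  refine ⟨_, _, isOpen_thickening.prod isOpen_thickening,
    ⟨self_subset_thickening hδ _ (right_mem_segment _ _ _),
      self_subset_thickening hδ _ (right_mem_segment _ _ _)⟩, hG, fun m hm m1 m2 m3 => ?_⟩
  have e1 := hmem 1 1 zero_le_one le_rfl zero_le_one le_rfl (by norm_num)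
  have e2 := hch 1 1 zero_le_one le_rfl zero_le_one le_rfl (by norm_num)
  rw [mul_one, mul_one] at e1 e2
  have hconv := (((convex_segment ((1 - 2 * α * τ) • s) s).thickening δ).prod
    ((convex_segment ((1 - 2 * β * τ) • t) t).thickening δ)).inter (convex_low s t)
  refine ident hconv.isPreconnected (fun x hx => (hG x hx.1).holAt)
    (fun x hx => (hF x (hlow hx.2)).holAt)
    (m₀ := ((1 - 2 * α * τ) • s, (1 - 2 * β * τ) • t))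
    ⟨⟨self_subset_thickening hδ _ (left_mem_segment _ _ _),
      self_subset_thickening hδ _ (left_mem_segment _ _ _)⟩, e1⟩
    ((hF _ (hlow e1)).local_form hφ e2.1).symm m ⟨hm, m1, m2, m3⟩

end Vale.Agent.P278
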