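import Vale.Agent.P278.BRC1
import Vale.Agent.P278.BRC2

/-! Completion of rectangles from the cone property. -/

open Set Filter Topology Metric
open scoped Manifold ContDiff

namespace Vale.Agent.P278

variable {A B A' B' D : Type*} [NormedAddCommGroup A] [NormedSpace ℂ A]
  [NormedAddCommGroup B] [NormedSpace ℂ B] [NormedAddCommGroup A'] [NormedSpace ℂ A']
  [NormedAddCommGroup B'] [NormedSpace ℂ B'] [NormedAddCommGroup D] [NormedSpace ℂ D]
  {Z : Type*} [TopologicalSpace Z] {𝒜 : ProdAtlas Z A B}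

namespace BRC3Aux

theorem lt_prod {U V u v : ℝ} (hU : 0 < U) (hV : 0 < V) (h1 : U ≤ u) (h2 : V ≤ v)
    (h : U + V < u + v) : U * V < u * v := by
  rcases h1.eq_or_lt with h3 | h3
  · rw [← h3]
    exact mul_lt_mul_of_pos_left (by linarith) hU
  · exact mul_lt_mul h3 h2 hV (by linarith)

theorem sub_closure {r ρ : ℝ} (h : 0 < r + ρ) : closedBall (0 : A) r ×ˢ closedBall (0 : ℂ) ρ ⊆
    closure {m ∈ closedBall (0 : A) r ×ˢ closedBall (0 : ℂ) ρ | ‖m.1‖ + ‖m.2‖ < r + ρ} := by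
  intro p hp
  have h1 : ‖p.1‖ ≤ r := mem_closedBall_zero_iff.1 hp.1
  have h2 : ‖p.2‖ ≤ ρ := mem_closedBall_zero_iff.1 hp.2
  have ht : Tendsto (fun t : ℝ => (((t : ℂ) • p.1, (t : ℂ) • p.2) : A × ℂ)) (𝓝[<] 1) (𝓝 p) := by
    refine Tendsto.mono_left (Continuous.tendsto' (by fun_prop) _ _ ?_) nhdsWithin_le_nhds
    simp
  refine mem_closure_of_tendsto ht ?_
  filter_upwards [Ioo_mem_nhdsLT (zero_lt_one (α := ℝ))] with t ht
  have e1 : ‖(t : ℂ) • p.1‖ = t * ‖p.1‖ := by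
    rw [norm_smul, Complex.norm_real, Real.norm_of_nonneg ht.1.le]
  have e2 : ‖(t : ℂ) • p.2‖ = t * ‖p.2‖ := by
    rw [norm_smul, Complex.norm_real, Real.norm_of_nonneg ht.1.le]
  have a1 := norm_nonneg p.1
  have a2 := norm_nonneg p.2
  refine ⟨⟨mem_closedBall_zero_iff.2 ?_, mem_closedBall_zero_iff.2 ?_⟩, ?_⟩
  · rw [e1]
    nlinarith [ht.1, ht.2]
  · rw [e2]
    nlinarith [ht.1, ht.2]
  · rw [e1, e2]
    nlinarith [ht.1, ht.2]

theorem sub_thick {r ρ δ δ' : ℝ} (hr : 0 ≤ r) (hρ : 0 ≤ ρ) (hδ : 0 < δ) (h : δ' ≤ δ) :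
    ball (0 : A) (r + δ') ×ˢ ball (0 : ℂ) (ρ + δ')
      ⊆ thickening δ (closedBall (0 : A) r ×ˢ closedBall (0 : ℂ) ρ) := by
  intro p hp
  have h1 : p.1 ∈ thickening δ (closedBall (0 : A) r) := by
    rw [thickening_closedBall hδ hr]
    exact ball_subset_ball (by linarith) hp.1
  have h2 : p.2 ∈ thickening δ (closedBall (0 : ℂ) ρ) := by
    rw [thickening_closedBall hδ hρ]
    exact ball_subset_ball (by linarith) hp.2
  obtain ⟨a, ha, h3⟩ := mem_thickening_iff.1 h1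
  obtain ⟨b, hb, h4⟩ := mem_thickening_iff.1 h2
  exact mem_thickening_iff.2 ⟨(a, b), ⟨ha, hb⟩, max_lt h3 h4⟩

/-- The completed rectangle can be enlarged at an extremal point. -/
theorem step [T2Space Z] [FiniteDimensional ℂ A] [FiniteDimensional ℂ B] (hcone : ConeProp 𝒜)
    {R₁ R₂ r ρ : ℝ} {g : A → Z} {h : ℂ → Z} (hg : ∀ a ∈ ball (0 : A) R₁, HorAt 𝒜 g a)
    (hh : ∀ b ∈ ball (0 : ℂ) R₂, VerAt 𝒜 h b) (hr : 0 ≤ r) (hρ : 0 ≤ ρ) (hr1 : r < R₁)
    (hρ2 : ρ < R₂) (hpos : 0 < r + ρ)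
    (hin : ∀ p : A × ℂ, ‖p.1‖ < R₁ → ‖p.2‖ < R₂ →
      (R₁ - r) * (R₂ - ρ) < (R₁ - ‖p.1‖) * (R₂ - ‖p.2‖) → p ∈ ExDom 𝒜 g h) :
    ∃ δ > 0, Ex 𝒜 g h (r + δ) (ρ + δ) := by
  have := FiniteDimensional.complete ℂ A
  have := FiniteDimensional.complete ℂ B
  have := FiniteDimensional.proper ℂ A
  obtain ⟨hO, F, hF, hFg, hFh⟩ := exDom_glue (𝒜 := 𝒜) g h
  have h0 : ∀ m : A × ℂ, ‖m.1‖ ≤ r → ‖m.2‖ ≤ ρ → ‖m.1‖ + ‖m.2‖ < r + ρ → m ∈ ExDom 𝒜 g h :=
    fun m a1 a2 a3 => hin m (by linarith) (by linarith)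
      (lt_prod (by linarith) (by linarith) (by linarith) (by linarith) (by linarith))
  obtain ⟨δ, hδ, F', hF', he⟩ := glue (𝒜 := 𝒜) (F := F)
    ((isCompact_closedBall (0 : A) r).prod (isCompact_closedBall (0 : ℂ) ρ))
    ((convex_closedBall _ _).prod (convex_closedBall _ _)) (sep_subset _ _) (sub_closure hpos)
    (fun p hp => by
      obtain ⟨s, t⟩ := p
      have a1 : ‖s‖ ≤ r := mem_closedBall_zero_iff.1 hp.1
      have a2 : ‖t‖ ≤ ρ := mem_closedBall_zero_iff.1 hp.2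
      by_cases a3 : ‖s‖ + ‖t‖ < r + ρ
      · exact ⟨_, F, hO, h0 _ a1 a2 a3, hF, fun _ _ _ => EventuallyEq.rfl⟩
      obtain rfl : r = ‖s‖ := by linarith
      obtain rfl : ρ = ‖t‖ := by linarith
      by_cases ht : t = 0
      · subst ht
        rw [norm_zero, add_zero] at hpos
        obtain ⟨W, G, b1, b2, b3, b4⟩ := ext_hor (F := F) (norm_pos_iff.1 hpos)
          (hg s (mem_ball_zero_iff.2 hr1)) fun a ha => by
            have := h0 (a, 0) ha.le le_rfl (by simpa using ha)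
            exact ⟨hF _ this, hFg a this⟩
        refine ⟨W, G, b1, b2, b3, fun m hm hW => ?_⟩
        obtain ⟨a, b⟩ := m
        obtain rfl : b = 0 := by simpa using hm.1.2
        exact b4 a (by simpa using hm.2) hW
      by_cases hs : s = 0
      · subst hs
        obtain ⟨W, G, b1, b2, b3, b4⟩ := ext_ver (F := F) ht
          (hh t (mem_ball_zero_iff.2 hρ2)) fun b hb => by
            have := h0 (0, b) le_rfl hb.le (by simpa using hb)
            exact ⟨hF _ this, hFh b this⟩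
        refine ⟨W, G, b1, b2, b3, fun m hm hW => ?_⟩
        obtain ⟨a, b⟩ := m
        obtain rfl : a = 0 := by simpa using hm.1.1
        exact b4 b (by simpa using hm.2) hW
      obtain ⟨W, G, b1, b2, b3, b4⟩ := ext_corner hcone hO hF hs ht hr1 hρ2 hin
      exact ⟨W, G, b1, b2, b3, fun m hm hW => b4 m hW (mem_closedBall_zero_iff.1 hm.1.1)
        (mem_closedBall_zero_iff.1 hm.1.2) hm.2⟩)
  set δ' := min δ (min (R₁ - r) (R₂ - ρ)) with hδ'
  have d0 : 0 < δ' := lt_min hδ (lt_min (by linarith) (by linarith))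
  have d1 : δ' ≤ R₁ - r := (min_le_right _ _).trans (min_le_left _ _)
  have d2 : δ' ≤ R₂ - ρ := (min_le_right _ _).trans (min_le_right _ _)
  have hc : ∀ p ∈ ball (0 : A) (r + δ') ×ˢ ball (0 : ℂ) (ρ + δ'), CompatAt 𝒜 F' p :=
    fun p hp => hF' p (sub_thick hr hρ hδ (min_le_left _ _) hp)
  have z1 : (0 : A) ∈ ball (0 : A) (r + δ') := mem_ball_self (by linarith)
  have z2 : (0 : ℂ) ∈ ball (0 : ℂ) (ρ + δ') := mem_ball_self (by linarith)
  have e0 : ∀ᶠ q in 𝓝 ((0 : A), (0 : ℂ)), F' q = F q ∧ q ∈ ExDom 𝒜 g h :=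
    (he (0, 0) ⟨⟨mem_closedBall_self hr, mem_closedBall_self hρ⟩, by simpa using hpos⟩).and
      (hO.mem_nhds (h0 _ (by simpa using hr) (by simpa using hρ) (by simpa using hpos)))
  refine ⟨δ', d0, F', hc, fun a ha => ?_, fun b hb => ?_⟩
  · refine (ident (F := fun a => F' (a, 0)) (F' := g) (convex_ball _ _).isPreconnected
      (fun m hm => (hc (m, 0) ⟨hm, z2⟩).horAt.holAt)
      (fun m hm => (hg m (ball_subset_ball (by linarith) hm)).holAt) z1 ?_ a ha).eq_of_nhds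
    have t : Tendsto (fun a : A => (a, (0 : ℂ))) (𝓝 0) (𝓝 (0, 0)) :=
      (continuous_id.prodMk continuous_const).tendsto' _ _ rfl
    filter_upwards [t.eventually e0] with q hq
    rw [hq.1, hFg q hq.2]
  · refine (ident (F := fun b => F' (0, b)) (F' := h) (convex_ball _ _).isPreconnected
      (fun m hm => (hc (0, m) ⟨z1, hm⟩).verAt.holAt)
      (fun m hm => (hh m (ball_subset_ball (by linarith) hm)).holAt) z2 ?_ b hb).eq_of_nhds
    have t : Tendsto (fun b : ℂ => ((0 : A), b)) (𝓝 0) (𝓝 (0, 0)) :=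
      (continuous_const.prodMk continuous_id).tendsto' _ _ rfl
    filter_upwards [t.eventually e0] with q hq
    rw [hq.1, hFh q hq.2]

end BRC3Aux

/-- Proof idea. Let `G₀ = {(r,ρ) | ∃ r' > r, ∃ ρ' > ρ, Ex r' ρ'}` (open), `𝒦` the complement of `G₀`
in `[0,R₁] × [0,R₂]` (compact), `F` from `exDom_glue`. If every `(r,ρ)` with `r < R₁`, `ρ < R₂` is in
`G₀`, then `F` works. Otherwise maximize `(R₁ - r)(R₂ - ρ)` on `𝒦` at `(r*, ρ*)`, with positive
value. `(0,0) ∈ G₀` by `ex_small`, so `r* + ρ* > 0`. Apply `glue` with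
`S = closedBall 0 r* ×ˢ closedBall 0 ρ*`, `S₀ = {m ∈ S | ‖m.1‖ + ‖m.2‖ < r* + ρ*} ⊆ ExDom`: points of
`S₀` use `W = ExDom`, `G = F`; the others use `ext_corner`, `ext_hor` or `ext_ver`. The glued map is a
witness of `Ex (r* + δ') (ρ* + δ')`, `δ' = min δ (min (R₁ - r*) (R₂ - ρ*))` (axes by `ident`), so
`(r*, ρ*) ∈ G₀`, a contradiction. -/
theorem brc_of_cone [T2Space Z] [FiniteDimensional ℂ A] [FiniteDimensional ℂ B]
    (hcone : ConeProp 𝒜) : BRC 𝒜 := by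
  have := FiniteDimensional.complete ℂ A
  have := FiniteDimensional.complete ℂ B
  intro R₁ R₂ g h hR₁ hR₂ hg hh h0
  set G₀ : Set (ℝ × ℝ) := {x | ∃ r ρ : ℝ, x.1 < r ∧ x.2 < ρ ∧ Ex 𝒜 g h r ρ} with hG₀
  have hO : IsOpen G₀ := by
    refine isOpen_iff_mem_nhds.2 fun x ⟨r, ρ, h1, h2, h3⟩ => ?_
    filter_upwards [continuous_fst.continuousAt.eventually_lt continuousAt_const h1,
      continuous_snd.continuousAt.eventually_lt continuousAt_const h2] with y a1 a2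
    exact ⟨r, ρ, a1, a2, h3⟩
  have key : ∀ p : A × ℂ, ‖p.1‖ < R₁ → ‖p.2‖ < R₂ → p ∈ ExDom 𝒜 g h := by
    intro p hp1 hp2
    by_contra hp
    have hK : IsCompact ((Icc 0 R₁ ×ˢ Icc 0 R₂) \ G₀) := (isCompact_Icc.prod isCompact_Icc).diff hO
    have hm : ∀ q : A × ℂ, ‖q.1‖ < R₁ → ‖q.2‖ < R₂ → q ∉ ExDom 𝒜 g h →
        (‖q.1‖, ‖q.2‖) ∈ (Icc 0 R₁ ×ˢ Icc 0 R₂) \ G₀ := fun q a1 a2 a3 =>
      ⟨⟨⟨norm_nonneg _, a1.le⟩, norm_nonneg _, a2.le⟩, a3⟩
    obtain ⟨⟨r, ρ⟩, hx, hmax⟩ := hK.exists_isMaxOn ⟨_, hm p hp1 hp2 hp⟩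
      (f := fun x : ℝ × ℝ => (R₁ - x.1) * (R₂ - x.2)) (by fun_prop)
    obtain ⟨⟨⟨a1, a2⟩, a3, a4⟩, a5⟩ := hx
    simp only at a1 a2 a3 a4
    have b0 : 0 < (R₁ - r) * (R₂ - ρ) :=
      (mul_pos (sub_pos.2 hp1) (sub_pos.2 hp2)).trans_le (hmax (hm p hp1 hp2 hp))
    have b1 : r < R₁ := a2.lt_of_ne fun e => by simp [e] at b0
    have b2 : ρ < R₂ := a4.lt_of_ne fun e => by simp [e] at b0
    have b3 : 0 < r + ρ := by
      obtain ⟨δ, hδ, he⟩ := ex_small (hg 0 (mem_ball_self hR₁)) (hh 0 (mem_ball_self hR₂)) h0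
      by_contra b4
      exact a5 ⟨δ, δ, by simp only; linarith, by simp only; linarith, he⟩
    obtain ⟨δ, hδ, he⟩ := BRC3Aux.step hcone hg hh a1 a3 b1 b2 b3 fun q c1 c2 c3 => by
      by_contra c4
      exact c3.not_ge (hmax (hm q c1 c2 c4))
    exact a5 ⟨_, _, by simp only; linarith, by simp only; linarith, he⟩
  obtain ⟨-, F, hF, hFg, hFh⟩ := exDom_glue (𝒜 := 𝒜) g h
  exact ⟨F, fun p hp => hF p (key p (mem_ball_zero_iff.1 hp.1) (mem_ball_zero_iff.1 hp.2)),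
    fun a ha => hFg a (key _ (mem_ball_zero_iff.1 ha) (by simpa using hR₂)),
    fun b hb => hFh b (key _ (by simpa using hR₁) (mem_ball_zero_iff.1 hb))⟩

end Vale.Agent.P278
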