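import Vale.Agent.P278.Abs

/-! Elementary properties of holomorphic, compatible, horizontal and vertical maps. -/

open Set Filter Topology Metric
open scoped Manifold ContDiff

namespace Vale.Agent.P278

variable {A B A' B' D : Type*} [NormedAddCommGroup A] [NormedSpace ℂ A]
  [NormedAddCommGroup B] [NormedSpace ℂ B] [NormedAddCommGroup A'] [NormedSpace ℂ A']
  [NormedAddCommGroup B'] [NormedSpace ℂ B'] [NormedAddCommGroup D] [NormedSpace ℂ D]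
  {Z : Type*} [TopologicalSpace Z] {𝒜 : ProdAtlas Z A B}

theorem change_chart {Y W W' : Type*} [TopologicalSpace Y] [TopologicalSpace W]
    {F : Y → Z} {p : Y} {φ : OpenPartialHomeomorph Z W} (hp : F p ∈ φ.source)
    (hc : ContinuousAt F p) (ψ : Z → W') : (ψ ∘ φ.symm) ∘ (φ ∘ F) =ᶠ[𝓝 p] ψ ∘ F := by
  filter_upwards [hc.eventually (φ.open_source.mem_nhds hp)] with q hq
  simp [φ.left_inv hq]

theorem cont_eventually {Y W : Type*} [TopologicalSpace Y] [TopologicalSpace W]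
    {F : Y → Z} {p : Y} {φ : OpenPartialHomeomorph Z W} (hp : F p ∈ φ.source)
    (hc : ContinuousAt F p) (h : ∀ᶠ q in 𝓝 p, ContinuousAt (φ ∘ F) q) :
    ∀ᶠ q in 𝓝 p, F q ∈ φ.source ∧ ContinuousAt F q := by
  have h1 : ∀ᶠ q in 𝓝 p, F q ∈ φ.source := hc.eventually (φ.open_source.mem_nhds hp)
  filter_upwards [h1, h1.eventually_nhds, h] with q a b c
  refine ⟨a, ?_⟩
  have := ContinuousAt.comp (f := φ ∘ F) (φ.continuousAt_symm (φ.map_source a)) c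
  refine this.congr ?_
  filter_upwards [b] with y hy
  simp [φ.left_inv hy]

theorem IsProdAt.analyticAt {T : A' × B' → A × B} {p : A' × B'} (h : IsProdAt T p) :
    AnalyticAt ℂ T p := by
  obtain ⟨f₁, f₂, h₁, h₂, he⟩ := h
  have : AnalyticAt ℂ (fun q : A' × B' => (f₁ q.1, f₂ q.2)) p :=
    (AnalyticAt.comp (f := fun q : A' × B' => q.1) h₁ analyticAt_fst).prod
      (AnalyticAt.comp (f := fun q : A' × B' => q.2) h₂ analyticAt_snd)
  exact this.congr he.symm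

theorem IsProdAt.eventually [CompleteSpace A] [CompleteSpace B] {T : A' × B' → A × B}
    {p : A' × B'} (h : IsProdAt T p) :
    ∀ᶠ q in 𝓝 p, IsProdAt T q := by
  obtain ⟨f₁, f₂, h₁, h₂, he⟩ := h
  filter_upwards [continuous_fst.continuousAt.eventually h₁.eventually_analyticAt,
    continuous_snd.continuousAt.eventually h₂.eventually_analyticAt, he.eventually_nhds]
    with q a b c
  exact ⟨f₁, f₂, a, b, c⟩

theorem IsProdAt.congr {T T' : A' × B' → A × B} {p : A' × B'} (h : IsProdAt T p)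
    (he : T =ᶠ[𝓝 p] T') : IsProdAt T' p := by
  obtain ⟨f₁, f₂, h₁, h₂, h'⟩ := h
  exact ⟨f₁, f₂, h₁, h₂, he.symm.trans h'⟩

theorem IsProdAt.comp {A'' B'' : Type*} [NormedAddCommGroup A''] [NormedSpace ℂ A'']
    [NormedAddCommGroup B''] [NormedSpace ℂ B''] {S : A × B → A'' × B''} {T : A' × B' → A × B}
    {p : A' × B'} (hS : IsProdAt S (T p)) (hT : IsProdAt T p) : IsProdAt (S ∘ T) p := by
  have hc := hT.analyticAt.continuousAt
  obtain ⟨f₁, f₂, h₁, h₂, he⟩ := hT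
  obtain ⟨g₁, g₂, k₁, k₂, ke⟩ := hS
  have e : T p = (f₁ p.1, f₂ p.2) := he.eq_of_nhds
  refine ⟨g₁ ∘ f₁, g₂ ∘ f₂, AnalyticAt.comp (by simpa [e] using k₁) h₁,
    AnalyticAt.comp (by simpa [e] using k₂) h₂, ?_⟩
  filter_upwards [he, hc.eventually ke] with q hq hq'
  simp only [Function.comp_apply] at hq' ⊢
  rw [hq', hq]

/-- The first component of a transition map has invertible derivative. -/
theorem ProdAtlas.trans_et (𝒜 : ProdAtlas Z A B) {φ ψ : OpenPartialHomeomorph Z (A × B)}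
    (hφ : φ ∈ 𝒜.charts) (hψ : ψ ∈ 𝒜.charts) {z : Z} (hz : z ∈ φ.source) (hz' : z ∈ ψ.source) :
    ∃ (f₁ : A → A) (f₂ : B → B) (L : A ≃L[ℂ] A), AnalyticAt ℂ f₁ (φ z).1 ∧
      AnalyticAt ℂ f₂ (φ z).2 ∧ HasFDerivAt f₁ (L : A →L[ℂ] A) (φ z).1 ∧
      ψ ∘ φ.symm =ᶠ[𝓝 (φ z)] fun q => (f₁ q.1, f₂ q.2) := by
  obtain ⟨f₁, f₂, h₁, h₂, he⟩ := 𝒜.compat φ hφ ψ hψ z hz hz'
  obtain ⟨g₁, g₂, k₁, k₂, ke⟩ := 𝒜.compat ψ hψ φ hφ z hz' hz
  have e : ψ z = (f₁ (φ z).1, f₂ (φ z).2) := by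
    have := he.eq_of_nhds
    simpa [φ.left_inv hz] using this
  have e' : φ z = (g₁ (ψ z).1, g₂ (ψ z).2) := by
    have := ke.eq_of_nhds
    simpa [ψ.left_inv hz'] using this
  have key : ∀ (φ ψ : OpenPartialHomeomorph Z (A × B)) (f₁ g₁ : A → A) (f₂ g₂ : B → B),
      z ∈ φ.source → z ∈ ψ.source → (ψ ∘ φ.symm =ᶠ[𝓝 (φ z)] fun q => (f₁ q.1, f₂ q.2)) →
      (φ ∘ ψ.symm =ᶠ[𝓝 (ψ z)] fun q => (g₁ q.1, g₂ q.2)) →
      (g₁ ∘ f₁) =ᶠ[𝓝 (φ z).1] id := by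
    intro φ ψ f₁ g₁ f₂ g₂ hz hz' he ke
    have t1 : Tendsto φ.symm (𝓝 (φ z)) (𝓝 z) := φ.tendsto_symm hz
    have t2 : Tendsto (ψ ∘ φ.symm) (𝓝 (φ z)) (𝓝 (ψ z)) := (ψ.continuousAt hz').tendsto.comp t1
    have h3 : ∀ᶠ q in 𝓝 (φ z), g₁ (f₁ q.1) = q.1 := by
      filter_upwards [he, t2.eventually ke, t1.eventually (ψ.open_source.mem_nhds hz'),
        φ.open_target.mem_nhds (φ.map_source hz)] with q a b c d
      simp only [Function.comp_apply] at a b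
      rw [ψ.left_inv c, φ.right_inv d, a] at b
      exact (congrArg Prod.fst b).symm
    have t3 : Tendsto (fun a : A => (a, (φ z).2)) (𝓝 (φ z).1) (𝓝 (φ z)) :=
      (continuous_id.prodMk continuous_const).tendsto' _ _ rfl
    exact t3.eventually h3
  have i1 := key φ ψ f₁ g₁ f₂ g₂ hz hz' he ke
  have i2 := key ψ φ g₁ f₁ g₂ f₂ hz' hz ke he
  have e1 : f₁ (φ z).1 = (ψ z).1 := (congrArg Prod.fst e).symm
  have e2 : g₁ (ψ z).1 = (φ z).1 := (congrArg Prod.fst e').symm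
  have d1 := h₁.differentiableAt.hasFDerivAt
  have d2 := k₁.differentiableAt.hasFDerivAt
  have c1 : (fderiv ℂ g₁ (ψ z).1).comp (fderiv ℂ f₁ (φ z).1) = ContinuousLinearMap.id ℂ A := by
    have := HasFDerivAt.comp (φ z).1 (g := g₁) (by rw [e1]; exact d2) d1
    exact (this.congr_of_eventuallyEq i1.symm).unique (hasFDerivAt_id _)
  have c2 : (fderiv ℂ f₁ (φ z).1).comp (fderiv ℂ g₁ (ψ z).1) = ContinuousLinearMap.id ℂ A := by
    have := HasFDerivAt.comp (ψ z).1 (g := f₁) (by rw [e2]; exact d1) d2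
    exact (this.congr_of_eventuallyEq i2.symm).unique (hasFDerivAt_id _)
  refine ⟨f₁, f₂, ContinuousLinearEquiv.equivOfInverse (fderiv ℂ f₁ (φ z).1)
    (fderiv ℂ g₁ (ψ z).1) (fun v => ?_) (fun v => ?_), h₁, h₂, d1, he⟩
  · exact congrArg (fun L : A →L[ℂ] A => L v) c1
  · exact congrArg (fun L : A →L[ℂ] A => L v) c2

theorem holAt_of_chart {F : D → Z} {p : D} {φ : OpenPartialHomeomorph Z (A × B)}
    (hφ : φ ∈ 𝒜.charts) (hp : F p ∈ φ.source) (hc : ContinuousAt F p)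
    (h : AnalyticAt ℂ (φ ∘ F) p) : HolAt 𝒜 F p := by
  refine ⟨hc, fun ψ hψ hp' => ?_⟩
  have h1 := (𝒜.compat φ hφ ψ hψ _ hp hp').analyticAt
  exact (AnalyticAt.comp (f := φ ∘ F) h1 h).congr (change_chart hp hc ψ)

theorem compatAt_of_chart {F : A' × B' → Z} {p : A' × B'} {φ : OpenPartialHomeomorph Z (A × B)}
    (hφ : φ ∈ 𝒜.charts) (hp : F p ∈ φ.source) (hc : ContinuousAt F p)
    (h : IsProdAt (φ ∘ F) p) : CompatAt 𝒜 F p := by
  refine ⟨hc, fun ψ hψ hp' => ?_⟩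
  have h1 := 𝒜.compat φ hφ ψ hψ _ hp hp'
  exact (IsProdAt.comp (T := φ ∘ F) h1 h).congr (change_chart hp hc ψ)

theorem horAt_of_chart {g : A' → Z} {a : A'} {φ : OpenPartialHomeomorph Z (A × B)}
    (hφ : φ ∈ 𝒜.charts) (hp : g a ∈ φ.source) (hc : ContinuousAt g a) {f : A' → A} {c : B}
    (hf : AnalyticAt ℂ f a) (h : φ ∘ g =ᶠ[𝓝 a] fun a' => (f a', c)) : HorAt 𝒜 g a := by
  refine ⟨hc, fun ψ hψ hp' => ?_⟩
  obtain ⟨f₁, f₂, h₁, h₂, he⟩ := 𝒜.compat φ hφ ψ hψ _ hp hp'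
  have e : φ (g a) = (f a, c) := h.eq_of_nhds
  have t : Tendsto (φ ∘ g) (𝓝 a) (𝓝 (φ (g a))) := (φ.continuousAt hp).tendsto.comp hc
  have k : ψ ∘ g =ᶠ[𝓝 a] fun a' => ((f₁ ∘ f) a', f₂ c) := by
    filter_upwards [change_chart hp hc ψ, t.eventually he, h] with x a1 a2 a3
    rw [← a1]
    change (ψ ∘ φ.symm) ((φ ∘ g) x) = _
    rw [a2, a3]
    rfl
  refine ⟨f₁ ∘ f, AnalyticAt.comp (by simpa [e] using h₁) hf, ?_⟩
  have e2 : ψ (g a) = ((f₁ ∘ f) a, f₂ c) := k.eq_of_nhds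
  rw [e2]
  exact k

theorem verAt_of_chart {h : B' → Z} {b : B'} {φ : OpenPartialHomeomorph Z (A × B)}
    (hφ : φ ∈ 𝒜.charts) (hp : h b ∈ φ.source) (hc : ContinuousAt h b) {f : B' → B} {c : A}
    (hf : AnalyticAt ℂ f b) (he : φ ∘ h =ᶠ[𝓝 b] fun b' => (c, f b')) : VerAt 𝒜 h b := by
  refine ⟨hc, fun ψ hψ hp' => ?_⟩
  obtain ⟨f₁, f₂, h₁, h₂, he'⟩ := 𝒜.compat φ hφ ψ hψ _ hp hp'
  have e : φ (h b) = (c, f b) := he.eq_of_nhds
  have t : Tendsto (φ ∘ h) (𝓝 b) (𝓝 (φ (h b))) := (φ.continuousAt hp).tendsto.comp hc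
  have k : ψ ∘ h =ᶠ[𝓝 b] fun b' => (f₁ c, (f₂ ∘ f) b') := by
    filter_upwards [change_chart hp hc ψ, t.eventually he', he] with x a1 a2 a3
    rw [← a1]
    change (ψ ∘ φ.symm) ((φ ∘ h) x) = _
    rw [a2, a3]
    rfl
  refine ⟨f₂ ∘ f, AnalyticAt.comp (by simpa [e] using h₂) hf, ?_⟩
  have e2 : ψ (h b) = (f₁ c, (f₂ ∘ f) b) := k.eq_of_nhds
  rw [e2]
  exact k

theorem horEt_of_chart {g : A → Z} {a : A} {φ : OpenPartialHomeomorph Z (A × B)}
    (hφ : φ ∈ 𝒜.charts) (hp : g a ∈ φ.source) (hc : ContinuousAt g a) {f : A → A} {c : B}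
    {L : A ≃L[ℂ] A} (hf : AnalyticAt ℂ f a) (hL : HasFDerivAt f (L : A →L[ℂ] A) a)
    (h : φ ∘ g =ᶠ[𝓝 a] fun a' => (f a', c)) : HorEt 𝒜 g a := by
  refine ⟨hc, fun ψ hψ hp' => ?_⟩
  obtain ⟨f₁, f₂, L₁, h₁, h₂, hL₁, he⟩ := 𝒜.trans_et hφ hψ hp hp'
  have e : φ (g a) = (f a, c) := h.eq_of_nhds
  have t : Tendsto (φ ∘ g) (𝓝 a) (𝓝 (φ (g a))) := (φ.continuousAt hp).tendsto.comp hc
  have k : ψ ∘ g =ᶠ[𝓝 a] fun a' => ((f₁ ∘ f) a', f₂ c) := by
    filter_upwards [change_chart hp hc ψ, t.eventually he, h] with x a1 a2 a3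
    rw [← a1]
    change (ψ ∘ φ.symm) ((φ ∘ g) x) = _
    rw [a2, a3]
    rfl
  refine ⟨f₁ ∘ f, L.trans L₁, AnalyticAt.comp (by simpa [e] using h₁) hf, ?_, ?_⟩
  · exact HasFDerivAt.comp a (by simpa [e] using hL₁) hL
  · have e2 : ψ (g a) = ((f₁ ∘ f) a, f₂ c) := k.eq_of_nhds
    rw [e2]
    exact k

theorem CompatAt.holAt {F : A' × B' → Z} {p : A' × B'} (h : CompatAt 𝒜 F p) : HolAt 𝒜 F p := by
  exact ⟨h.1, fun φ hφ hp => (h.2 φ hφ hp).analyticAt⟩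

theorem HorAt.holAt {g : A' → Z} {a : A'} (h : HorAt 𝒜 g a) : HolAt 𝒜 g a := by
  refine ⟨h.1, fun φ hφ hp => ?_⟩
  obtain ⟨f, hf, he⟩ := h.2 φ hφ hp
  exact (hf.prod analyticAt_const).congr he.symm

theorem VerAt.holAt {h : B' → Z} {b : B'} (hh : VerAt 𝒜 h b) : HolAt 𝒜 h b := by
  refine ⟨hh.1, fun φ hφ hp => ?_⟩
  obtain ⟨f, hf, he⟩ := hh.2 φ hφ hp
  exact (analyticAt_const.prod hf).congr he.symm

theorem HorEt.horAt {g : A → Z} {a : A} (h : HorEt 𝒜 g a) : HorAt 𝒜 g a := by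
  refine ⟨h.1, fun φ hφ hp => ?_⟩
  obtain ⟨f, L, hf, -, he⟩ := h.2 φ hφ hp
  exact ⟨f, hf, he⟩

theorem HolAt.congr {F F' : D → Z} {p : D} (h : HolAt 𝒜 F p) (he : F =ᶠ[𝓝 p] F') :
    HolAt 𝒜 F' p := by
  refine ⟨h.1.congr he, fun φ hφ hp => ?_⟩
  rw [← he.eq_of_nhds] at hp
  exact (h.2 φ hφ hp).congr (he.fun_comp φ)

theorem CompatAt.congr {F F' : A' × B' → Z} {p : A' × B'} (h : CompatAt 𝒜 F p)
    (he : F =ᶠ[𝓝 p] F') : CompatAt 𝒜 F' p := by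
  refine ⟨h.1.congr he, fun φ hφ hp => ?_⟩
  rw [← he.eq_of_nhds] at hp
  exact (h.2 φ hφ hp).congr (he.fun_comp φ)

theorem HorAt.congr {g g' : A' → Z} {a : A'} (h : HorAt 𝒜 g a) (he : g =ᶠ[𝓝 a] g') :
    HorAt 𝒜 g' a := by
  refine ⟨h.1.congr he, fun φ hφ hp => ?_⟩
  rw [← he.eq_of_nhds] at hp ⊢
  obtain ⟨f, hf, e⟩ := h.2 φ hφ hp
  exact ⟨f, hf, (he.fun_comp φ).symm.trans e⟩

theorem VerAt.congr {h h' : B' → Z} {b : B'} (hh : VerAt 𝒜 h b) (he : h =ᶠ[𝓝 b] h') :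
    VerAt 𝒜 h' b := by
  refine ⟨hh.1.congr he, fun φ hφ hp => ?_⟩
  rw [← he.eq_of_nhds] at hp ⊢
  obtain ⟨f, hf, e⟩ := hh.2 φ hφ hp
  exact ⟨f, hf, (he.fun_comp φ).symm.trans e⟩

theorem HorEt.congr {g g' : A → Z} {a : A} (h : HorEt 𝒜 g a) (he : g =ᶠ[𝓝 a] g') :
    HorEt 𝒜 g' a := by
  refine ⟨h.1.congr he, fun φ hφ hp => ?_⟩
  rw [← he.eq_of_nhds] at hp ⊢
  obtain ⟨f, L, hf, hL, e⟩ := h.2 φ hφ hp
  exact ⟨f, L, hf, hL, (he.fun_comp φ).symm.trans e⟩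

theorem HolAt.eventually [CompleteSpace A] [CompleteSpace B] {F : D → Z} {p : D}
    (h : HolAt 𝒜 F p) : ∀ᶠ q in 𝓝 p, HolAt 𝒜 F q := by
  obtain ⟨φ, hφ, hp⟩ := 𝒜.cover (F p)
  have h1 := (h.2 φ hφ hp).eventually_analyticAt
  filter_upwards [h1, cont_eventually hp h.1 (h1.mono fun q hq => hq.continuousAt)] with q a b
  exact holAt_of_chart hφ b.1 b.2 a

theorem CompatAt.eventually [CompleteSpace A] [CompleteSpace B] {F : A' × B' → Z} {p : A' × B'}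
    (h : CompatAt 𝒜 F p) : ∀ᶠ q in 𝓝 p, CompatAt 𝒜 F q := by
  obtain ⟨φ, hφ, hp⟩ := 𝒜.cover (F p)
  have h1 := (h.2 φ hφ hp).eventually
  filter_upwards [h1, cont_eventually hp h.1 (h1.mono fun q hq => hq.analyticAt.continuousAt)]
    with q a b
  exact compatAt_of_chart hφ b.1 b.2 a

theorem HorAt.eventually [CompleteSpace A] [CompleteSpace B] {g : A' → Z} {a : A'}
    (h : HorAt 𝒜 g a) : ∀ᶠ a' in 𝓝 a, HorAt 𝒜 g a' := by
  obtain ⟨φ, hφ, hp⟩ := 𝒜.cover (g a)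
  obtain ⟨f, hf, he⟩ := h.2 φ hφ hp
  filter_upwards [h.holAt.eventually, hf.eventually_analyticAt, he.eventually_nhds,
    h.1.eventually (φ.open_source.mem_nhds hp)] with q a1 a2 a3 a4
  exact horAt_of_chart hφ a4 a1.1 a2 a3

theorem VerAt.eventually [CompleteSpace A] [CompleteSpace B] {h : B' → Z} {b : B'}
    (hh : VerAt 𝒜 h b) : ∀ᶠ b' in 𝓝 b, VerAt 𝒜 h b' := by
  obtain ⟨φ, hφ, hp⟩ := 𝒜.cover (h b)
  obtain ⟨f, hf, he⟩ := hh.2 φ hφ hp
  filter_upwards [hh.holAt.eventually, hf.eventually_analyticAt, he.eventually_nhds,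
    hh.1.eventually (φ.open_source.mem_nhds hp)] with q a1 a2 a3 a4
  exact verAt_of_chart hφ a4 a1.1 a2 a3

theorem HolAt.comp {D' : Type*} [NormedAddCommGroup D'] [NormedSpace ℂ D'] {F : D → Z}
    {k : D' → D} {q : D'} (h : HolAt 𝒜 F (k q)) (hk : AnalyticAt ℂ k q) :
    HolAt 𝒜 (F ∘ k) q := by
  exact ⟨h.1.comp hk.continuousAt, fun φ hφ hp =>
    AnalyticAt.comp (g := φ ∘ F) (f := k) (h.2 φ hφ hp) hk⟩

theorem CompatAt.comp {A'' B'' : Type*} [NormedAddCommGroup A''] [NormedSpace ℂ A'']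
    [NormedAddCommGroup B''] [NormedSpace ℂ B''] {F : A' × B' → Z} {k₁ : A'' → A'}
    {k₂ : B'' → B'} {q : A'' × B''} (h : CompatAt 𝒜 F (k₁ q.1, k₂ q.2))
    (h₁ : AnalyticAt ℂ k₁ q.1) (h₂ : AnalyticAt ℂ k₂ q.2) :
    CompatAt 𝒜 (fun q' : A'' × B'' => F (k₁ q'.1, k₂ q'.2)) q := by
  have hT : IsProdAt (fun q' : A'' × B'' => (k₁ q'.1, k₂ q'.2)) q :=
    ⟨k₁, k₂, h₁, h₂, EventuallyEq.rfl⟩
  exact ⟨ContinuousAt.comp (f := fun q' : A'' × B'' => (k₁ q'.1, k₂ q'.2)) h.1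
    hT.analyticAt.continuousAt, fun φ hφ hp => IsProdAt.comp (h.2 φ hφ hp) hT⟩

theorem HorAt.comp {g : A' → Z} {k : D → A'} {q : D} (h : HorAt 𝒜 g (k q))
    (hk : AnalyticAt ℂ k q) : HorAt 𝒜 (g ∘ k) q := by
  refine ⟨h.1.comp hk.continuousAt, fun φ hφ hp => ?_⟩
  obtain ⟨f, hf, he⟩ := h.2 φ hφ hp
  exact ⟨f ∘ k, hf.comp hk, hk.continuousAt.eventually he⟩

theorem VerAt.comp {h : B' → Z} {k : D → B'} {q : D} (hh : VerAt 𝒜 h (k q))
    (hk : AnalyticAt ℂ k q) : VerAt 𝒜 (h ∘ k) q := by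
  refine ⟨hh.1.comp hk.continuousAt, fun φ hφ hp => ?_⟩
  obtain ⟨f, hf, he⟩ := hh.2 φ hφ hp
  exact ⟨f ∘ k, hf.comp hk, hk.continuousAt.eventually he⟩

theorem CompatAt.horAt {F : A' × B' → Z} {a : A'} {b : B'} (h : CompatAt 𝒜 F (a, b)) :
    HorAt 𝒜 (fun a' => F (a', b)) a := by
  have t : ContinuousAt (fun a' : A' => (a', b)) a :=
    (continuous_id.prodMk continuous_const).continuousAt
  obtain ⟨φ, hφ, hp⟩ := 𝒜.cover (F (a, b))
  obtain ⟨f₁, f₂, h₁, -, he⟩ := h.2 φ hφ hp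
  exact horAt_of_chart (c := f₂ b) hφ hp (ContinuousAt.comp (f := fun a' : A' => (a', b)) h.1 t)
    h₁ (t.eventually he)

theorem CompatAt.verAt {F : A' × B' → Z} {a : A'} {b : B'} (h : CompatAt 𝒜 F (a, b)) :
    VerAt 𝒜 (fun b' => F (a, b')) b := by
  have t : ContinuousAt (fun b' : B' => (a, b')) b :=
    (continuous_const.prodMk continuous_id).continuousAt
  obtain ⟨φ, hφ, hp⟩ := 𝒜.cover (F (a, b))
  obtain ⟨f₁, f₂, -, h₂, he⟩ := h.2 φ hφ hp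
  exact verAt_of_chart (c := f₁ a) hφ hp (ContinuousAt.comp (f := fun b' : B' => (a, b')) h.1 t)
    h₂ (t.eventually he)

theorem HorAt.compatAt {g : A' → Z} {a : A'} (h : HorAt 𝒜 g a) (b : B') :
    CompatAt 𝒜 (fun q : A' × B' => g q.1) (a, b) := by
  have t : ContinuousAt (fun q : A' × B' => q.1) (a, b) := continuous_fst.continuousAt
  refine ⟨ContinuousAt.comp (f := fun q : A' × B' => q.1) h.1 t, fun φ hφ hp => ?_⟩
  obtain ⟨f, hf, he⟩ := h.2 φ hφ hp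
  exact ⟨f, fun _ => (φ (g a)).2, hf, analyticAt_const, t.eventually he⟩

theorem holAt_symm {φ : OpenPartialHomeomorph Z (A × B)} (hφ : φ ∈ 𝒜.charts) {T : D → A × B}
    {p : D} (hp : T p ∈ φ.target) (hT : AnalyticAt ℂ T p) :
    HolAt 𝒜 (fun q => φ.symm (T q)) p := by
  refine holAt_of_chart hφ (φ.map_target hp)
    (ContinuousAt.comp (f := T) (φ.continuousAt_symm hp) hT.continuousAt) (hT.congr ?_)
  filter_upwards [hT.continuousAt.eventually (φ.open_target.mem_nhds hp)] with q hq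
  exact (φ.right_inv hq).symm

theorem compatAt_symm {φ : OpenPartialHomeomorph Z (A × B)} (hφ : φ ∈ 𝒜.charts)
    {f₁ : A' → A} {f₂ : B' → B} {p : A' × B'} (hp : (f₁ p.1, f₂ p.2) ∈ φ.target)
    (h₁ : AnalyticAt ℂ f₁ p.1) (h₂ : AnalyticAt ℂ f₂ p.2) :
    CompatAt 𝒜 (fun q : A' × B' => φ.symm (f₁ q.1, f₂ q.2)) p := by
  have hT : IsProdAt (fun q : A' × B' => (f₁ q.1, f₂ q.2)) p :=
    ⟨f₁, f₂, h₁, h₂, EventuallyEq.rfl⟩
  have hc := hT.analyticAt.continuousAt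
  refine compatAt_of_chart hφ (φ.map_target hp)
    (ContinuousAt.comp (f := fun q : A' × B' => (f₁ q.1, f₂ q.2)) (φ.continuousAt_symm hp) hc)
    (hT.congr ?_)
  filter_upwards [hc.eventually (φ.open_target.mem_nhds hp)] with q hq
  exact (φ.right_inv hq).symm

theorem horAt_symm {φ : OpenPartialHomeomorph Z (A × B)} (hφ : φ ∈ 𝒜.charts) {f : A' → A}
    {c : B} {a : A'} (hp : (f a, c) ∈ φ.target) (hf : AnalyticAt ℂ f a) :
    HorAt 𝒜 (fun a' => φ.symm (f a', c)) a := by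
  have hc : ContinuousAt (fun a' => (f a', c)) a := hf.continuousAt.prodMk continuousAt_const
  refine horAt_of_chart (c := c) hφ (φ.map_target hp)
    (ContinuousAt.comp (f := fun a' => (f a', c)) (φ.continuousAt_symm hp) hc) hf ?_
  filter_upwards [hc.eventually (φ.open_target.mem_nhds hp)] with q hq
  exact φ.right_inv hq

theorem verAt_symm {φ : OpenPartialHomeomorph Z (A × B)} (hφ : φ ∈ 𝒜.charts) {f : B' → B}
    {c : A} {b : B'} (hp : (c, f b) ∈ φ.target) (hf : AnalyticAt ℂ f b) :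
    VerAt 𝒜 (fun b' => φ.symm (c, f b')) b := by
  have hc : ContinuousAt (fun b' => (c, f b')) b := continuousAt_const.prodMk hf.continuousAt
  refine verAt_of_chart (c := c) hφ (φ.map_target hp)
    (ContinuousAt.comp (f := fun b' => (c, f b')) (φ.continuousAt_symm hp) hc) hf ?_
  filter_upwards [hc.eventually (φ.open_target.mem_nhds hp)] with q hq
  exact φ.right_inv hq

theorem plaque_zero {φ : OpenPartialHomeomorph Z (A × B)} {x : Z} (hx : x ∈ φ.source) :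
    plaque φ x 0 = x := by
  simp [plaque, φ.left_inv hx]

theorem horAt_plaque {φ : OpenPartialHomeomorph Z (A × B)} (hφ : φ ∈ 𝒜.charts) {x : Z} {a : A}
    (ha : ((φ x).1 + a, (φ x).2) ∈ φ.target) : HorAt 𝒜 (plaque φ x) a := by
  exact horAt_symm (f := fun a => (φ x).1 + a) hφ ha (analyticAt_const.add analyticAt_id)

theorem horEt_plaque {φ : OpenPartialHomeomorph Z (A × B)} (hφ : φ ∈ 𝒜.charts) {x : Z}
    (hx : x ∈ φ.source) : HorEt 𝒜 (plaque φ x) 0 := by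
  have ha : ((φ x).1 + (0 : A), (φ x).2) ∈ φ.target := by simpa using φ.map_source hx
  have hc : ContinuousAt (fun a' : A => ((φ x).1 + a', (φ x).2)) 0 := by fun_prop
  refine horEt_of_chart (c := (φ x).2) (f := fun a => (φ x).1 + a)
    (L := ContinuousLinearEquiv.refl ℂ A) hφ (by rwa [plaque_zero hx]) (horAt_plaque hφ ha).1
    (analyticAt_const.add analyticAt_id) ((hasFDerivAt_id (0 : A)).const_add _) ?_
  filter_upwards [hc.eventually (φ.open_target.mem_nhds ha)] with q hq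
  exact φ.right_inv hq

/-- A compatible map is determined near a point by its two slices through that point. -/
theorem CompatAt.local_form {F : A' × B' → Z} {a : A'} {b : B'} (h : CompatAt 𝒜 F (a, b))
    {φ : OpenPartialHomeomorph Z (A × B)} (hφ : φ ∈ 𝒜.charts) (hp : F (a, b) ∈ φ.source) :
    F =ᶠ[𝓝 (a, b)] fun q => φ.symm ((φ (F (q.1, b))).1, (φ (F (a, q.2))).2) := by
  obtain ⟨f₁, f₂, -, -, he⟩ := h.2 φ hφ hp
  have t1 : Tendsto (fun q : A' × B' => (q.1, b)) (𝓝 (a, b)) (𝓝 (a, b)) :=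
    (continuous_fst.prodMk continuous_const).tendsto' _ _ rfl
  have t2 : Tendsto (fun q : A' × B' => (a, q.2)) (𝓝 (a, b)) (𝓝 (a, b)) :=
    (continuous_const.prodMk continuous_snd).tendsto' _ _ rfl
  filter_upwards [he, t1.eventually he, t2.eventually he,
    h.1.eventually (φ.open_source.mem_nhds hp)] with q a1 a2 a3 a4
  simp only [Function.comp_apply] at a1 a2 a3
  rw [a2, a3, ← a1, φ.left_inv a4]

theorem CompatAt.agree {F F' : A' × B' → Z} {a : A'} {b : B'} (h : CompatAt 𝒜 F (a, b))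
    (h' : CompatAt 𝒜 F' (a, b)) (h₁ : (fun a' => F (a', b)) =ᶠ[𝓝 a] fun a' => F' (a', b))
    (h₂ : (fun b' => F (a, b')) =ᶠ[𝓝 b] fun b' => F' (a, b')) : F =ᶠ[𝓝 (a, b)] F' := by
  obtain ⟨φ, hφ, hp⟩ := 𝒜.cover (F (a, b))
  have e : F (a, b) = F' (a, b) := h₁.eq_of_nhds
  have t1 : ContinuousAt (fun q : A' × B' => q.1) (a, b) := continuous_fst.continuousAt
  have t2 : ContinuousAt (fun q : A' × B' => q.2) (a, b) := continuous_snd.continuousAt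
  filter_upwards [h.local_form hφ hp, h'.local_form hφ (e ▸ hp), t1.eventually h₁,
    t2.eventually h₂] with q a1 a2 a3 a4
  rw [a1, a2, a3, a4]

/-- Identity theorem for holomorphic maps into `Z`, along a preconnected set. -/
theorem ident [T2Space Z] [CompleteSpace A] [CompleteSpace B] {S : Set D} (hS : IsPreconnected S)
    {F F' : D → Z} (hF : ∀ m ∈ S, HolAt 𝒜 F m) (hF' : ∀ m ∈ S, HolAt 𝒜 F' m) {m₀ : D}
    (hm₀ : m₀ ∈ S) (h : F =ᶠ[𝓝 m₀] F') : ∀ m ∈ S, F =ᶠ[𝓝 m] F' := by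
  have hopen : IsOpen {m | F =ᶠ[𝓝 m] F'} := isOpen_setOfPred_eventually_nhds
  have key : ∀ m ∈ S, m ∈ closure {m | F =ᶠ[𝓝 m] F'} → F =ᶠ[𝓝 m] F' := by
    intro m hm hcl
    have hfr : ∃ᶠ x in 𝓝 m, F =ᶠ[𝓝 x] F' := mem_closure_iff_frequently.1 hcl
    have e : F m = F' m := tendsto_nhds_unique_of_frequently_eq (hF m hm).1 (hF' m hm).1
      (hfr.mono fun x hx => hx.eq_of_nhds)
    obtain ⟨φ, hφ, hp⟩ := 𝒜.cover (F m)
    have hp' : F' m ∈ φ.source := e ▸ hp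
    have a1 := ((hF m hm).2 φ hφ hp).eventually_analyticAt
    have a2 := ((hF' m hm).2 φ hφ hp').eventually_analyticAt
    obtain ⟨ε, hε, hb⟩ := Metric.eventually_nhds_iff_ball.1 (a1.and a2)
    obtain ⟨x, hx, hxb⟩ := (hfr.and_eventually (ball_mem_nhds m hε)).exists
    have b1 : AnalyticOnNhd ℂ (φ ∘ F) (ball m ε) := fun y hy => (hb y hy).1
    have b2 : AnalyticOnNhd ℂ (φ ∘ F') (ball m ε) := fun y hy => (hb y hy).2
    have b3 := b1.eqOn_of_preconnected_of_eventuallyEq b2 (convex_ball m ε).isPreconnected hxb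
      (hx.fun_comp φ)
    filter_upwards [ball_mem_nhds m hε, (hF m hm).1.eventually (φ.open_source.mem_nhds hp),
      (hF' m hm).1.eventually (φ.open_source.mem_nhds hp')] with y c1 c2 c3
    exact φ.injOn c2 c3 (b3 c1)
  exact hS.subset_of_closure_inter_subset hopen ⟨m₀, hm₀, h⟩ fun m hm => key m hm.2 hm.1

/-- A horizontal germ factors through a horizontal local isomorphism at the same point. -/
theorem HorEt.factor [CompleteSpace A] {u : A' → Z} {g : A → Z} {a' : A'} {a : A}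
    (hg : HorEt 𝒜 g a) (hu : HorAt 𝒜 u a') (h : u a' = g a) :
    ∃ κ : A' → A, AnalyticAt ℂ κ a' ∧ κ a' = a ∧ u =ᶠ[𝓝 a'] g ∘ κ := by
  obtain ⟨φ, hφ, hp⟩ := 𝒜.cover (g a)
  obtain ⟨f, L, hf, hL, he⟩ := hg.2 φ hφ hp
  obtain ⟨f', hf', he'⟩ := hu.2 φ hφ (h ▸ hp)
  have hs : HasStrictFDerivAt f (L : A →L[ℂ] A) a := by
    have := hf.hasStrictFDerivAt
    rwa [hL.fderiv] at this
  have e : f' a' = f a := by
    have e1 : φ (u a') = (f' a', (φ (u a')).2) := he'.eq_of_nhds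
    have e2 : φ (g a) = (f a, (φ (g a)).2) := he.eq_of_nhds
    rw [h, e2] at e1
    exact (congrArg Prod.fst e1).symm
  set Θ := hs.toOpenPartialHomeomorph f with hΘ
  have hΘa : a ∈ Θ.source := hs.mem_toOpenPartialHomeomorph_source
  have hΘf : (Θ : A → A) = f := rfl
  have hinv : AnalyticAt ℂ Θ.symm (f a) :=
    Θ.analyticAt_symm' hΘa (i := L) hf hL.fderiv
  have hl : Θ.symm (f a) = a := Θ.left_inv hΘa
  have hκ : AnalyticAt ℂ (Θ.symm ∘ f') a' := AnalyticAt.comp (by rwa [e]) hf'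
  have hκa : (Θ.symm ∘ f') a' = a := by simp [e, hl]
  refine ⟨Θ.symm ∘ f', hκ, hκa, ?_⟩
  have t : Tendsto (Θ.symm ∘ f') (𝓝 a') (𝓝 a) := hκa ▸ hκ.continuousAt.tendsto
  have t' : Tendsto f' (𝓝 a') (𝓝 (f a)) := e ▸ hf'.continuousAt.tendsto
  filter_upwards [he', t.eventually he, hu.1.eventually (φ.open_source.mem_nhds (h ▸ hp)),
    t.eventually (hg.1.eventually (φ.open_source.mem_nhds hp)),
    t'.eventually (Θ.open_target.mem_nhds (Θ.map_source hΘa))] with x c1 c2 c3 c4 c5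
  refine φ.injOn c3 c4 ?_
  simp only [Function.comp_apply] at c1 c2 ⊢
  rw [c1, c2, h, ← hΘf, Θ.right_inv c5]

end Vale.Agent.P278
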