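import Vale.Agent.P278.Abs

/-! Sub-mean value inequality on discs. -/

open Set Filter Topology Metric
open scoped Manifold ContDiff

namespace Vale.Agent.P278

namespace SubMeanAux

open MeasureTheory

variable {D : Type*} [NormedAddCommGroup D] [NormedSpace ℂ D] [CompleteSpace D]

lemma circ {f : ℂ → D} {s : ℝ} (hf : ∀ y ∈ closedBall (0 : ℂ) s, AnalyticAt ℂ f y) {y : ℂ}
    (hy : y ∈ closedBall (0 : ℂ) s) :
    ∫ θ in Icc 0 (2 * Real.pi), f (circleMap 0 1 θ * y) = (2 * Real.pi) • f 0 := by
  have h1 : DifferentiableOn ℂ (fun ζ => f (ζ * y)) (closedBall 0 |(1 : ℝ)|) := by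
    intro ζ hζ
    have h2 : ζ * y ∈ closedBall (0 : ℂ) s := by
      rw [mem_closedBall_zero_iff] at hζ hy ⊢
      rw [norm_mul]
      rw [abs_one] at hζ
      nlinarith [norm_nonneg ζ, norm_nonneg y]
    exact ((hf _ h2).differentiableAt.comp ζ
      (differentiableAt_id.mul_const y)).differentiableWithinAt
  have h3 : DiffContOnCl ℂ (fun ζ => f (ζ * y)) (ball 0 |(1 : ℝ)|) :=
    (h1.mono closure_ball_subset_closedBall).diffContOnCl
  have h4 := h3.circleAverage
  rw [Real.circleAverage_def] at h4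
  have hp : (2 * Real.pi) ≠ 0 := by have := Real.pi_pos; positivity
  rw [integral_Icc_eq_integral_Ioc, ← intervalIntegral.integral_of_le (by positivity)]
  simp only [zero_mul] at h4
  rw [← h4, smul_smul, mul_inv_cancel₀ hp, one_smul]

omit [CompleteSpace D] in
lemma rot (f : ℂ → D) (s θ : ℝ) :
    ∫ y in closedBall (0 : ℂ) s, f (circleMap 0 1 θ * y) = ∫ y in closedBall (0 : ℂ) s, f y := by
  have h1 := (rotation (Circle.exp θ)).measurePreserving
  have h2 := h1.setIntegral_preimage_emb
    (rotation (Circle.exp θ)).toHomeomorph.measurableEmbedding f (closedBall 0 s)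
  have h3 : (rotation (Circle.exp θ)) ⁻¹' (closedBall 0 s) = closedBall 0 s := by
    ext y; simp only [mem_preimage, mem_closedBall_zero_iff, LinearIsometryEquiv.norm_map]
  rw [h3] at h2
  rw [← h2]
  simp [circleMap, rotation_apply]

lemma mean {f : ℂ → D} {s : ℝ} (hf : ∀ y ∈ closedBall (0 : ℂ) s, AnalyticAt ℂ f y) :
    ∫ y in closedBall (0 : ℂ) s, f y = (volume.real (closedBall (0 : ℂ) s)) • f 0 := by
  have hc : ContinuousOn f (closedBall 0 s) := fun y hy =>
    (hf y hy).continuousAt.continuousWithinAt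
  have hi : Integrable (Function.uncurry fun (θ : ℝ) (y : ℂ) => f (circleMap 0 1 θ * y))
      ((volume.restrict (Icc 0 (2 * Real.pi))).prod (volume.restrict (closedBall (0 : ℂ) s))) := by
    rw [Measure.prod_restrict]
    refine ContinuousOn.integrableOn_compact (isCompact_Icc.prod (isCompact_closedBall _ _)) ?_
    refine hc.comp (f := fun q : ℝ × ℂ => circleMap 0 1 q.1 * q.2) (by fun_prop) fun q hq => ?_
    have := hq.2
    rw [mem_closedBall_zero_iff] at this ⊢
    simpa using this
  have h1 := integral_integral_swap hi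
  simp only [rot] at h1
  rw [setIntegral_congr_fun measurableSet_closedBall fun y hy => circ hf hy] at h1
  have hp : 0 < 2 * Real.pi := by have := Real.pi_pos; positivity
  simp only [integral_const, measureReal_restrict_apply_univ, Real.volume_real_Icc, sub_zero,
    max_eq_left hp.le] at h1
  rw [smul_comm] at h1
  exact smul_right_injective D hp.ne' h1

lemma zero {f : ℂ → D} {s : ℝ} (hs : 0 < s)
    (hf : ∀ y ∈ closedBall (0 : ℂ) s, AnalyticAt ℂ f y) :
    Real.pi * s ^ 2 * ‖f 0‖ ^ 2 ≤ ∫ y in closedBall (0 : ℂ) s, ‖f y‖ ^ 2 := by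
  have hc : ContinuousOn f (closedBall 0 s) := fun y hy =>
    (hf y hy).continuousAt.continuousWithinAt
  have hv : volume.real (closedBall (0 : ℂ) s) = Real.pi * s ^ 2 := by
    rw [Measure.real, Complex.volume_closedBall]
    simp [ENNReal.toReal_ofReal hs.le, mul_comm]
  have h1 : Real.pi * s ^ 2 * ‖f 0‖ ≤ ∫ y in closedBall (0 : ℂ) s, ‖f y‖ := by
    have := norm_integral_le_integral_norm (μ := volume.restrict (closedBall (0 : ℂ) s)) f
    rw [mean hf, norm_smul, hv, Real.norm_eq_abs,
      abs_of_nonneg (by have := Real.pi_pos; positivity)] at this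
    exact this
  have i1 : IntegrableOn (fun y => ‖f y‖) (closedBall (0 : ℂ) s) :=
    hc.norm.integrableOn_compact (isCompact_closedBall _ _)
  have i2 : IntegrableOn (fun y => ‖f y‖ ^ 2) (closedBall (0 : ℂ) s) :=
    (hc.norm.pow 2).integrableOn_compact (isCompact_closedBall _ _)
  have i3 : IntegrableOn (fun _ : ℂ => ‖f 0‖ ^ 2) (closedBall (0 : ℂ) s) :=
    continuousOn_const.integrableOn_compact (isCompact_closedBall _ _)
  have h2 : ∫ y in closedBall (0 : ℂ) s, (2 * ‖f 0‖ * ‖f y‖ - ‖f 0‖ ^ 2) ≤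
      ∫ y in closedBall (0 : ℂ) s, ‖f y‖ ^ 2 :=
    integral_mono ((i1.const_mul _).sub i3) i2 fun y => by
      nlinarith [sq_nonneg (‖f y‖ - ‖f 0‖)]
  rw [integral_sub (i1.const_mul _) i3, integral_const_mul, integral_const,
    measureReal_restrict_apply_univ, hv, smul_eq_mul] at h2
  nlinarith [mul_le_mul_of_nonneg_left h1 (norm_nonneg (f 0))]

end SubMeanAux

/-- Proof idea: mean value property on circles (`DiffContOnCl.circleAverage`), Cauchy-Schwarz or
Jensen on each circle, then polar coordinates (`Complex.integral_comp_polarCoord_symm`). -/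
theorem submean {D : Type*} [NormedAddCommGroup D] [NormedSpace ℂ D] [CompleteSpace D]
    {f : ℂ → D} {c : ℂ} {s : ℝ} (hs : 0 < s) (hf : ∀ y ∈ closedBall c s, AnalyticAt ℂ f y) :
    Real.pi * s ^ 2 * ‖f c‖ ^ 2 ≤ ∫ y in closedBall c s, ‖f y‖ ^ 2 := by
  have h1 := SubMeanAux.zero (f := fun z => f (c + z)) hs fun y hy =>
    (hf (c + y) (by simpa using hy)).comp (f := fun z => c + z) (by fun_prop)
  have h2 := (MeasureTheory.measurePreserving_add_left MeasureTheory.volume c
    ).setIntegral_preimage_emb (Homeomorph.addLeft c).measurableEmbedding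
    (fun y => ‖f y‖ ^ 2) (closedBall c s)
  have h3 : (fun z => c + z) ⁻¹' closedBall c s = closedBall 0 s := by
    ext y; simp
  rw [h3] at h2
  rw [← h2]
  simpa using h1

end Vale.Agent.P278
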