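import Vale.Agent.P278.Stay
import Vale.Agent.P278.SubMean

/-! Small area implies a gradient bound (Heinz trick). -/

open Set Filter Topology Metric
open scoped Manifold ContDiff

namespace Vale.Agent.P278

/-- Proof idea. Take `ε₀ = c^2 r^2 / (2 C)`, `C₀ = 4 C / (c π)`. Let `M` be the maximum of
`(ρ - ‖y - y₀‖) * √(e y)` on the closed disc, attained at `y₁`; `ρ^2 e y₀ ≤ M^2`. If `M > 0` put
`d = ρ - ‖y₁ - y₀‖ > 0`; on `closedBall y₁ (d/2)` one has `√e ≤ 2M/d`. Take the chart `φ` at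
`y₁`, `L = 2M/(d √c)`, `s = min (d/2) (r/L)`. By `stay` along the rays `t ↦ u (y₁ + t v)`,
`‖v‖ = 1`, `u` maps `closedBall y₁ s` into `φ.source` and `φ ∘ u` into the ball of radius `r`.
`submean` for `deriv (φ ∘ u)` gives `π s^2 M^2 / (d^2 C) ≤ ε / c`. The case `s = r/L` contradicts
`ε ≤ ε₀`; the case `s = d/2` gives `M^2 ≤ C₀ ε`. -/
theorem epsReg {X D : Type*} [TopologicalSpace X] [T2Space X] [NormedAddCommGroup D]
    [NormedSpace ℂ D] [FiniteDimensional ℂ D] {r c C : ℝ} (hr : 0 < r) (hc : 0 < c)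
    (hC : 0 < C) :
    ∃ ε₀ > 0, ∃ C₀ > 0, ∀ (u : ℂ → X) (e : ℂ → ℝ) (y₀ : ℂ) (ρ ε : ℝ), 0 < ρ → 0 ≤ ε → ε ≤ ε₀ →
      ContinuousOn u (closedBall y₀ ρ) → ContinuousOn e (closedBall y₀ ρ) →
      (∀ y ∈ closedBall y₀ ρ, 0 ≤ e y) →
      (∀ y ∈ closedBall y₀ ρ, ∃ φ : OpenPartialHomeomorph X D, u y ∈ φ.source ∧
        closedBall (φ (u y)) (3 * r) ⊆ φ.target ∧ ∀ y' ∈ closedBall y₀ ρ, u y' ∈ φ.source →
          AnalyticAt ℂ (φ ∘ u) y' ∧ (φ (u y') ∈ closedBall (φ (u y)) (3 * r) →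
            c * ‖deriv (φ ∘ u) y'‖ ^ 2 ≤ e y' ∧ e y' ≤ C * ‖deriv (φ ∘ u) y'‖ ^ 2)) →
      ∫ y in closedBall y₀ ρ, e y ≤ ε → e y₀ ≤ C₀ * ε / ρ ^ 2 := by
  have : ProperSpace D := FiniteDimensional.proper ℂ D
  have hπ := Real.pi_gt_three
  refine ⟨c ^ 2 * r ^ 2 / (2 * C), by positivity, 4 * C / (c * Real.pi), by positivity, ?_⟩
  intro u e y₀ ρ ε hρ hε hε₀ hu he he0 hφ hI
  have hm : ContinuousOn (fun y => (ρ - ‖y - y₀‖) * √(e y)) (closedBall y₀ ρ) :=
    (continuousOn_const.sub (by fun_prop)).mul he.sqrt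
  obtain ⟨y₁, hy₁, hmax⟩ := (isCompact_closedBall y₀ ρ).exists_isMaxOn
    ⟨y₀, mem_closedBall_self hρ.le⟩ hm
  set d := ρ - ‖y₁ - y₀‖ with hd
  set M := d * √(e y₁) with hM
  have hle : ∀ y ∈ closedBall y₀ ρ, (ρ - ‖y - y₀‖) * √(e y) ≤ M := fun y hy => hmax hy
  have h0 := hle y₀ (mem_closedBall_self hρ.le)
  rw [sub_self, norm_zero, sub_zero] at h0
  have h1 : 0 ≤ ρ * √(e y₀) := by positivity
  suffices h : M ^ 2 ≤ 4 * C / (c * Real.pi) * ε by
    have h2 := pow_le_pow_left₀ h1 h0 2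
    rw [mul_pow, Real.sq_sqrt (he0 _ (mem_closedBall_self hρ.le))] at h2
    rw [le_div_iff₀ (by positivity)]
    linarith
  rcases (h1.trans h0).eq_or_lt with hM0 | hM0
  · rw [← hM0, zero_pow two_ne_zero]
    positivity
  have hd0 : 0 < d := (pos_iff_pos_of_mul_pos hM0).2
    (lt_of_le_of_ne (Real.sqrt_nonneg _) (right_ne_zero_of_mul hM0.ne').symm)
  have he1 : M ^ 2 = d ^ 2 * e y₁ := by rw [hM, mul_pow, Real.sq_sqrt (he0 _ hy₁)]
  set L := 2 * M / (d * √c) with hL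
  have hL0 : 0 < L := by positivity
  have hL2 : c * L ^ 2 * d ^ 2 = 4 * M ^ 2 := by
    rw [hL, div_pow, mul_pow d, Real.sq_sqrt hc.le]
    field_simp
    ring
  have hin : ∀ y ∈ closedBall y₁ (d / 2), y ∈ closedBall y₀ ρ ∧ e y ≤ c * L ^ 2 := by
    intro y hy
    rw [mem_closedBall_iff_norm] at hy
    have h2 : ‖y - y₀‖ ≤ ρ - d / 2 := by
      have := norm_sub_le_norm_sub_add_norm_sub y y₁ y₀
      linarith
    have h3 : y ∈ closedBall y₀ ρ := mem_closedBall_iff_norm.2 (by linarith)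
    have h4 : d / 2 * √(e y) ≤ M :=
      (mul_le_mul_of_nonneg_right (by linarith) (Real.sqrt_nonneg _)).trans (hle y h3)
    have h5 := pow_le_pow_left₀ (by positivity) h4 2
    rw [mul_pow, Real.sq_sqrt (he0 _ h3)] at h5
    refine ⟨h3, le_of_mul_le_mul_right ?_ (by positivity : 0 < d ^ 2)⟩
    linarith
  obtain ⟨φ, hφ1, hφ2, hφ3⟩ := hφ y₁ hy₁
  set s := min (d / 2) (r / L) with hs
  have hs0 : 0 < s := lt_min (by positivity) (by positivity)
  have hsub : closedBall y₁ s ⊆ closedBall y₁ (d / 2) :=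
    closedBall_subset_closedBall (min_le_left _ _)
  have hLs : L * s ≤ r := by
    have := min_le_right (d / 2) (r / L)
    rwa [le_div_iff₀' hL0] at this
  have hstay : ∀ y ∈ closedBall y₁ s,
      u y ∈ φ.source ∧ φ (u y) ∈ closedBall (φ (u y₁)) (3 * r) := by
    intro y hy
    have hy' := mem_closedBall_iff_norm.1 hy
    have hseg : ∀ t ∈ Icc (0 : ℝ) 1, y₁ + t * (y - y₁) ∈ closedBall y₁ (d / 2) := fun t ht => by
      refine hsub (mem_closedBall_iff_norm.2 ?_)
      rw [add_sub_cancel_left, norm_mul, Complex.norm_real, Real.norm_of_nonneg ht.1]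
      exact (mul_le_of_le_one_left (norm_nonneg _) ht.2).trans hy'
    have hLy : L * ‖y - y₁‖ ≤ r := (mul_le_mul_of_nonneg_left hy' hL0.le).trans hLs
    have key := stay φ (γ := fun t : ℝ => u (y₁ + t * (y - y₁))) (L := L * ‖y - y₁‖) hφ2
      (by positivity) zero_le_one
      (hu.comp (by fun_prop) fun t ht => (hin _ (hseg t ht)).1) (by simpa using hφ1)
      (by simp; linarith) (fun t ht h2 h3 => by
        obtain ⟨h4, h5⟩ := hin _ (hseg t ht)
        obtain ⟨h6, h7⟩ := hφ3 _ h4 h2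
        have h8 : HasDerivAt (fun t : ℝ => y₁ + t * (y - y₁)) (y - y₁) t := by
          simpa using ((hasDerivAt_id t).ofReal_comp.mul_const (y - y₁)).const_add y₁
        have h9 := h6.differentiableAt.hasDerivAt.scomp t h8
        refine ⟨_, h9, ?_⟩
        rw [norm_smul, mul_comm]
        refine mul_le_mul_of_nonneg_right ?_ (norm_nonneg _)
        exact (pow_le_pow_iff_left₀ (norm_nonneg _) hL0.le two_ne_zero).1
          (le_of_mul_le_mul_left ((h7 h3).1.trans h5) hc)) 1 ⟨zero_le_one, le_rfl⟩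
    simp only [Complex.ofReal_one, Complex.ofReal_zero, one_mul, zero_mul, add_zero, mul_one,
      add_sub_cancel] at key
    exact ⟨key.1, mem_closedBall_iff_norm.2 (by linarith [key.2])⟩
  have han : ∀ y ∈ closedBall y₁ s, AnalyticAt ℂ (deriv (φ ∘ u)) y := fun y hy =>
    (hφ3 y (hin y (hsub hy)).1 (hstay y hy).1).1.deriv
  have h2 := submean hs0 han
  have hsub' : closedBall y₁ s ⊆ closedBall y₀ ρ := fun y hy => (hin y (hsub hy)).1
  have hI1 : MeasureTheory.IntegrableOn e (closedBall y₀ ρ) :=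
    he.integrableOn_compact (isCompact_closedBall _ _)
  have hI2 : MeasureTheory.IntegrableOn (fun y => c * ‖deriv (φ ∘ u) y‖ ^ 2) (closedBall y₁ s) :=
    ContinuousOn.integrableOn_compact (isCompact_closedBall _ _) fun y hy =>
      (continuousAt_const.mul ((han y hy).continuousAt.norm.pow 2)).continuousWithinAt
  have h3 : c * ∫ y in closedBall y₁ s, ‖deriv (φ ∘ u) y‖ ^ 2 ≤ ε := by
    rw [← MeasureTheory.integral_const_mul]
    refine (MeasureTheory.setIntegral_mono_on hI2 (hI1.mono_set hsub') measurableSet_closedBall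
      fun y hy => ((hφ3 y (hsub' hy) (hstay y hy).1).2 (hstay y hy).2).1).trans
      (le_trans ?_ hI)
    exact MeasureTheory.setIntegral_mono_set hI1
      ((MeasureTheory.ae_restrict_iff' measurableSet_closedBall).2 (Eventually.of_forall he0))
      hsub'.eventuallyLE
  have h4 := ((hφ3 y₁ hy₁ hφ1).2 (mem_closedBall_self (by positivity))).2
  have h5 : c * (Real.pi * s ^ 2) * M ^ 2 ≤ d ^ 2 * (C * ε) := by
    calc _ = d ^ 2 * (c * (Real.pi * s ^ 2) * e y₁) := by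
          rw [he1]
          ring
      _ ≤ d ^ 2 * (c * (Real.pi * s ^ 2) * (C * ‖deriv (φ ∘ u) y₁‖ ^ 2)) := by gcongr
      _ = d ^ 2 * (C * (c * (Real.pi * s ^ 2 * ‖deriv (φ ∘ u) y₁‖ ^ 2))) := by ring
      _ ≤ _ := by
          gcongr
          exact (mul_le_mul_of_nonneg_left h2 hc.le).trans h3
  rcases min_choice (d / 2) (r / L) with h6 | h6
  · rw [hs, h6] at h5
    rw [div_mul_eq_mul_div, le_div_iff₀ (by positivity)]
    refine le_of_mul_le_mul_left ?_ (by positivity : 0 < d ^ 2)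
    linarith
  · exfalso
    have h7 : s * L = r := by rw [hs, h6, div_mul_cancel₀ _ hL0.ne']
    have h8 : d ^ 2 * (c ^ 2 * r ^ 2 * Real.pi) ≤ d ^ 2 * (4 * (C * ε)) := by
      calc _ = c * (Real.pi * s ^ 2) * (c * L ^ 2 * d ^ 2) := by
            rw [← h7]
            ring
        _ ≤ _ := by
            rw [hL2]
            linarith
    have h9 := le_of_mul_le_mul_left h8 (by positivity)
    rw [le_div_iff₀ (by positivity)] at hε₀
    nlinarith [mul_pos (pow_pos hc 2) (pow_pos hr 2)]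

end Vale.Agent.P278
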