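import Vale.Agent.P278.Abs

/-! A path with bounded speed in a chart does not leave the chart. -/

open Set Filter Topology Metric
open scoped Manifold ContDiff

namespace Vale.Agent.P278

/-- Proof idea: let `t*` be the supremum of the `t` such that `γ s ∈ φ.source` and
`φ (γ s) ∈ closedBall q R` for all `s ≤ t`. The mean value inequality gives
`‖φ (γ s) - φ (γ 0)‖ ≤ L s`, so `γ s` lies in the compact (hence closed) set
`φ.symm '' closedBall q R'` with `R' = ‖φ (γ 0) - q‖ + L T < R`; pass to the limit, then use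
continuity to go beyond `t*`. `IsClosed.Icc_subset_of_forall_exists_gt` may help. -/
theorem stay {X D : Type*} [TopologicalSpace X] [T2Space X] [NormedAddCommGroup D]
    [NormedSpace ℝ D] [ProperSpace D] (φ : OpenPartialHomeomorph X D) {q : D} {R L T : ℝ}
    (hK : closedBall q R ⊆ φ.target) (hL : 0 ≤ L) (hT : 0 ≤ T) {γ : ℝ → X}
    (hγ : ContinuousOn γ (Icc 0 T)) (h0 : γ 0 ∈ φ.source) (hq : ‖φ (γ 0) - q‖ + L * T < R)
    (hd : ∀ t ∈ Icc 0 T, γ t ∈ φ.source → φ (γ t) ∈ closedBall q R →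
      ∃ v, HasDerivAt (fun s => φ (γ s)) v t ∧ ‖v‖ ≤ L) :
    ∀ t ∈ Icc 0 T, γ t ∈ φ.source ∧ ‖φ (γ t) - φ (γ 0)‖ ≤ L * t := by
  have hc : IsClosed (φ.symm '' closedBall q R) :=
    ((isCompact_closedBall q R).image_of_continuousOn (φ.continuousOn_symm.mono hK)).isClosed
  have hm : ∀ x, x ∈ φ.symm '' closedBall q R ↔ x ∈ φ.source ∧ φ x ∈ closedBall q R := fun x => by
    constructor
    · rintro ⟨z, hz, rfl⟩
      exact ⟨φ.map_target (hK hz), by rwa [φ.right_inv (hK hz)]⟩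
    · exact fun h => ⟨φ x, h.2, φ.left_inv h.1⟩
  have key : ∀ t ≤ T, Icc 0 t ⊆ γ ⁻¹' (φ.symm '' closedBall q R) →
      ∀ u ∈ Icc 0 t, ‖φ (γ u) - φ (γ 0)‖ ≤ L * u := fun t ht h => by
    choose! v hv using fun u (hu : u ∈ Icc 0 t) =>
      hd u ⟨hu.1, hu.2.trans ht⟩ ((hm _).1 (h hu)).1 ((hm _).1 (h hu)).2
    simpa using norm_image_sub_le_of_norm_deriv_le_segment' (f := fun s => φ (γ s))
      (fun u hu => (hv u hu).1.hasDerivWithinAt) fun u hu => (hv u (Ico_subset_Icc_self hu)).2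
  have hall : Icc 0 T ⊆ γ ⁻¹' (φ.symm '' closedBall q R) := by
    refine IsClosed.Icc_subset_of_forall_mem_nhdsGT_of_Icc_subset ?_ ((hm _).2 ⟨h0, ?_⟩)
      fun t ht h => ?_
    · rw [inter_comm]
      exact hγ.preimage_isClosed_of_isClosed isClosed_Icc hc
    · rw [mem_closedBall, dist_eq_norm]
      linarith [mul_nonneg hL hT]
    · have h1 := ((hm _).1 (h ⟨ht.1, le_rfl⟩)).1
      have h2 : φ (γ t) ∈ ball q R := by
        rw [mem_ball, dist_eq_norm]
        linarith [key t ht.2.le h t ⟨ht.1, le_rfl⟩, norm_sub_le_norm_sub_add_norm_sub (φ (γ t))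
          (φ (γ 0)) q, mul_le_mul_of_nonneg_left ht.2.le hL]
      have h3 : φ.symm '' closedBall q R ∈ 𝓝 (γ t) := by
        filter_upwards [φ.open_source.mem_nhds h1,
          (φ.continuousAt h1).preimage_mem_nhds (isOpen_ball.mem_nhds h2)] with x h4 h5
        exact (hm x).2 ⟨h4, ball_subset_closedBall h5⟩
      exact nhdsWithin_le_of_mem (Icc_mem_nhdsGT_of_mem ht)
        ((hγ t (Ico_subset_Icc_self ht)).preimage_mem_nhdsWithin h3)
  exact fun t ht => ⟨((hm _).1 (hall ht)).1, key T le_rfl hall t ht⟩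

end Vale.Agent.P278
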