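import Vale.Agent.P278.Basic
import Vale.Agent.P278.Stay

/-! The neck stays in one chart. -/

open Set Filter Topology Metric
open scoped Manifold ContDiff

namespace Vale.Agent.P278

variable {A B A' B' D : Type*} [NormedAddCommGroup A] [NormedSpace ℂ A]
  [NormedAddCommGroup B] [NormedSpace ℂ B] [NormedAddCommGroup A'] [NormedSpace ℂ A']
  [NormedAddCommGroup B'] [NormedSpace ℂ B'] [NormedAddCommGroup D] [NormedSpace ℂ D]
  {Z : Type*} [TopologicalSpace Z] {𝒜 : ProdAtlas Z A B}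

namespace Neck1Aux

open Complex in
theorem mean_est {E : Type*} [NormedAddCommGroup E] [NormedSpace ℂ E] [CompleteSpace E]
    {f : ℂ → E} {R η : ℝ} {a : E} (hR : 0 < R) (hc : ContinuousOn f (sphere 0 R))
    (h : ∀ z ∈ sphere (0 : ℂ) R, ‖f z - a‖ ≤ η) :
    ‖(∮ z in C(0, R), (z - 0)⁻¹ • f z) - (2 * Real.pi * I : ℂ) • a‖ ≤ 2 * Real.pi * η := by
  have hinv : ContinuousOn (fun z : ℂ => (z - 0)⁻¹) (sphere 0 R) := by
    refine (continuousOn_id.sub continuousOn_const).inv₀ fun z hz h0 => ?_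
    have h1 : z - 0 = 0 := h0
    rw [mem_sphere_iff_norm, h1, norm_zero] at hz
    exact hR.ne hz
  have i1 : CircleIntegrable (fun z : ℂ => (z - 0)⁻¹ • f z) 0 R :=
    (hinv.smul hc).circleIntegrable hR.le
  have i2 : CircleIntegrable (fun z : ℂ => (z - 0)⁻¹ • a) 0 R :=
    (hinv.smul continuousOn_const).circleIntegrable hR.le
  rw [← circleIntegral.integral_sub_center_inv 0 hR.ne', ← circleIntegral.integral_smul_const,
    ← circleIntegral.integral_sub i1 i2]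
  refine (circleIntegral.norm_integral_le_of_norm_le_const (C := η / R) hR.le ?_).trans
    (le_of_eq (by field_simp))
  intro z hz
  have hz' := hz
  rw [mem_sphere_iff_norm] at hz'
  rw [← smul_sub, norm_smul, norm_inv, hz', div_eq_inv_mul]
  exact mul_le_mul_of_nonneg_left (h z hz) (by positivity)

open Complex in
theorem annulus {E : Type*} [NormedAddCommGroup E] [NormedSpace ℂ E] [CompleteSpace E]
    {f : ℂ → E} {ρ R η : ℝ} {a b : E} (hρ : 0 < ρ) (hle : ρ ≤ R)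
    (hd : ∀ z : ℂ, ρ ≤ ‖z‖ → ‖z‖ ≤ R → DifferentiableAt ℂ f z)
    (ha : ∀ z : ℂ, ‖z‖ = ρ → ‖f z - a‖ ≤ η) (hb : ∀ z : ℂ, ‖z‖ = R → ‖f z - b‖ ≤ η) :
    ‖a - b‖ ≤ 2 * η := by
  have h1 := mean_est (f := f) (a := a) (η := η) hρ
    (fun z hz => by
      rw [mem_sphere_zero_iff_norm] at hz
      exact (hd z hz.ge (hz.le.trans hle)).continuousAt.continuousWithinAt)
    (fun z hz => ha z (mem_sphere_zero_iff_norm.1 hz))
  have h2 := mean_est (f := f) (a := b) (η := η) (hρ.trans_le hle)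
    (fun z hz => by
      rw [mem_sphere_zero_iff_norm] at hz
      exact (hd z (hle.trans hz.ge) hz.le).continuousAt.continuousWithinAt)
    (fun z hz => hb z (mem_sphere_zero_iff_norm.1 hz))
  have h3 := circleIntegral_sub_center_inv_smul_eq_of_differentiable_on_annulus_off_countable
    (c := 0) (f := f) (s := ∅) hρ hle countable_empty
    (fun z hz => by
      have h4 := hz.1
      have h5 := hz.2
      rw [mem_closedBall_zero_iff] at h4
      rw [mem_ball_zero_iff, not_lt] at h5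
      exact (hd z h5 h4).continuousAt.continuousWithinAt)
    (fun z hz => by
      have h4 := hz.1.1
      have h5 := hz.1.2
      rw [mem_ball_zero_iff] at h4
      rw [mem_closedBall_zero_iff, not_le] at h5
      exact hd z h5.le h4.le)
  rw [h3] at h2
  have h4 : ‖(2 * Real.pi * I : ℂ) • (a - b)‖ ≤ 2 * Real.pi * η + 2 * Real.pi * η := by
    rw [smul_sub]
    refine le_trans (le_of_eq ?_) ((norm_sub_le _ _).trans (add_le_add h2 h1))
    congr 1; abel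
  have h5 : ‖(2 * Real.pi * I : ℂ)‖ = 2 * Real.pi := by
    simp [abs_of_pos Real.pi_pos]
  rw [norm_smul, h5] at h4
  have := Real.pi_pos
  nlinarith

theorem exists_angle {z₀ z : ℂ} (h0 : z₀ ≠ 0) (h : ‖z‖ = ‖z₀‖) :
    ∃ t ∈ Icc (0 : ℝ) (2 * Real.pi), z₀ * Complex.exp (t * Complex.I) = z := by
  have h1 : ‖z / z₀‖ = 1 := by rw [norm_div, h, div_self (norm_ne_zero_iff.2 h0)]
  obtain ⟨θ, hθ, e⟩ := Complex.norm_eq_one_iff'.1 h1
  have hp := Real.pi_pos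
  by_cases h2 : 0 ≤ θ
  · exact ⟨θ, ⟨h2, by linarith [hθ.2]⟩, by rw [e]; field_simp⟩
  · refine ⟨θ + 2 * Real.pi, ⟨by linarith [hθ.1], by linarith⟩, ?_⟩
    push_cast
    rw [add_mul, Complex.exp_add, Complex.exp_two_pi_mul_I, e]; field_simp

theorem hasDerivAt_dpt (τ : ℝ) (y : ℂ) : HasDerivAt (dpt τ) dY y :=
  ((hasDerivAt_id y).const_add (-(τ : ℂ))).prodMk ((hasDerivAt_id y).const_sub (-(τ : ℂ)))

theorem ring_bd {K τ : ℝ} (hτ : 0 < τ) {ε z : ℂ} (hε : ‖ε‖ = 1) (hz : ‖z‖ = 2 * K * τ) :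
    (2 * K - 1) * τ ≤ ‖ε * (z + τ)‖ ∧ ‖ε * (z + τ)‖ ≤ (2 * K + 1) * τ := by
  have h1 : ‖(τ : ℂ)‖ = τ := by simp [abs_of_pos hτ]
  have h2 := norm_add_le z (τ : ℂ)
  have h3 := norm_sub_le (z + τ) (τ : ℂ)
  rw [add_sub_cancel_right] at h3
  rw [norm_mul, hε, one_mul]
  constructor <;> linarith

theorem circ [T2Space Z] [FiniteDimensional ℂ A] [FiniteDimensional ℂ B]
    {φ : OpenPartialHomeomorph Z (A × B)} (hφ : φ ∈ 𝒜.charts) {H : ℂ × ℂ → Z} {q : A × B}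
    {K τ δ r : ℝ} (hK : 1 ≤ K) (hτ : 0 < τ) (hδ : 0 ≤ δ) (hr : 0 < r) (hδr : 20 * δ ≤ r)
    (hH : ∀ y : ℂ, ‖y‖ ≤ (2 * K + 1) * τ → CompatAt 𝒜 H (dpt τ y))
    (hq : closedBall q (3 * r) ⊆ φ.target)
    (hgrad : ∀ y : ℂ, (2 * K - 1) * τ ≤ ‖y‖ → ‖y‖ ≤ (2 * K + 1) * τ →
      H (dpt τ y) ∈ φ.source → φ (H (dpt τ y)) ∈ closedBall q (3 * r) →
      ‖fderiv ℂ (φ ∘ H) (dpt τ y) dY‖ ≤ δ / (2 * K * τ))
    {ε z₀ : ℂ} (hε : ‖ε‖ = 1) (hz₀ : ‖z₀‖ = 2 * K * τ)
    (h0 : H (dpt τ (ε * (z₀ + τ))) ∈ φ.source)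
    (h1 : φ (H (dpt τ (ε * (z₀ + τ)))) ∈ closedBall q r) (z : ℂ) (hz : ‖z‖ = 2 * K * τ) :
    H (dpt τ (ε * (z + τ))) ∈ φ.source ∧
      ‖φ (H (dpt τ (ε * (z + τ)))) - φ (H (dpt τ (ε * (z₀ + τ))))‖ ≤ 7 * δ := by
  have : ProperSpace (A × B) := FiniteDimensional.proper ℂ (A × B)
  have hKτ : 0 < 2 * K * τ := by positivity
  have hp := Real.pi_lt_d2
  have hp0 := Real.pi_pos
  obtain ⟨t, ht, rfl⟩ := exists_angle (z := z) (z₀ := z₀)
    (by rw [← norm_pos_iff, hz₀]; exact hKτ) (hz.trans hz₀.symm)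
  set y : ℝ → ℂ := fun t => ε * (z₀ * Complex.exp (t * Complex.I) + τ) with hy
  have hn : ∀ t : ℝ, ‖z₀ * Complex.exp (t * Complex.I)‖ = 2 * K * τ := fun t => by
    rw [norm_mul, Complex.norm_exp_ofReal_mul_I, mul_one, hz₀]
  have hyd : ∀ t : ℝ, HasDerivAt y (ε * (z₀ * (Complex.exp (t * Complex.I) * Complex.I))) t := by
    intro t
    have h2 : HasDerivAt (fun w : ℂ => ε * (z₀ * Complex.exp (w * Complex.I) + τ))
        (ε * (z₀ * (Complex.exp (t * Complex.I) * Complex.I))) (t : ℂ) := by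
      have h3 := ((hasDerivAt_id (t : ℂ)).mul_const Complex.I).cexp
      rw [one_mul] at h3
      exact ((h3.const_mul z₀).add_const (τ : ℂ)).const_mul ε
    exact h2.comp_ofReal
  have hy0 : y 0 = ε * (z₀ + τ) := by simp [hy]
  have key := stay φ (q := q) (R := 3 * r) (L := δ) (T := 2 * Real.pi)
    (γ := fun t => H (dpt τ (y t))) hq hδ (by positivity)
    (fun t _ => ((hH _ (ring_bd hτ hε (hn t)).2).1.comp
      (f := fun t => dpt τ (y t))
      ((hasDerivAt_dpt τ (y t)).continuousAt.comp (hyd t).continuousAt)).continuousWithinAt)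
    (by simp only [hy0]; exact h0)
    (by
      simp only [hy0]
      rw [mem_closedBall, dist_eq_norm] at h1
      nlinarith)
    (fun t _ hs hb => by
      have hb2 := ring_bd hτ hε (hn t)
      have h2 := ((hH _ hb2.2).2 φ hφ hs).analyticAt.differentiableAt.hasFDerivAt
      have h3 := (h2.comp_hasDerivAt (y t) (hasDerivAt_dpt τ (y t))).scomp t (hyd t)
      refine ⟨_, h3, ?_⟩
      rw [norm_smul, norm_mul, hε, one_mul, ← mul_assoc, norm_mul, hn, Complex.norm_I, mul_one]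
      refine (mul_le_mul_of_nonneg_left (hgrad _ hb2.1 hb2.2 hs hb) hKτ.le).trans (le_of_eq ?_)
      field_simp)
    t ht
  simp only [hy0] at key
  refine ⟨key.1, key.2.trans ?_⟩
  have := ht.2
  nlinarith

/-- The first coordinate of the neck point. -/
noncomputable def sig (K τ : ℝ) : ℂ := -(τ : ℂ) + Complex.I * ((Real.sqrt (4 * K ^ 2 - 1) * τ : ℝ) : ℂ)

/-- The second coordinate of the neck point. -/
noncomputable def the (K τ : ℝ) : ℂ := -(τ : ℂ) - Complex.I * ((Real.sqrt (4 * K ^ 2 - 1) * τ : ℝ) : ℂ)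

theorem norm_sig {K τ : ℝ} (hK : 1 ≤ K) (hτ : 0 < τ) :
    ‖sig K τ‖ = 2 * K * τ ∧ ‖the K τ‖ = 2 * K * τ := by
  have h1 := Real.mul_self_sqrt (by nlinarith : 0 ≤ 4 * K ^ 2 - 1)
  constructor
  · refine (pow_left_inj₀ (norm_nonneg _) (by positivity) two_ne_zero).1 ?_
    rw [Complex.sq_norm, Complex.normSq_apply]
    simp only [sig, Complex.add_re, Complex.neg_re, Complex.ofReal_re, Complex.mul_re, Complex.I_re,
      Complex.I_im, Complex.ofReal_im, Complex.add_im, Complex.neg_im, Complex.mul_im]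
    linear_combination τ ^ 2 * h1
  · refine (pow_left_inj₀ (norm_nonneg _) (by positivity) two_ne_zero).1 ?_
    rw [Complex.sq_norm, Complex.normSq_apply]
    simp only [the, Complex.sub_re, Complex.neg_re, Complex.ofReal_re, Complex.mul_re, Complex.I_re,
      Complex.I_im, Complex.ofReal_im, Complex.sub_im, Complex.neg_im, Complex.mul_im]
    linear_combination τ ^ 2 * h1

theorem npt_eq₁ (K τ : ℝ) : dpt τ (1 * (sig K τ + τ)) = npt K τ := by
  unfold npt sig; congr 1; ring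

theorem npt_eq₂ (K τ : ℝ) : dpt τ (-1 * (the K τ + τ)) = npt K τ := by
  unfold npt the; congr 1; ring

theorem dpt₁ (τ : ℝ) (z : ℂ) : dpt τ (1 * (z + τ)) = (z, -z - 2 * τ) := by
  unfold dpt; congr 1 <;> ring

theorem dpt₂ (τ : ℝ) (z : ℂ) : dpt τ (-1 * (z + τ)) = (-z - 2 * τ, z) := by
  unfold dpt; congr 1 <;> ring

theorem continuous_npt (K : ℝ) : Continuous (npt K) := by
  unfold npt dpt; fun_prop

end Neck1Aux

open Neck1Aux in
/-- Proof idea. Write `npt K τ = (σ τ, θ τ)`; `‖σ τ‖ = ‖θ τ‖ = 2Kτ`, `θ = -σ - 2τ`, `σ = -θ - 2τ`;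
`(z, -z-2τ) = dpt τ (z+τ)`, `(-z-2τ, z) = dpt τ (-z-τ)`. (a) If `H (npt K τ)` is in the source with
`φ` value in `closedBall q r`, then `stay` (with `T = 2π`, `L = δ`, `R = 3r`) along
`t ↦ (σ e^{it}, -σ e^{it} - 2τ)` and `t ↦ (-θ e^{it} - 2τ, θ e^{it})` shows that both circles are
mapped into the source, within `2πδ` of `φ (H (npt K τ))`. (b) If (a) holds on `[τ, τ₁]`, then
`f₁ z = (φ (H (z, -z - ‖z‖/K))).1` is analytic at each point of the closed annulus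
`2Kτ ≤ ‖z‖ ≤ 2Kτ₁` (local product form), so its circle means agree
(`Complex.circleIntegral_sub_center_inv_smul_eq_of_differentiable_on_annulus_off_countable`),
hence `‖f₁ (σ τ) - f₁ (σ τ₁)‖ ≤ 4πδ < r`; the same for `f₂ z = (φ (H (-z - ‖z‖/K, z))).2`.
(c) real induction downwards in `τ` (closedness: `φ.symm '' closedBall q r` is compact). -/
theorem neck1 [T2Space Z] [FiniteDimensional ℂ A] [FiniteDimensional ℂ B]
    {φ : OpenPartialHomeomorph Z (A × B)} (hφ : φ ∈ 𝒜.charts) {H : ℂ × ℂ → Z}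
    {K τ₁ δ r : ℝ} (hK : 1 ≤ K) (hτ₁ : 0 < τ₁) (hδ : 0 ≤ δ) (hr : 0 < r) (hδr : 20 * δ ≤ r)
    (hH : ∀ τ ∈ Ioc 0 τ₁, ∀ y : ℂ, ‖y‖ ≤ (2 * K + 1) * τ → CompatAt 𝒜 H (dpt τ y))
    (h0 : H (npt K τ₁) ∈ φ.source)
    (hq : closedBall (φ (H (npt K τ₁))) (3 * r) ⊆ φ.target)
    (hgrad : ∀ τ ∈ Ioc 0 τ₁, ∀ y : ℂ, (2 * K - 1) * τ ≤ ‖y‖ → ‖y‖ ≤ (2 * K + 1) * τ →
      H (dpt τ y) ∈ φ.source → φ (H (dpt τ y)) ∈ closedBall (φ (H (npt K τ₁))) (3 * r) →
      ‖fderiv ℂ (φ ∘ H) (dpt τ y) dY‖ ≤ δ / (2 * K * τ)) :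
    ∀ τ ∈ Ioc 0 τ₁, ∀ z : ℂ, ‖z‖ = 2 * K * τ →
      (H (z, -z - 2 * τ) ∈ φ.source ∧
        φ (H (z, -z - 2 * τ)) ∈ closedBall (φ (H (npt K τ₁))) (2 * r)) ∧
      (H (-z - 2 * τ, z) ∈ φ.source ∧
        φ (H (-z - 2 * τ, z)) ∈ closedBall (φ (H (npt K τ₁))) (2 * r)) := by
  have : ProperSpace (A × B) := FiniteDimensional.proper ℂ (A × B)
  have : CompleteSpace A := FiniteDimensional.complete ℂ A
  have : CompleteSpace B := FiniteDimensional.complete ℂ B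
  set q := φ (H (npt K τ₁)) with hqdef
  have hK0 : 0 < K := by linarith
  have hone : ‖(1 : ℂ)‖ = 1 := norm_one
  have hneg : ‖(-1 : ℂ)‖ = 1 := by rw [norm_neg, norm_one]
  -- (a)
  have ha : ∀ τ ∈ Ioc 0 τ₁, H (npt K τ) ∈ φ.source → φ (H (npt K τ)) ∈ closedBall q r →
      ∀ z : ℂ, ‖z‖ = 2 * K * τ →
        (H (z, -z - 2 * τ) ∈ φ.source ∧ ‖φ (H (z, -z - 2 * τ)) - φ (H (npt K τ))‖ ≤ 7 * δ) ∧
        (H (-z - 2 * τ, z) ∈ φ.source ∧ ‖φ (H (-z - 2 * τ, z)) - φ (H (npt K τ))‖ ≤ 7 * δ) := by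
    intro τ hτ h1 h2 z hz
    have e1 := circ hφ hK hτ.1 hδ hr hδr (hH τ hτ) hq (hgrad τ hτ) hone (norm_sig hK hτ.1).1
      (by rw [npt_eq₁]; exact h1) (by rw [npt_eq₁]; exact h2) z hz
    have e2 := circ hφ hK hτ.1 hδ hr hδr (hH τ hτ) hq (hgrad τ hτ) hneg (norm_sig hK hτ.1).2
      (by rw [npt_eq₂]; exact h1) (by rw [npt_eq₂]; exact h2) z hz
    rw [npt_eq₁, dpt₁] at e1
    rw [npt_eq₂, dpt₂] at e2
    exact ⟨e1, e2⟩
  -- (b)
  have hb : ∀ τ ∈ Ioc 0 τ₁, (∀ σ ∈ Icc τ τ₁, H (npt K σ) ∈ φ.source ∧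
      φ (H (npt K σ)) ∈ closedBall q r) → ‖φ (H (npt K τ)) - q‖ ≤ 14 * δ := by
    intro τ hτ hall
    set w : ℂ → ℂ := fun z => -z - 2 * ((‖z‖ / (2 * K) : ℝ) : ℂ) with hw
    have hwc : Continuous w := by rw [hw]; fun_prop
    have hwe : ∀ (σ : ℝ) (z : ℂ), ‖z‖ = 2 * K * σ → w z = -z - 2 * σ := by
      intro σ z hz
      simp only [hw, hz]
      rw [mul_div_cancel_left₀ _ (by positivity)]
    have hloc : ∀ z : ℂ, 2 * K * τ ≤ ‖z‖ → ‖z‖ ≤ 2 * K * τ₁ →
        IsProdAt (φ ∘ H) (z, w z) ∧ IsProdAt (φ ∘ H) (w z, z) := by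
      intro z h1 h2
      have hz : ‖z‖ = 2 * K * (‖z‖ / (2 * K)) := by field_simp
      have hσ : ‖z‖ / (2 * K) ∈ Icc τ τ₁ :=
        ⟨by rw [le_div_iff₀ (by positivity)]; linarith,
          by rw [div_le_iff₀ (by positivity)]; linarith⟩
      have hσ' : ‖z‖ / (2 * K) ∈ Ioc 0 τ₁ := ⟨hτ.1.trans_le hσ.1, hσ.2⟩
      have h3 := ha _ hσ' (hall _ hσ).1 (hall _ hσ).2 z hz
      have h4 := hH _ hσ' _ (ring_bd hσ'.1 hone hz).2
      have h5 := hH _ hσ' _ (ring_bd hσ'.1 hneg hz).2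
      rw [dpt₁] at h4
      rw [dpt₂] at h5
      exact ⟨h4.2 φ hφ h3.1.1, h5.2 φ hφ h3.2.1⟩
    have hτm : τ ∈ Icc τ τ₁ := ⟨le_rfl, hτ.2⟩
    have hτ₁m : τ₁ ∈ Icc τ τ₁ := ⟨hτ.2, le_rfl⟩
    have hA := ha τ hτ (hall τ hτm).1 (hall τ hτm).2
    have hB := ha τ₁ ⟨hτ₁, le_rfl⟩ (hall τ₁ hτ₁m).1 (hall τ₁ hτ₁m).2
    have hρ : 0 < 2 * K * τ := by have := hτ.1; positivity
    have hle : 2 * K * τ ≤ 2 * K * τ₁ := mul_le_mul_of_nonneg_left hτ.2 (by positivity)
    have h1 : ‖(φ (H (npt K τ))).1 - q.1‖ ≤ 2 * (7 * δ) := by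
      refine annulus (f := fun z => (φ (H (z, w z))).1) hρ hle (fun z h1 h2 => ?_)
        (fun z hz => ?_) (fun z hz => ?_)
      · obtain ⟨f₁, f₂, hf₁, -, he⟩ := (hloc z h1 h2).1
        refine hf₁.differentiableAt.congr_of_eventuallyEq ?_
        have hc : Tendsto (fun z => (z, w z)) (𝓝 z) (𝓝 (z, w z)) :=
          (continuous_id.prodMk hwc).tendsto z
        filter_upwards [hc.eventually he] with u hu
        exact congrArg Prod.fst hu
      · simp only [hwe τ z hz]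
        exact (norm_fst_le (φ (H (z, -z - 2 * τ)) - φ (H (npt K τ)))).trans (hA z hz).1.2
      · simp only [hwe τ₁ z hz]
        exact (norm_fst_le (φ (H (z, -z - 2 * τ₁)) - q)).trans (hB z hz).1.2
    have h2 : ‖(φ (H (npt K τ))).2 - q.2‖ ≤ 2 * (7 * δ) := by
      refine annulus (f := fun z => (φ (H (w z, z))).2) hρ hle (fun z h1 h2 => ?_)
        (fun z hz => ?_) (fun z hz => ?_)
      · obtain ⟨f₁, f₂, -, hf₂, he⟩ := (hloc z h1 h2).2
        refine hf₂.differentiableAt.congr_of_eventuallyEq ?_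
        have hc : Tendsto (fun z => (w z, z)) (𝓝 z) (𝓝 (w z, z)) :=
          (hwc.prodMk continuous_id).tendsto z
        filter_upwards [hc.eventually he] with u hu
        exact congrArg Prod.snd hu
      · simp only [hwe τ z hz]
        exact (norm_snd_le (φ (H (-z - 2 * τ, z)) - φ (H (npt K τ)))).trans (hA z hz).2.2
      · simp only [hwe τ₁ z hz]
        exact (norm_snd_le (φ (H (-z - 2 * τ₁, z)) - q)).trans (hB z hz).2.2
    rw [Prod.norm_def]
    exact max_le (by simpa using h1.trans (by linarith)) (by simpa using h2.trans (by linarith))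
  -- (c)
  have hcont : ∀ τ ∈ Ioc 0 τ₁, ContinuousAt (fun σ => H (npt K σ)) τ := by
    intro τ hτ
    have h1 := (hH τ hτ _ (ring_bd hτ.1 hone (norm_sig hK hτ.1).1).2).1
    rw [npt_eq₁] at h1
    exact h1.comp (continuous_npt K).continuousAt
  have hrt : closedBall q r ⊆ φ.target := (closedBall_subset_closedBall (by linarith)).trans hq
  have hC : IsClosed (φ.symm '' closedBall q r) :=
    ((isCompact_closedBall q r).image_of_continuousOn (φ.continuousOn_symm.mono hrt)).isClosed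
  have hmem : ∀ x, x ∈ φ.symm '' closedBall q r ↔ x ∈ φ.source ∧ φ x ∈ closedBall q r := by
    intro x
    constructor
    · rintro ⟨v, hv, rfl⟩
      exact ⟨φ.map_target (hrt hv), by rw [φ.right_inv (hrt hv)]; exact hv⟩
    · exact fun h => ⟨φ x, h.2, φ.left_inv h.1⟩
  have hc : ∀ τ ∈ Ioc 0 τ₁, H (npt K τ) ∈ φ.source ∧ φ (H (npt K τ)) ∈ closedBall q r := by
    intro τ hτ
    have hin : ∀ u ∈ Icc 0 (τ₁ - τ), τ₁ - u ∈ Ioc 0 τ₁ := fun u hu =>
      ⟨by linarith [hu.2, hτ.1], by linarith [hu.1]⟩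
    have hcu : ∀ u ∈ Icc 0 (τ₁ - τ), ContinuousAt (fun u => H (npt K (τ₁ - u))) u := fun u hu =>
      (hcont _ (hin u hu)).comp (f := fun u => τ₁ - u) (by fun_prop)
    have key : Icc 0 (τ₁ - τ) ⊆ (fun u => H (npt K (τ₁ - u))) ⁻¹' (φ.symm '' closedBall q r) := by
      refine IsClosed.Icc_subset_of_forall_mem_nhdsGT_of_Icc_subset ?_ ?_ ?_
      · rw [inter_comm]
        exact ContinuousOn.preimage_isClosed_of_isClosed
          (fun u hu => (hcu u hu).continuousWithinAt) isClosed_Icc hC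
      · rw [mem_preimage, hmem, sub_zero]
        exact ⟨h0, mem_closedBall_self hr.le⟩
      · intro t ht hsub
        have ht' : t ∈ Icc 0 (τ₁ - τ) := Ico_subset_Icc_self ht
        have hall : ∀ σ ∈ Icc (τ₁ - t) τ₁, H (npt K σ) ∈ φ.source ∧
            φ (H (npt K σ)) ∈ closedBall q r := by
          intro σ hσ
          have := hsub (show τ₁ - σ ∈ Icc 0 t from ⟨by linarith [hσ.2], by linarith [hσ.1]⟩)
          rwa [mem_preimage, hmem, sub_sub_cancel] at this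
        have h1 := hb _ (hin t ht') hall
        have h2 := (hall _ ⟨le_rfl, by linarith [ht.1]⟩).1
        refine mem_nhdsWithin_of_mem_nhds ?_
        have h3 : ∀ᶠ u in 𝓝 t, H (npt K (τ₁ - u)) ∈ φ.source :=
          (hcu t ht').eventually (φ.open_source.mem_nhds h2)
        have h4 : ∀ᶠ u in 𝓝 t, φ (H (npt K (τ₁ - u))) ∈ closedBall q r := by
          have h5 : ContinuousAt (fun u => φ (H (npt K (τ₁ - u)))) t :=
            (φ.continuousAt h2).comp (f := fun u => H (npt K (τ₁ - u))) (hcu t ht')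
          refine h5.eventually (mem_of_superset (isOpen_ball.mem_nhds ?_) ball_subset_closedBall)
          rw [mem_ball, dist_eq_norm]
          linarith
        filter_upwards [h3, h4] with u hu hu'
        exact (hmem _).2 ⟨hu, hu'⟩
    have := key (show τ₁ - τ ∈ Icc 0 (τ₁ - τ) from ⟨by linarith [hτ.2], le_rfl⟩)
    rwa [mem_preimage, hmem, sub_sub_cancel] at this
  intro τ hτ z hz
  obtain ⟨h1, h2⟩ := hc τ hτ
  obtain ⟨h3, h4⟩ := ha τ hτ h1 h2 z hz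
  rw [mem_closedBall, dist_eq_norm] at h2
  refine ⟨⟨h3.1, ?_⟩, h4.1, ?_⟩
  · rw [mem_closedBall, dist_eq_norm]
    have := norm_sub_le_norm_sub_add_norm_sub (φ (H (z, -z - 2 * τ))) (φ (H (npt K τ))) q
    linarith [h3.2]
  · rw [mem_closedBall, dist_eq_norm]
    have := norm_sub_le_norm_sub_add_norm_sub (φ (H (-z - 2 * τ, z))) (φ (H (npt K τ))) q
    linarith [h4.2]

end Vale.Agent.P278
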