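import Vale.Agent.P278.Basic

/-! Removal of the singularity at the vertex of the cone. -/

open Set Filter Topology Metric
open scoped Manifold ContDiff

namespace Vale.Agent.P278

variable {A B A' B' D : Type*} [NormedAddCommGroup A] [NormedSpace ℂ A]
  [NormedAddCommGroup B] [NormedSpace ℂ B] [NormedAddCommGroup A'] [NormedSpace ℂ A']
  [NormedAddCommGroup B'] [NormedSpace ℂ B'] [NormedAddCommGroup D] [NormedSpace ℂ D]
  {Z : Type*} [TopologicalSpace Z] {𝒜 : ProdAtlas Z A B}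

namespace Neck2Aux

theorem remov [CompleteSpace A] {f : ℂ → A} {ρ R : ℝ} {c : A} (hρ : 0 < ρ)
    (hf : ∀ z : ℂ, z ≠ 0 → ‖z‖ < ρ → AnalyticAt ℂ f z ∧ f z ∈ closedBall c R) :
    ∃ g : ℂ → A, (∀ z : ℂ, ‖z‖ < ρ → AnalyticAt ℂ g z ∧ g z ∈ closedBall c R) ∧
      ∀ z : ℂ, z ≠ 0 → g z = f z := by
  have hm : ∀ z ∈ ball (0 : ℂ) ρ \ {0}, AnalyticAt ℂ f z ∧ f z ∈ closedBall c R :=
    fun z hz => hf z hz.2 (mem_ball_zero_iff.1 hz.1)
  have hd := Complex.differentiableOn_update_limUnder_of_bddAbove (ball_mem_nhds 0 hρ)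
    (fun z hz => (hm z hz).1.differentiableAt.differentiableWithinAt) ⟨‖c‖ + R, by
      rintro _ ⟨z, hz, rfl⟩
      exact norm_le_of_mem_closedBall (hm z hz).2⟩
  obtain ⟨g, hg⟩ : ∃ g, g = Function.update f 0 (limUnder (𝓝[≠] 0) f) := ⟨_, rfl⟩
  rw [← hg] at hd
  have he : ∀ z : ℂ, z ≠ 0 → g z = f z := fun z hz => by rw [hg, Function.update_of_ne hz]
  have ha : ∀ z : ℂ, ‖z‖ < ρ → AnalyticAt ℂ g z := fun z hz =>
    hd.analyticAt (isOpen_ball.mem_nhds (mem_ball_zero_iff.2 hz))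
  refine ⟨g, fun z hz => ⟨ha z hz, ?_⟩, he⟩
  by_cases h0 : z = 0
  · refine isClosed_closedBall.mem_of_tendsto
      ((ha z hz).continuousAt.tendsto.mono_left (nhdsWithin_le_nhds (s := {z}ᶜ))) ?_
    rw [h0]
    filter_upwards [self_mem_nhdsWithin, nhdsWithin_le_nhds (ball_mem_nhds 0 hρ)] with y h1 h2
    rw [he y h1]
    exact (hm y ⟨h2, h1⟩).2
  · rw [he z h0]
    exact (hf z h0 hz).2

theorem norm_npt {K τ : ℝ} (hK : 1 ≤ K) (hτ : 0 < τ) (ε : ℝ) (hε : ε ^ 2 = 1) :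
    ‖-(τ : ℂ) + ε * (Complex.I * ((Real.sqrt (4 * K ^ 2 - 1) * τ : ℝ) : ℂ))‖ = 2 * K * τ := by
  have h1 : Real.sqrt (4 * K ^ 2 - 1) ^ 2 = 4 * K ^ 2 - 1 := Real.sq_sqrt (by nlinarith)
  refine (sq_eq_sq₀ (norm_nonneg _) (by positivity)).1 ?_
  rw [Complex.sq_norm, Complex.normSq_apply]
  simp only [Complex.add_re, Complex.neg_re, Complex.ofReal_re, Complex.mul_re, Complex.I_re,
    Complex.ofReal_im, Complex.I_im, Complex.add_im, Complex.neg_im, Complex.mul_im]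
  linear_combination τ ^ 2 * ε ^ 2 * h1 + τ ^ 2 * (4 * K ^ 2 - 1) * hε

end Neck2Aux

/-- Proof idea. `f₁ z = (φ (H (z, -z - ‖z‖/K))).1` and `f₂ z = (φ (H (-z - ‖z‖/K, z))).2` are
analytic on the punctured disc of radius `2Kτ₁` (local product form of `φ ∘ H`) and bounded, so
they extend analytically over `0` (`Complex.differentiableOn_update_limUnder_of_bddAbove`) with
values in the closed balls of radius `R` about `q.1`, `q.2`. The map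
`G (σ,θ) = φ.symm (f₁ σ, f₂ θ)` is compatible on the bidisc (`compatAt_symm`) and agrees with `H`
near `npt K τ`, which lies on both circles (`CompatAt.local_form`). Apply `ident` on the convex set
`{dpt τ y | ‖y‖ ≤ (2K+1)τ}`, which lies in the bidisc when `τ < τ₁/2`. -/
theorem neck2 [T2Space Z] [FiniteDimensional ℂ A] [FiniteDimensional ℂ B]
    {φ : OpenPartialHomeomorph Z (A × B)} (hφ : φ ∈ 𝒜.charts) {H : ℂ × ℂ → Z}
    {K τ₁ R : ℝ} {q : A × B} (hK : 1 ≤ K) (hτ₁ : 0 < τ₁)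
    (hH : ∀ τ ∈ Ioc 0 τ₁, ∀ y : ℂ, ‖y‖ ≤ (2 * K + 1) * τ → CompatAt 𝒜 H (dpt τ y))
    (hq : closedBall q R ⊆ φ.target)
    (hc : ∀ τ ∈ Ioc 0 τ₁, ∀ z : ℂ, ‖z‖ = 2 * K * τ →
      (H (z, -z - 2 * τ) ∈ φ.source ∧ φ (H (z, -z - 2 * τ)) ∈ closedBall q R) ∧
      (H (-z - 2 * τ, z) ∈ φ.source ∧ φ (H (-z - 2 * τ, z)) ∈ closedBall q R)) :
    ∀ τ ∈ Ioo 0 (τ₁ / 2), ∀ y : ℂ, ‖y‖ ≤ (2 * K + 1) * τ →
      H (dpt τ y) ∈ φ.source ∧ φ (H (dpt τ y)) ∈ closedBall q R := by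
  have : CompleteSpace A := FiniteDimensional.complete ℂ A
  have : CompleteSpace B := FiniteDimensional.complete ℂ B
  have hK0 : 0 < K := by linarith
  obtain ⟨k, hk⟩ : ∃ k : ℂ → ℂ, k = fun z => -z - ((‖z‖ / K : ℝ) : ℂ) := ⟨_, rfl⟩
  have kc : Continuous k := by rw [hk]; fun_prop
  have ke : ∀ (τ : ℝ) (z : ℂ), ‖z‖ = 2 * K * τ → k z = -z - 2 * τ := fun τ z h => by
    have e : ‖z‖ / K = 2 * τ := by rw [h]; field_simp
    simp only [hk, e]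
    push_cast
    ring
  have c1 : ∀ z, Tendsto (fun y => (y, k y)) (𝓝 z) (𝓝 (z, k z)) := fun z =>
    (continuous_id.prodMk kc).tendsto z
  have c2 : ∀ z, Tendsto (fun y => (k y, y)) (𝓝 z) (𝓝 (k z, z)) := fun z =>
    (kc.prodMk continuous_id).tendsto z
  have key : ∀ z : ℂ, z ≠ 0 → ‖z‖ < 2 * K * τ₁ →
      (CompatAt 𝒜 H (z, k z) ∧ H (z, k z) ∈ φ.source ∧ φ (H (z, k z)) ∈ closedBall q R) ∧
      CompatAt 𝒜 H (k z, z) ∧ H (k z, z) ∈ φ.source ∧ φ (H (k z, z)) ∈ closedBall q R := by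
    intro z h0 h1
    obtain ⟨τ, hτ⟩ : ∃ τ, τ = ‖z‖ / (2 * K) := ⟨_, rfl⟩
    have e : ‖z‖ = 2 * K * τ := by rw [hτ]; field_simp
    have p0 : 0 < τ := by
      have := norm_pos_iff.2 h0
      rw [hτ]
      positivity
    have hm : τ ∈ Ioc 0 τ₁ := ⟨p0, by rw [hτ, div_le_iff₀ (by positivity)]; linarith⟩
    have hn : ‖z + τ‖ ≤ (2 * K + 1) * τ := by
      refine (norm_add_le _ _).trans (le_of_eq ?_)
      rw [e, Complex.norm_real, Real.norm_of_nonneg p0.le]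
      ring
    have a1 := hH τ hm (z + τ) hn
    have a2 := hH τ hm (-(z + τ)) (by rwa [norm_neg])
    have e1 : dpt τ (z + τ) = (z, -z - 2 * τ) := Prod.ext (by simp [dpt]) (by simp only [dpt]; ring)
    have e2 : dpt τ (-(z + τ)) = (-z - 2 * τ, z) :=
      Prod.ext (by simp only [dpt]; ring) (by simp [dpt])
    rw [e1] at a1
    rw [e2] at a2
    rw [ke τ z e]
    exact ⟨⟨a1, (hc τ hm z e).1⟩, a2, (hc τ hm z e).2⟩
  have hρ : 0 < 2 * K * τ₁ := by positivity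
  have hb : ∀ x : A × B, x ∈ closedBall q R ↔ x.1 ∈ closedBall q.1 R ∧ x.2 ∈ closedBall q.2 R :=
    fun x => by rw [← mem_prod, closedBall_prod_same]
  obtain ⟨F₁, hF₁, e₁⟩ := Neck2Aux.remov (f := fun z => (φ (H (z, k z))).1) (c := q.1) (R := R) hρ
    fun z h0 h1 => by
      obtain ⟨a1, a2, a3⟩ := (key z h0 h1).1
      obtain ⟨g₁, g₂, b1, -, b3⟩ := a1.2 φ hφ a2
      exact ⟨b1.congr (((c1 z).eventually b3).mono fun y hy => (congrArg Prod.fst hy).symm),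
        ((hb _).1 a3).1⟩
  obtain ⟨F₂, hF₂, e₂⟩ := Neck2Aux.remov (f := fun z => (φ (H (k z, z))).2) (c := q.2) (R := R) hρ
    fun z h0 h1 => by
      obtain ⟨a1, a2, a3⟩ := (key z h0 h1).2
      obtain ⟨g₁, g₂, -, b2, b3⟩ := a1.2 φ hφ a2
      exact ⟨b2.congr (((c2 z).eventually b3).mono fun y hy => (congrArg Prod.snd hy).symm),
        ((hb _).1 a3).2⟩
  intro τ hτ
  have hm : τ ∈ Ioc 0 τ₁ := ⟨hτ.1, by linarith [hτ.2]⟩
  have p0 := hτ.1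
  have hin : ∀ y : ℂ, ‖y‖ ≤ (2 * K + 1) * τ →
      ‖(dpt τ y).1‖ < 2 * K * τ₁ ∧ ‖(dpt τ y).2‖ < 2 * K * τ₁ := fun y hy => by
    have n0 : ‖-(τ : ℂ)‖ = τ := by rw [norm_neg, Complex.norm_real, Real.norm_of_nonneg p0.le]
    have n1 := norm_add_le (-(τ : ℂ)) y
    have n2 := norm_sub_le (-(τ : ℂ)) y
    have n3 : τ + (2 * K + 1) * τ < 2 * K * τ₁ := by nlinarith [hτ.2]
    exact ⟨by simp only [dpt]; linarith, by simp only [dpt]; linarith⟩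
  have hG : ∀ y : ℂ, ‖y‖ ≤ (2 * K + 1) * τ →
      (F₁ (dpt τ y).1, F₂ (dpt τ y).2) ∈ closedBall q R := fun y hy =>
    (hb _).2 ⟨(hF₁ _ (hin y hy).1).2, (hF₂ _ (hin y hy).2).2⟩
  obtain ⟨y₀, hy₀⟩ : ∃ y₀ : ℂ, y₀ = Complex.I * ((Real.sqrt (4 * K ^ 2 - 1) * τ : ℝ) : ℂ) :=
    ⟨_, rfl⟩
  obtain ⟨σ, hσ⟩ : ∃ σ : ℂ, σ = -(τ : ℂ) + y₀ := ⟨_, rfl⟩
  obtain ⟨θ, hθ⟩ : ∃ θ : ℂ, θ = -(τ : ℂ) - y₀ := ⟨_, rfl⟩
  have nσ : ‖σ‖ = 2 * K * τ := by
    rw [← Neck2Aux.norm_npt hK p0 1 (by norm_num), hσ, hy₀]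
    simp
  have nθ : ‖θ‖ = 2 * K * τ := by
    rw [← Neck2Aux.norm_npt hK p0 (-1) (by norm_num), hθ, hy₀]
    simp [sub_eq_add_neg]
  have hy1 : ‖y₀‖ ≤ (2 * K + 1) * τ := by
    have e : y₀ = σ + τ := by rw [hσ]; ring
    rw [e]
    refine (norm_add_le _ _).trans (le_of_eq ?_)
    rw [nσ, Complex.norm_real, Real.norm_of_nonneg p0.le]
    ring
  have ed : dpt τ y₀ = (σ, θ) := by rw [hσ, hθ]; rfl
  have kσ : k σ = θ := by rw [ke τ σ nσ, hσ, hθ]; ring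
  have kθ : k θ = σ := by rw [ke τ θ nθ, hσ, hθ]; ring
  have σ0 : σ ≠ 0 := norm_pos_iff.1 (by rw [nσ]; positivity)
  have θ0 : θ ≠ 0 := norm_pos_iff.1 (by rw [nθ]; positivity)
  have hev : H =ᶠ[𝓝 (dpt τ y₀)] fun p : ℂ × ℂ => φ.symm (F₁ p.1, F₂ p.2) := by
    obtain ⟨a1, a2, -⟩ := (key σ σ0 (by rw [nσ]; nlinarith [hτ.2])).1
    have d1 := c1 σ
    have d2 := c2 θ
    rw [kσ] at a1 a2 d1
    rw [kθ] at d2
    obtain ⟨g₁, g₂, -, -, b3⟩ := a1.2 φ hφ a2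
    have t1 : Tendsto (fun p : ℂ × ℂ => p.1) (𝓝 (σ, θ)) (𝓝 σ) := continuous_fst.tendsto _
    have t2 : Tendsto (fun p : ℂ × ℂ => p.2) (𝓝 (σ, θ)) (𝓝 θ) := continuous_snd.tendsto _
    rw [ed]
    filter_upwards [b3, t1.eventually (d1.eventually b3), t2.eventually (d2.eventually b3),
      t1.eventually (isOpen_ne.mem_nhds σ0), t2.eventually (isOpen_ne.mem_nhds θ0),
      a1.1.eventually (φ.open_source.mem_nhds a2)] with p u1 u2 u3 u4 u5 u6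
    simp only [Function.comp_apply] at u1 u2 u3
    rw [e₁ _ u4, e₂ _ u5, u2, u3, ← u1, φ.left_inv u6]
  have hS : IsPreconnected (dpt τ '' closedBall 0 ((2 * K + 1) * τ)) :=
    (convex_closedBall _ _).isPreconnected.image _ (by unfold dpt; fun_prop)
  have hid := ident (𝒜 := 𝒜) hS
    (by
      rintro _ ⟨y, hy, rfl⟩
      exact (hH τ hm y (mem_closedBall_zero_iff.1 hy)).holAt)
    (by
      rintro _ ⟨y, hy, rfl⟩
      have hy' := mem_closedBall_zero_iff.1 hy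
      exact (compatAt_symm hφ (hq (hG y hy')) (hF₁ _ (hin y hy').1).1
        (hF₂ _ (hin y hy').2).1).holAt)
    ⟨y₀, mem_closedBall_zero_iff.2 hy1, rfl⟩ hev
  intro y hy
  have e := (hid _ ⟨y, mem_closedBall_zero_iff.2 hy, rfl⟩).eq_of_nhds
  rw [e, φ.right_inv (hq (hG y hy))]
  exact ⟨φ.map_target (hq (hG y hy)), hG y hy⟩

end Vale.Agent.P278
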