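import Vale.Agent.P278.Abs

/-! The pullback of a closed two-form is closed. -/

open Set Filter Topology Metric
open scoped Manifold ContDiff

namespace Vale.Agent.P278

theorem PullGenAux.flip_smooth {X E F : Type*} [NormedAddCommGroup X] [NormedSpace ℝ X]
    [NormedAddCommGroup E] [NormedSpace ℝ E] [NormedAddCommGroup F] [NormedSpace ℝ F]
    {g : X → E →L[ℝ] F →L[ℝ] ℝ} {p : X} (hg : ContDiffAt ℝ 1 g p) :
    ContDiffAt ℝ 1 (fun q => (g q).flip) p := by
  have h : IsBoundedLinearMap ℝ (fun L : E →L[ℝ] F →L[ℝ] ℝ => L.flip) :=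
    { map_add := ContinuousLinearMap.flip_add
      map_smul := ContinuousLinearMap.flip_smul
      bound := ⟨1, one_pos, fun L => by rw [ContinuousLinearMap.opNorm_flip, one_mul]⟩ }
  have h2 : ContDiff ℝ 1 (fun L : E →L[ℝ] F →L[ℝ] ℝ => L.flip) :=
    IsBoundedLinearMap.contDiff (E := E →L[ℝ] F →L[ℝ] ℝ) (F := F →L[ℝ] E →L[ℝ] ℝ) h
  exact h2.contDiffAt.comp p hg

/-- Proof idea: differentiate `q ↦ w (f q) (f' q v) (f' q s)`; the terms with the second derivative
cancel in the cyclic sum by its symmetry (`ContDiffAt.isSymmSndFDerivAt`) and antisymmetry. -/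
theorem pullForm_closed {D₁ D₂ : Type*} [NormedAddCommGroup D₁] [NormedSpace ℝ D₁]
    [NormedAddCommGroup D₂] [NormedSpace ℝ D₂] {f : D₁ → D₂} {w : D₂ → D₂ →L[ℝ] D₂ →L[ℝ] ℝ}
    {p : D₁} (hf : ContDiffAt ℝ 2 f p) (hw : ContDiffAt ℝ 1 w (f p))
    (anti : ∀ u v, w (f p) u v = -w (f p) v u)
    (closed : ∀ u v s, fderiv ℝ w (f p) u v s + fderiv ℝ w (f p) v s u +
      fderiv ℝ w (f p) s u v = 0) :
    ContDiffAt ℝ 1 (pullForm f w) p ∧ ∀ u v s, fderiv ℝ (pullForm f w) p u v s +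
      fderiv ℝ (pullForm f w) p v s u + fderiv ℝ (pullForm f w) p s u v = 0 := by
  have hf1 : ContDiffAt ℝ 1 (fderiv ℝ f) p := hf.fderiv_right (m := 1) (by norm_num)
  have hw1 : ContDiffAt ℝ 1 (fun q => w (f q)) p := hw.comp p (hf.of_le (by norm_num))
  have h1 : ContDiffAt ℝ 1 (fun q => ((w (f q)).comp (fderiv ℝ f q)).flip) p :=
    PullGenAux.flip_smooth (hw1.clm_comp hf1)
  have h2 : ContDiffAt ℝ 1 (pullForm f w) p :=
    PullGenAux.flip_smooth (h1.clm_comp hf1)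
  refine ⟨h2, ?_⟩
  have d0 : HasFDerivAt f (fderiv ℝ f p) p := (hf.differentiableAt (by norm_num)).hasFDerivAt
  have d1 : HasFDerivAt (fderiv ℝ f) (fderiv ℝ (fderiv ℝ f) p) p :=
    (hf1.differentiableAt (by norm_num)).hasFDerivAt
  have d2 : HasFDerivAt (fun q => w (f q)) ((fderiv ℝ w (f p)).comp (fderiv ℝ f p)) p :=
    (hw.differentiableAt (by norm_num)).hasFDerivAt.comp p d0
  have d3 : HasFDerivAt (pullForm f w) (fderiv ℝ (pullForm f w) p) p :=
    (h2.differentiableAt (by norm_num)).hasFDerivAt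
  have key : ∀ u v s, fderiv ℝ (pullForm f w) p u v s =
      fderiv ℝ w (f p) (fderiv ℝ f p u) (fderiv ℝ f p v) (fderiv ℝ f p s) +
        w (f p) (fderiv ℝ (fderiv ℝ f) p u v) (fderiv ℝ f p s) +
        w (f p) (fderiv ℝ f p v) (fderiv ℝ (fderiv ℝ f) p u s) := by
    intro u v s
    have e1 := (d3.clm_apply (hasFDerivAt_const v p)).clm_apply (hasFDerivAt_const s p)
    have e2 := (d2.clm_apply (d1.clm_apply (hasFDerivAt_const v p))).clm_apply
      (d1.clm_apply (hasFDerivAt_const s p))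
    have e3 := congrArg (fun L : D₁ →L[ℝ] ℝ => L u) (e1.unique e2)
    simp only [add_apply, ContinuousLinearMap.comp_apply,
      ContinuousLinearMap.flip_apply, zero_apply, map_zero, zero_add] at e3
    rw [e3]; ring
  have sy := hf.isSymmSndFDerivAt (by simp)
  intro u v s
  rw [key u v s, key v s u, key s u v, sy.eq v u, sy.eq s u, sy.eq s v,
    anti (fderiv ℝ f p v) (fderiv ℝ (fderiv ℝ f) p u s),
    anti (fderiv ℝ f p s) (fderiv ℝ (fderiv ℝ f) p u v),
    anti (fderiv ℝ f p u) (fderiv ℝ (fderiv ℝ f) p v s)]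
  linarith [closed (fderiv ℝ f p u) (fderiv ℝ f p v) (fderiv ℝ f p s)]

end Vale.Agent.P278
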