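import Vale.Agent.P278.Basic
import Vale.Agent.P278.PullGen

/-! The pulled back form of a compatible map of two variables. -/

open Set Filter Topology Metric
open scoped Manifold ContDiff

namespace Vale.Agent.P278

variable {A B A' B' D : Type*} [NormedAddCommGroup A] [NormedSpace ℂ A]
  [NormedAddCommGroup B] [NormedSpace ℂ B] [NormedAddCommGroup A'] [NormedSpace ℂ A']
  [NormedAddCommGroup B'] [NormedSpace ℂ B'] [NormedAddCommGroup D] [NormedSpace ℂ D]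
  {Z : Type*} [TopologicalSpace Z] {𝒜 : ProdAtlas Z A B}

namespace PullAux

theorem pf_apply {f : ℂ × ℂ → A × B} {p : ℂ × ℂ} (hf : AnalyticAt ℂ f p)
    (w : A × B → (A × B) →L[ℝ] (A × B) →L[ℝ] ℝ) (u v : ℂ × ℂ) :
    pullForm f w p u v = w (f p) (fderiv ℂ f p u) (fderiv ℂ f p v) := by
  rw [pullForm, hf.differentiableAt.fderiv_restrictScalars ℝ]
  rfl

theorem indep {w : OpenPartialHomeomorph Z (A × B) → A × B → (A × B) →L[ℝ] (A × B) →L[ℝ] ℝ}
    (hw : TameForm 𝒜 w) {H : ℂ × ℂ → Z} {p : ℂ × ℂ} (hH : CompatAt 𝒜 H p)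
    {φ ψ : OpenPartialHomeomorph Z (A × B)} (hφ : φ ∈ 𝒜.charts) (hψ : ψ ∈ 𝒜.charts)
    (h₁ : H p ∈ φ.source) (h₂ : H p ∈ ψ.source) :
    pullForm (φ ∘ H) (w φ) p = pullForm (ψ ∘ H) (w ψ) p := by
  have a₁ := (hH.2 φ hφ h₁).analyticAt
  have a₂ := (hH.2 ψ hψ h₂).analyticAt
  have e : fderiv ℂ (ψ ∘ H) p =
      (fderiv ℂ (ψ ∘ φ.symm) (φ (H p))).comp (fderiv ℂ (φ ∘ H) p) := by
    rw [← (change_chart h₁ hH.1 ψ).fderiv_eq]
    exact fderiv_comp p (𝒜.compat φ hφ ψ hψ _ h₁ h₂).analyticAt.differentiableAt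
      a₁.differentiableAt
  refine ContinuousLinearMap.ext fun u => ContinuousLinearMap.ext fun v => ?_
  rw [pf_apply a₁, pf_apply a₂, e]
  exact hw.compat φ hφ ψ hψ _ h₁ h₂ _ _

theorem norm_diag {T : ℂ × ℂ → A × B} {p : ℂ × ℂ} (h : IsProdAt T p) :
    ‖fderiv ℂ T p (1, 1)‖ = ‖fderiv ℂ T p dY‖ := by
  obtain ⟨f₁, f₂, h₁, h₂, he⟩ := h
  have e : fderiv ℂ T p = (fderiv ℂ f₁ p.1).prodMap (fderiv ℂ f₂ p.2) :=
    he.fderiv_eq.trans (HasFDerivAt.prodMap p h₁.differentiableAt.hasFDerivAt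
      h₂.differentiableAt.hasFDerivAt).fderiv
  rw [e]
  change ‖(fderiv ℂ f₁ p.1 1, fderiv ℂ f₂ p.2 1)‖ = ‖(fderiv ℂ f₁ p.1 1, fderiv ℂ f₂ p.2 (-1))‖
  rw [Prod.norm_mk, Prod.norm_mk, map_neg, norm_neg]

end PullAux

open PullAux in
/-- Proof idea: choose for each `z` a chart `ch z` containing it and put
`Ω p = pullForm (ch (H p) ∘ H) (w (ch (H p))) p`. By `compat` and the chain rule,
`Ω p = pullForm (φ ∘ H) (w φ) p` for every chart `φ` containing `H p` (real and complex `fderiv`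
agree: `HasFDerivAt.restrictScalars`), so near each `p ∈ O` the form `Ω` is one pullback and
`pullForm_closed` applies. For the bound use the chart given by `Unif` at `H p`: there
`φ ∘ H = f₁ × f₂`, the derivative sends `(1,1)` to `(a,b)` and `dY` to `(a,-b)`, of equal norm. -/
theorem exists_diagForm [FiniteDimensional ℂ A] [FiniteDimensional ℂ B]
    {w : OpenPartialHomeomorph Z (A × B) → A × B → (A × B) →L[ℝ] (A × B) →L[ℝ] ℝ}
    (hw : TameForm 𝒜 w) {r c C : ℝ} (hr : 0 < r) (hc : 0 < c) (hC : 0 < C)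
    (hU : Unif 𝒜 w r c C) {O : Set (ℂ × ℂ)} (hO : IsOpen O) {H : ℂ × ℂ → Z}
    (hH : ∀ p ∈ O, CompatAt 𝒜 H p) :
    ∃ Ω, DiagForm O Ω (C / c) ∧ ∀ p ∈ O, ∀ φ ∈ 𝒜.charts, H p ∈ φ.source →
      Ω p dY (Complex.I • dY) =
        w φ (φ (H p)) (fderiv ℂ (φ ∘ H) p dY) (Complex.I • fderiv ℂ (φ ∘ H) p dY) := by
  have := FiniteDimensional.complete ℂ A
  have := FiniteDimensional.complete ℂ B
  choose ch h1 h2 h3 h4 using hU
  have loc : ∀ p ∈ O, (fun q => pullForm (ch (H q) ∘ H) (w (ch (H q))) q) =ᶠ[𝓝 p]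
      pullForm (ch (H p) ∘ H) (w (ch (H p))) := fun p hp => by
    filter_upwards [hO.mem_nhds hp,
      (hH p hp).1.preimage_mem_nhds ((ch (H p)).open_source.mem_nhds (h2 _))] with q hq hq'
    exact indep hw (hH q hq) (h1 _) (h1 _) (h2 _) hq'
  have an : ∀ p ∈ O, AnalyticAt ℂ (ch (H p) ∘ H) p := fun p hp =>
    ((hH p hp).2 _ (h1 _) (h2 _)).analyticAt
  have tg : ∀ z, ch z z ∈ (ch z).target := fun z => (ch z).map_source (h2 z)
  have cl := fun p (hp : p ∈ O) => pullForm_closed (f := ch (H p) ∘ H) (w := w (ch (H p)))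
    ((an p hp).contDiffAt.restrict_scalars ℝ)
    ((hw.smooth _ (h1 _)).contDiffAt ((ch (H p)).open_target.mem_nhds (tg _)))
    (hw.anti _ (h1 _) _ (tg _)) (hw.closed _ (h1 _) _ (tg _))
  have lo : ∀ p ∈ O, c * ‖fderiv ℂ (ch (H p) ∘ H) p dY‖ ^ 2 ≤
      pullForm (ch (H p) ∘ H) (w (ch (H p))) p dY (Complex.I • dY) := fun p hp => by
    rw [pf_apply (an p hp), map_smul]
    exact (h4 _ _ (mem_closedBall_self (by positivity))).1 _
  refine ⟨fun q => pullForm (ch (H q) ∘ H) (w (ch (H q))) q, ⟨hO, fun p hp => ?_,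
    fun p hp u v => ?_, fun p hp => ?_, fun p hp => le_trans (by positivity) (lo p hp),
    fun p hp l => ?_⟩, fun p hp φ hφ hz => ?_⟩
  · exact ((cl p hp).1.congr_of_eventuallyEq (loc p hp)).contDiffWithinAt
  · exact hw.anti _ (h1 _) _ (tg _) _ _
  · rw [(loc p hp).fderiv_eq]
    exact (cl p hp).2
  · have h5 := (h4 (H p) _ (mem_closedBall_self (by positivity))).2
      (fderiv ℂ (ch (H p) ∘ H) p (1, 1)) (l • fderiv ℂ (ch (H p) ∘ H) p dY)
    have h6 := mul_le_mul_of_nonneg_left (lo p hp) (by positivity : 0 ≤ C / c * ‖l‖)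
    rw [norm_diag ((hH p hp).2 _ (h1 _) (h2 _)), norm_smul] at h5
    refine le_trans ?_ h6
    change |pullForm (ch (H p) ∘ H) (w (ch (H p))) p (1, 1) (l • dY)| ≤ _
    rw [pf_apply (an p hp), map_smul]
    refine h5.trans (le_of_eq ?_)
    field_simp
  · change pullForm (ch (H p) ∘ H) (w (ch (H p))) p dY (Complex.I • dY) = _
    rw [indep hw (hH p hp) (h1 _) hφ (h2 _) hz, pf_apply ((hH p hp).2 _ hφ hz).analyticAt,
      map_smul]
    rfl

end Vale.Agent.P278
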