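import Vale.Agent.P278.Unif
import Vale.Agent.P278.Pull
import Vale.Agent.P278.Area
import Vale.Agent.P278.EpsReg
import Vale.Agent.P278.Neck1
import Vale.Agent.P278.Neck2

/-! The cone property. -/

open Set Filter Topology Metric
open scoped Manifold ContDiff

namespace Vale.Agent.P278

variable {A B A' B' D : Type*} [NormedAddCommGroup A] [NormedSpace ℂ A]
  [NormedAddCommGroup B] [NormedSpace ℂ B] [NormedAddCommGroup A'] [NormedSpace ℂ A']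
  [NormedAddCommGroup B'] [NormedSpace ℂ B'] [NormedAddCommGroup D] [NormedSpace ℂ D]
  {Z : Type*} [TopologicalSpace Z] {𝒜 : ProdAtlas Z A B}

theorem CoreAux.hasDerivAt_dpt (τ : ℝ) (y : ℂ) : HasDerivAt (dpt τ) dY y :=
  ((hasDerivAt_id y).const_add _).prodMk ((hasDerivAt_id y).const_sub _)

/-- Proof idea. Get `r c C` from `exists_unif`, `ε₀ C₀` from `epsReg` (with `D = A × B`), put
`C' = C / c`, `K = 4 C' + 1`, `Λ = 6 K + 2`, `δ = r / 20`, `ε = min ε₀ (c δ^2 / (4 C₀))`. Given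
`O H τ₀`, take `Ω` from `exists_diagForm` and `τ₁` from `area_small`. For
`(2K-1)τ ≤ ‖y‖ ≤ (2K+1)τ` apply `epsReg` to `u y' = H (dpt τ y')` on the disc of centre `y` and
radius `Kτ` (`deriv (φ ∘ u) y' = fderiv ℂ (φ ∘ H) (dpt τ y') dY`); this gives
`e ≤ C₀ ε / (Kτ)^2`, hence the gradient bound of `neck1` for the chart given by `Unif` at
`H (npt K τ₁)`. Conclude with `neck1`, `neck2`, `R = 3r`, `τ₂ = τ₁ / 2`. -/
theorem coneProp [T2Space Z] [CompactSpace Z] [FiniteDimensional ℂ A] [FiniteDimensional ℂ B]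
    {w : OpenPartialHomeomorph Z (A × B) → A × B → (A × B) →L[ℝ] (A × B) →L[ℝ] ℝ}
    (hw : TameForm 𝒜 w) : ConeProp 𝒜 := by
  obtain ⟨r, hr, c, hc, C, hC, hU⟩ := exists_unif hw
  obtain ⟨ε₀, hε₀, C₀, hC₀, hE⟩ := epsReg (X := Z) (D := A × B) hr hc hC
  have hC' : 0 < C / c := div_pos hC hc
  obtain ⟨K, hK⟩ : ∃ K, K = 4 * (C / c) + 1 := ⟨_, rfl⟩
  have hK1 : 1 ≤ K := by linarith
  refine ⟨6 * K + 2, by linarith, fun O H τ₀ hO hτ₀ hH hin => ?_⟩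
  obtain ⟨Ω, hΩ, eΩ⟩ := exists_diagForm hw hr hc hC hU hO hH
  obtain ⟨ε, hε, e1, e2⟩ : ∃ ε > 0, ε ≤ ε₀ ∧ ε ≤ c * (r / 20) ^ 2 / (4 * C₀) :=
    ⟨min _ _, lt_min hε₀ (by positivity), min_le_left _ _, min_le_right _ _⟩
  obtain ⟨τ₁, hτ₁, hA⟩ := area_small hΩ hC' (by linarith) hτ₀ hin hε
  have h1 : ∀ τ ∈ Ioc 0 τ₁, ∀ y : ℂ, ‖y‖ ≤ (3 * K + 1) * τ → dpt τ y ∈ O := fun τ hτ y hy =>
    hin τ ⟨hτ.1, hτ.2.trans hτ₁.2⟩ y (hy.trans (by nlinarith [hτ.1]))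
  have h2 : ∀ τ ∈ Ioc 0 τ₁, ∀ y : ℂ, ‖y‖ ≤ (2 * K + 1) * τ → CompatAt 𝒜 H (dpt τ y) :=
    fun τ hτ y hy => hH _ (h1 τ hτ y (hy.trans (by nlinarith [hτ.1])))
  have hd : ∀ τ : ℝ, AnalyticOnNhd ℂ (dpt τ) univ := fun τ y _ =>
    (analyticAt_const.add analyticAt_id).prod (analyticAt_const.sub analyticAt_id)
  have h3 : ∀ τ ∈ Ioc 0 τ₁, ∀ y : ℂ, (2 * K - 1) * τ ≤ ‖y‖ → ‖y‖ ≤ (2 * K + 1) * τ →
      Ω (dpt τ y) dY (Complex.I • dY) ≤ C₀ * ε / (K * τ) ^ 2 := by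
    intro τ hτ y hy hy'
    have a1 : ∀ y' ∈ closedBall y (K * τ), 4 * (C / c) * τ ≤ ‖y'‖ ∧ ‖y'‖ ≤ (3 * K + 1) * τ :=
      fun y' h => by
        have a2 := abs_le.1 ((abs_norm_sub_norm_le y' y).trans (mem_closedBall_iff_norm.1 h))
        constructor <;> nlinarith [a2.1, a2.2]
    have a2 : ∀ y' ∈ closedBall y (K * τ), dpt τ y' ∈ O := fun y' h => h1 τ hτ y' (a1 y' h).2
    have a3 : ContinuousOn (dpt τ) (closedBall y (K * τ)) := (hd τ).continuousOn.mono (subset_univ _)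
    refine hE (H ∘ dpt τ) (fun y' => Ω (dpt τ y') dY (Complex.I • dY)) y (K * τ) ε
      (by nlinarith [hτ.1]) hε.le e1
      (ContinuousOn.comp (fun p hp => (hH p hp).1.continuousWithinAt) a3 a2)
      (((hΩ.smooth.continuousOn.comp a3 a2).clm_apply continuousOn_const).clm_apply
        continuousOn_const) (fun y' h => hΩ.nonneg _ (a2 y' h)) (fun y' _ => ?_)
      (hA τ hτ y _ fun y' h => ⟨(a1 y' h).1, (a1 y' h).2.trans_eq (by ring)⟩)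
    obtain ⟨φ, hφ, b1, b2, b3⟩ := hU (H (dpt τ y'))
    refine ⟨φ, b1, b2, fun z hz b4 => ?_⟩
    have b5 := (hH _ (a2 z hz)).holAt.2 φ hφ b4
    refine ⟨b5.comp (hd τ z trivial), fun b6 => ?_⟩
    have b7 : deriv (φ ∘ H ∘ dpt τ) z = fderiv ℂ (φ ∘ H) (dpt τ z) dY :=
      (b5.differentiableAt.hasFDerivAt.comp_hasDerivAt z (CoreAux.hasDerivAt_dpt τ z)).deriv
    simp only [b7, eΩ _ (a2 z hz) φ hφ b4]
    refine ⟨(b3 _ b6).1 _, (le_abs_self _).trans (((b3 _ b6).2 _ _).trans_eq ?_)⟩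
    rw [norm_smul, Complex.norm_I, one_mul, sq, mul_assoc]
  obtain ⟨φ, hφ, b1, b2, b3⟩ := hU (H (npt K τ₁))
  have h4 := neck1 hφ hK1 hτ₁.1 (δ := r / 20) (by positivity) hr (by linarith) h2 b1 b2
    fun τ hτ y hy hy' b4 b5 => by
      have a1 := ((b3 _ b5).1 _).trans ((eΩ _ (h1 τ hτ y (hy'.trans (by nlinarith [hτ.1]))) φ hφ
        b4).symm.trans_le (h3 τ hτ y hy hy'))
      have a2 : 0 < K * τ := by nlinarith [hτ.1]
      refine (sq_le_sq₀ (norm_nonneg _) (by rw [mul_assoc]; positivity)).1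
        (le_of_mul_le_mul_left (a1.trans ?_) hc)
      calc C₀ * ε / (K * τ) ^ 2 ≤ C₀ * (c * (r / 20) ^ 2 / (4 * C₀)) / (K * τ) ^ 2 := by gcongr
        _ = _ := by
          have := hτ.1.ne'
          field_simp
          ring
  have h5 := neck2 hφ hK1 hτ₁.1 h2 ((closedBall_subset_closedBall (by linarith)).trans b2) h4
  refine ⟨φ, hφ, _, 3 * r, τ₁ / 2, ball_subset_closedBall.trans b2, half_pos hτ₁.1,
    fun τ hτ y hy => (h5 τ hτ y (hy.trans (by nlinarith [hτ.1]))).imp_right fun h =>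
      closedBall_subset_ball (by linarith) h⟩

end Vale.Agent.P278
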