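import Vale.Agent.P278.Frob3

/-! First integrals for one involutive distribution in a vector space. -/

open Set Filter Topology Metric
open scoped Manifold ContDiff

namespace Vale.Agent.P278

variable {E : Type*} [NormedAddCommGroup E] [NormedSpace ℂ E] [FiniteDimensional ℂ E]
  {ι : Type} [Fintype ι] [DecidableEq ι] {A : ι → Type*} [∀ i, NormedAddCommGroup (A i)]
  [∀ i, NormedSpace ℂ (A i)] [∀ i, FiniteDimensional ℂ (A i)]


namespace FrobE1Aux

theorem an_comp {D F₁ F₂ F₃ : Type*} [NormedAddCommGroup D] [NormedSpace ℂ D]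
    [NormedAddCommGroup F₁] [NormedSpace ℂ F₁] [NormedAddCommGroup F₂] [NormedSpace ℂ F₂]
    [NormedAddCommGroup F₃] [NormedSpace ℂ F₃] {g : D → F₂ →L[ℂ] F₃} {f : D → F₁ →L[ℂ] F₂}
    {p : D} (hg : AnalyticAt ℂ g p) (hf : AnalyticAt ℂ f p) :
    AnalyticAt ℂ (fun q => (g q).comp (f q)) p :=
  AnalyticAt.comp (g := fun x : (F₂ →L[ℂ] F₃) × (F₁ →L[ℂ] F₂) => x.1.comp x.2)
    (f := fun q => (g q, f q))
    ((ContinuousLinearMap.compL ℂ F₁ F₂ F₃).analyticAt_bilinear _) (hg.prod hf)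

/-- The statement in a product space where the frame is the identity at the base point. -/
theorem aux {B C : Type*} [NormedAddCommGroup B] [NormedSpace ℂ B] [FiniteDimensional ℂ B]
    [NormedAddCommGroup C] [NormedSpace ℂ C] [FiniteDimensional ℂ C] {O : Set (B × C)}
    (hO : IsOpen O) {p₀ : B × C} (hp₀ : p₀ ∈ O) {M : B × C → (B × C) →L[ℂ] (B × C)}
    (hM : AnalyticOnNhd ℂ M O) (hM0 : ∀ q, M p₀ q = q)
    (hinv : ∀ O' ⊆ O, IsOpen O' → ∀ ξ η : B × C → B × C, AnalyticOnNhd ℂ ξ O' →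
      AnalyticOnNhd ℂ η O' → (∀ z ∈ O', ∃ b, ξ z = M z (b, 0)) →
      (∀ z ∈ O', ∃ b, η z = M z (b, 0)) →
      ∀ z ∈ O', ∃ b, VectorField.lieBracket ℂ ξ η z = M z (b, 0)) :
    ∃ ψ : B × C → C, AnalyticAt ℂ ψ p₀ ∧ (∀ᶠ p in 𝓝 p₀, ∀ b, fderiv ℂ ψ p (M p (b, 0)) = 0) ∧
      ∀ x, fderiv ℂ ψ p₀ (0, x) = x := by
  have i1 : CompleteSpace B := FiniteDimensional.complete ℂ B
  set N : B × C → B →L[ℂ] B := fun p =>
    (ContinuousLinearMap.fst ℂ B C).comp ((M p).comp (ContinuousLinearMap.inl ℂ B C)) with hN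
  have hNa : AnalyticOnNhd ℂ N O := fun p hp =>
    an_comp analyticAt_const (an_comp (hM p hp) analyticAt_const)
  have hN0 : N p₀ = 1 := by
    ext b
    simp [hN, hM0]
  set U : Set (B × C) := O ∩ N ⁻¹' {x | IsUnit x} with hU
  have hUo : IsOpen U := hNa.continuousOn.isOpen_inter_preimage hO Units.isOpen
  have hU0 : p₀ ∈ U := ⟨hp₀, by simp [hN0]⟩
  set Γ : B × C → B →L[ℂ] C := fun p =>
    (ContinuousLinearMap.snd ℂ B C).comp (((M p).comp (ContinuousLinearMap.inl ℂ B C)).comp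
      (Ring.inverse (N p))) with hΓ
  have hΓa : AnalyticOnNhd ℂ Γ U := by
    intro p hp
    refine an_comp analyticAt_const (an_comp (an_comp (hM p hp.1) analyticAt_const) ?_)
    obtain ⟨u, hu⟩ := hp.2
    exact AnalyticAt.comp (g := Ring.inverse) (f := N) (hu ▸ analyticAt_inverse u) (hNa p hp.1)
  have k1 : ∀ p ∈ U, ∀ u, (u, Γ p u) = M p (Ring.inverse (N p) u, 0) := by
    intro p hp u
    refine Prod.ext ?_ rfl
    have := congrArg (fun L : B →L[ℂ] B => L u) (Ring.mul_inverse_cancel (N p) hp.2)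
    exact this.symm
  have k2 : ∀ p ∈ U, ∀ b, M p (b, 0) = (N p b, Γ p (N p b)) := by
    intro p hp b
    rw [k1 p hp]
    have := congrArg (fun L : B →L[ℂ] B => L b) (Ring.inverse_mul_cancel (N p) hp.2)
    have e : Ring.inverse (N p) (N p b) = b := this
    rw [e]
  have k3 : ∀ u, AnalyticOnNhd ℂ (fun p => (u, Γ p u)) U := fun u p hp =>
    analyticAt_const.prod (((ContinuousLinearMap.apply ℂ C u).analyticAt _).comp (hΓa p hp))
  have k4 : ∀ p ∈ U, ∀ u w, fderiv ℂ (fun p => (u, Γ p u)) p w = (0, fderiv ℂ Γ p w u) := by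
    intro p hp u w
    have h1 := (hΓa p hp).differentiableAt.hasFDerivAt
    have h2 := (hasFDerivAt_const u p).prodMk
      ((ContinuousLinearMap.apply ℂ C u).hasFDerivAt.comp p h1)
    have h3 : HasFDerivAt (fun p => (u, Γ p u)) _ p := h2
    rw [h3.fderiv]
    rfl
  obtain ⟨ψ, h1, h2, h3⟩ := frob_integral hUo hU0 hΓa (by
    intro p hp u v
    obtain ⟨b, hb⟩ := hinv U inter_subset_left hUo _ _ (k3 u) (k3 v)
      (fun z hz => ⟨_, k1 z hz u⟩) (fun z hz => ⟨_, k1 z hz v⟩) p hp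
    rw [VectorField.lieBracket, k4 p hp, k4 p hp, k2 p hp, Prod.mk_sub_mk, sub_zero,
      Prod.mk.injEq] at hb
    obtain ⟨e1, e2⟩ := hb
    rwa [← e1, map_zero, sub_eq_zero] at e2)
  refine ⟨ψ, h1, ?_, h3⟩
  filter_upwards [h2, hUo.mem_nhds hU0] with p hp hpU b
  rw [k2 p hpU]
  exact hp _

end FrobE1Aux

/-- Proof idea: let `B = ∀ j : {j // j ≠ i}, A j` and `J : E ≃L B × A i` be `(T z₀)⁻¹` followed by
the splitting of the coordinates. `M z = J ∘ T z ∘ split⁻¹` is the identity at `z₀`; near `z₀` the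
block `N z = fst ∘ M z ∘ inl` is invertible and `Γ (J z) = snd ∘ M z ∘ inl ∘ (N z)⁻¹` is analytic
(`analyticAt_inverse`, or `contDiffAt_map_inverse`); `J` carries `{T z c | c i = 0}` to the graph of
`Γ`. Apply the hypothesis to the fields `z ↦ J.symm (u, Γ (J z) u)`: their bracket has first
component `0`, so it vanishes, which is the integrability condition. Then `frob_integral`. -/
theorem frob_one {O : Set E} (hO : IsOpen O) {z₀ : E} (hz₀ : z₀ ∈ O)
    {T : E → (∀ i, A i) →L[ℂ] E} (hT : AnalyticOnNhd ℂ T O)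
    (hb : ∀ z ∈ O, Function.Bijective (T z)) (i : ι)
    (hinv : ∀ O' ⊆ O, IsOpen O' → ∀ ξ η : E → E, AnalyticOnNhd ℂ ξ O' → AnalyticOnNhd ℂ η O' →
      (∀ z ∈ O', ∃ c, c i = 0 ∧ ξ z = T z c) → (∀ z ∈ O', ∃ c, c i = 0 ∧ η z = T z c) →
      ∀ z ∈ O', ∃ c, c i = 0 ∧ VectorField.lieBracket ℂ ξ η z = T z c) :
    ∃ ψ : E → A i, AnalyticAt ℂ ψ z₀ ∧
      (∀ᶠ z in 𝓝 z₀, ∀ c, c i = 0 → fderiv ℂ ψ z (T z c) = 0) ∧
      ∀ a, fderiv ℂ ψ z₀ (T z₀ (Pi.single i a)) = a := by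
  let S₀ : (∀ j, A j) ≃ₗ[ℂ] (∀ j : {j // j ≠ i}, A j) × A i :=
    { (Equiv.piSplitAt i A).trans (Equiv.prodComm _ _) with
      map_add' := fun _ _ => rfl
      map_smul' := fun _ _ => rfl }
  let S : (∀ j, A j) ≃L[ℂ] (∀ j : {j // j ≠ i}, A j) × A i := S₀.toContinuousLinearEquiv
  have hS : ∀ c, (S c).2 = c i := fun c => rfl
  have hS1 : ∀ c (j : {j // j ≠ i}), (S c).1 j = c j := fun c j => rfl
  let L : (∀ j, A j) ≃L[ℂ] E :=
    (LinearEquiv.ofBijective (T z₀ : (∀ j, A j) →ₗ[ℂ] E) (hb z₀ hz₀)).toContinuousLinearEquiv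
  have hL : ∀ c, L c = T z₀ c := fun c => rfl
  let J : E ≃L[ℂ] (∀ j : {j // j ≠ i}, A j) × A i := L.symm.trans S
  have hJ : ∀ v, J v = S (L.symm v) := fun v => rfl
  let M : (∀ j : {j // j ≠ i}, A j) × A i →
      ((∀ j : {j // j ≠ i}, A j) × A i) →L[ℂ] ((∀ j : {j // j ≠ i}, A j) × A i) := fun p =>
    (J : E →L[ℂ] _).comp ((T (J.symm p)).comp (S.symm : _ →L[ℂ] ∀ j, A j))
  have hM : ∀ p q, M p q = J (T (J.symm p) (S.symm q)) := fun p q => rfl
  have hbr : ∀ (η : (∀ j : {j // j ≠ i}, A j) × A i → (∀ j : {j // j ≠ i}, A j) × A i) z w,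
      fderiv ℂ (fun z => J.symm (η (J z))) z w = J.symm (fderiv ℂ η (J z) (J w)) := by
    intro η z w
    have e1 := J.symm.comp_fderiv (f := η ∘ J) (x := z)
    rw [J.comp_right_fderiv] at e1
    exact congrArg (fun K : E →L[ℂ] E => K w) e1
  have hz : ∀ b, S.symm (b, 0) i = 0 := fun b => by
    rw [← hS (S.symm (b, 0)), S.apply_symm_apply]
  obtain ⟨ψ, h1, h2, h3⟩ := FrobE1Aux.aux (O := J.symm ⁻¹' O) (M := M) (p₀ := J z₀)
    (hO.preimage J.symm.continuous) (by simpa using hz₀)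
    (fun p hp => FrobE1Aux.an_comp analyticAt_const (FrobE1Aux.an_comp
      (AnalyticAt.comp (g := T) (f := J.symm) (hT _ hp) (J.symm.analyticAt p)) analyticAt_const))
    (fun q => by rw [hM, J.symm_apply_apply, ← hL, hJ, L.symm_apply_apply, S.apply_symm_apply])
    (by
      intro O' hO' hO'o ξ η hξ hη h1 h2 p hp
      have key : ∀ ξ : (∀ j : {j // j ≠ i}, A j) × A i → (∀ j : {j // j ≠ i}, A j) × A i,
          (∀ z ∈ O', ∃ b, ξ z = M z (b, 0)) →
          ∀ z ∈ J ⁻¹' O', ∃ c, c i = 0 ∧ J.symm (ξ (J z)) = T z c := by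
        intro ξ hξ z hz'
        obtain ⟨b, hb'⟩ := hξ _ hz'
        exact ⟨S.symm (b, 0), hz b, by rw [hb', hM, J.symm_apply_apply, J.symm_apply_apply]⟩
      have an : ∀ ξ : (∀ j : {j // j ≠ i}, A j) × A i → (∀ j : {j // j ≠ i}, A j) × A i,
          AnalyticOnNhd ℂ ξ O' → AnalyticOnNhd ℂ (fun z => J.symm (ξ (J z))) (J ⁻¹' O') :=
        fun ξ hξ z hz' => (J.symm.analyticAt _).comp
          (AnalyticAt.comp (g := ξ) (f := J) (hξ _ hz') (J.analyticAt z))
      obtain ⟨c, hc, he⟩ := hinv (J ⁻¹' O') (fun z hz' => by simpa using hO' hz')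
        (hO'o.preimage J.continuous) _ _ (an ξ hξ) (an η hη) (key ξ h1) (key η h2) (J.symm p)
        (by simpa using hp)
      refine ⟨(S c).1, ?_⟩
      have e : ((S c).1, (0 : A i)) = S c := Prod.ext rfl (by rw [hS, hc])
      rw [e, hM, S.symm_apply_apply, ← he, VectorField.lieBracket, VectorField.lieBracket, hbr,
        hbr]
      simp)
  refine ⟨ψ ∘ J, AnalyticAt.comp (g := ψ) (f := J) h1 (J.analyticAt z₀), ?_, fun a => ?_⟩
  · filter_upwards [J.continuous.continuousAt.eventually h2] with z hz' c hc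
    have e : ((S c).1, (0 : A i)) = S c := Prod.ext rfl (by rw [hS, hc])
    have := hz' (S c).1
    rw [e, hM, S.symm_apply_apply, J.symm_apply_apply] at this
    rw [J.comp_right_fderiv]
    exact this
  · rw [J.comp_right_fderiv]
    have e : J (T z₀ (Pi.single i a)) = (0, a) := by
      rw [← hL, hJ, L.symm_apply_apply]
      refine Prod.ext (funext fun j => ?_) (by rw [hS]; simp)
      rw [hS1]
      simp [j.2]
    change fderiv ℂ ψ (J z₀) (J (T z₀ (Pi.single i a))) = a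
    rw [e, h3]

end Vale.Agent.P278
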