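import Vale.Agent.P278.Abs

/-! Simultaneous straightening from the first integrals. -/

open Set Filter Topology Metric
open scoped Manifold ContDiff

namespace Vale.Agent.P278

variable {E : Type*} [NormedAddCommGroup E] [NormedSpace ℂ E] [FiniteDimensional ℂ E]
  {ι : Type} [Fintype ι] [DecidableEq ι] {A : ι → Type*} [∀ i, NormedAddCommGroup (A i)]
  [∀ i, NormedSpace ℂ (A i)] [∀ i, FiniteDimensional ℂ (A i)]


/-- Proof idea: `Ψ z i = ψ i z` has `fderiv Ψ z₀ ∘ T z₀ = id`, so it is a local analytic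
isomorphism; restrict it to an open neighbourhood in `O` where all `ψ i` are analytic, the
vanishing holds, the inverse is analytic and `fderiv Ψ z` is invertible. There
`fderiv Ψ z (T z c) j` only depends on `c j`, through an injective map. -/
theorem frob_multi {O : Set E} (hO : IsOpen O) {z₀ : E} (hz₀ : z₀ ∈ O)
    {T : E → (∀ i, A i) →L[ℂ] E} (hb : ∀ z ∈ O, Function.Bijective (T z))
    {ψ : ∀ i, E → A i} (hψ : ∀ i, AnalyticAt ℂ (ψ i) z₀)
    (h₁ : ∀ i, ∀ᶠ z in 𝓝 z₀, ∀ c, c i = 0 → fderiv ℂ (ψ i) z (T z c) = 0)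
    (h₂ : ∀ i a, fderiv ℂ (ψ i) z₀ (T z₀ (Pi.single i a)) = a) :
    ∃ Ψ : OpenPartialHomeomorph E (∀ i, A i), z₀ ∈ Ψ.source ∧ Ψ.source ⊆ O ∧
      AnalyticOnNhd ℂ Ψ Ψ.source ∧ AnalyticOnNhd ℂ Ψ.symm Ψ.target ∧
      ∀ z ∈ Ψ.source, ∀ i c, (∀ j, j ≠ i → fderiv ℂ Ψ z (T z c) j = 0) ↔ ∀ j, j ≠ i → c j = 0 := by
  have i1 : CompleteSpace E := FiniteDimensional.complete ℂ E
  have i2 : ∀ i, CompleteSpace (A i) := fun i => FiniteDimensional.complete ℂ (A i)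
  set Ψ₀ : E → ∀ i, A i := fun z i => ψ i z with hΨ₀
  have hΨa : AnalyticAt ℂ Ψ₀ z₀ := analyticAt_pi_iff.2 hψ
  have hd : ∀ z, (∀ i, AnalyticAt ℂ (ψ i) z) → ∀ v j, fderiv ℂ Ψ₀ z v j = fderiv ℂ (ψ j) z v := by
    intro z hz v j
    rw [hΨ₀, fderiv_pi fun i => (hz i).differentiableAt]
    rfl
  have hsplit : ∀ z, (∀ i c, c i = 0 → fderiv ℂ (ψ i) z (T z c) = 0) → ∀ j c,
      fderiv ℂ (ψ j) z (T z c) = fderiv ℂ (ψ j) z (T z (Pi.single j (c j))) := by
    intro z hz j c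
    have := hz j (c - Pi.single j (c j)) (by simp)
    rwa [map_sub, map_sub, sub_eq_zero] at this
  let L : (∀ i, A i) ≃L[ℂ] E :=
    (LinearEquiv.ofBijective (T z₀ : (∀ i, A i) →ₗ[ℂ] E) (hb z₀ hz₀)).toContinuousLinearEquiv
  have hL : ∀ c, L c = T z₀ c := fun c => rfl
  have hfd : fderiv ℂ Ψ₀ z₀ = (L.symm : E →L[ℂ] ∀ i, A i) := by
    ext v j
    obtain ⟨c, rfl⟩ := L.surjective v
    rw [hd z₀ hψ, hL, hsplit z₀ (fun i => (h₁ i).self_of_nhds), h₂, ← hL]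
    simp
  have hs : HasStrictFDerivAt Ψ₀ (L.symm : E →L[ℂ] ∀ i, A i) z₀ := by
    have := hΨa.hasStrictFDerivAt
    rwa [hfd] at this
  set Θ := hs.toOpenPartialHomeomorph Ψ₀ with hΘ
  have hΘa : z₀ ∈ Θ.source := hs.mem_toOpenPartialHomeomorph_source
  have hΘf : (Θ : E → ∀ i, A i) = Ψ₀ := rfl
  have hinv : AnalyticAt ℂ Θ.symm (Ψ₀ z₀) := Θ.analyticAt_symm' hΘa (i := L.symm) hΨa hfd
  have hev : ∀ᶠ z in 𝓝 z₀, z ∈ O ∧ (∀ i, AnalyticAt ℂ (ψ i) z) ∧ AnalyticAt ℂ Θ.symm (Ψ₀ z) ∧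
      ∀ i c, c i = 0 → fderiv ℂ (ψ i) z (T z c) = 0 := by
    filter_upwards [hO.mem_nhds hz₀, eventually_all.2 fun i => (hψ i).eventually_analyticAt,
      hΨa.continuousAt.eventually hinv.eventually_analyticAt, eventually_all.2 h₁]
      with z a b c d
    exact ⟨a, b, c, d⟩
  obtain ⟨W, hW, hWo, hzW⟩ := _root_.eventually_nhds_iff.1 hev
  refine ⟨Θ.restrOpen W hWo, ⟨hΘa, hzW⟩, fun z hz => (hW z hz.2).1,
    fun z hz => analyticAt_pi_iff.2 (hW z hz.2).2.1, fun y hy => ?_, fun z hz i c => ?_⟩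
  · have h3 : AnalyticAt ℂ Θ.symm (Ψ₀ (Θ.symm y)) := (hW _ hy.2).2.2.1
    have h4 : Ψ₀ (Θ.symm y) = y := Θ.right_inv hy.1
    rw [h4] at h3
    exact h3
  · obtain ⟨hzO, hza, hzi, hzv⟩ := hW z hz.2
    have hza' : AnalyticAt ℂ Ψ₀ z := analyticAt_pi_iff.2 hza
    change (∀ j, j ≠ i → fderiv ℂ Ψ₀ z (T z c) j = 0) ↔ _
    have hinj : ∀ v, fderiv ℂ Ψ₀ z v = 0 → v = 0 := by
      intro v hv
      have e1 : Θ.symm ∘ Ψ₀ =ᶠ[𝓝 z] id := by
        filter_upwards [Θ.open_source.mem_nhds hz.1] with x hx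
        exact Θ.left_inv hx
      have e2 := (hzi.differentiableAt.hasFDerivAt.comp z
        hza'.differentiableAt.hasFDerivAt).congr_of_eventuallyEq e1.symm
      have e3 := e2.unique (hasFDerivAt_id z)
      have e4 := congrArg (fun M : E →L[ℂ] E => M v) e3
      simpa [hv] using e4.symm
    constructor
    · intro h j hj
      have h5 : fderiv ℂ Ψ₀ z (T z (Pi.single j (c j))) = 0 := by
        funext k
        rw [hd z hza]
        by_cases hk : k = j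
        · subst hk
          rw [← hsplit z hzv, ← hd z hza]
          exact h k hj
        · exact hzv k _ (by simp [hk])
      have h6 : T z (Pi.single j (c j)) = T z 0 := by rw [hinj _ h5, map_zero]
      have h7 := congrFun ((hb z hzO).1 h6) j
      simpa using h7
    · intro h j hj
      rw [hd z hza]
      exact hzv j c (h j hj)

end Vale.Agent.P278
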