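import Vale.Agent.P278.Abs

/-! Integrability read in a chart. -/

open Set Filter Topology Metric
open scoped Manifold ContDiff

namespace Vale.Agent.P278

variable {E : Type*} [NormedAddCommGroup E] [NormedSpace ℂ E] [FiniteDimensional ℂ E]
  {X : Type*} [TopologicalSpace X] [ChartedSpace E X] [IsManifold 𝓘(ℂ, E) ω X]
  {ι : Type} [Fintype ι] [DecidableEq ι]


/-- Proof idea: with `e = chartAt E x₀`, apply the hypothesis on `U = e.source ∩ e ⁻¹' O` to the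
fields `VectorField.mpullback 𝓘(ℂ, E) 𝓘(ℂ, E) e ξ` and the same for `η`
(`MDifferentiableAt.mpullback_vectorField`); use `VectorField.mpullback_mlieBracket`,
`VectorField.mlieBracket_eq_lieBracket` and `(mfderiv e x).inverse = mfderiv e.symm (e x)`. -/
theorem invol_chart {W : ∀ x : X, Submodule ℂ (TangentSpace 𝓘(ℂ, E) x)} (hW : IsIntegrable W)
    (x₀ : X) {O : Set E} (hO : IsOpen O) (hOt : O ⊆ (chartAt E x₀).target) {ξ η : E → E}
    (hξ : AnalyticOnNhd ℂ ξ O) (hη : AnalyticOnNhd ℂ η O)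
    (h₁ : ∀ z ∈ O, mfderiv 𝓘(ℂ, E) 𝓘(ℂ, E) (chartAt E x₀).symm z (ξ z) ∈ W ((chartAt E x₀).symm z))
    (h₂ : ∀ z ∈ O, mfderiv 𝓘(ℂ, E) 𝓘(ℂ, E) (chartAt E x₀).symm z (η z) ∈ W ((chartAt E x₀).symm z)) :
    ∀ z ∈ O, mfderiv 𝓘(ℂ, E) 𝓘(ℂ, E) (chartAt E x₀).symm z
      (VectorField.lieBracket (E := E) ℂ ξ η z : E) ∈ W ((chartAt E x₀).symm z) := by
  intro z hz
  have : CompleteSpace E := FiniteDimensional.complete ℂ E
  have : IsManifold 𝓘(ℂ, E) 2 X := IsManifold.of_le (n := ω) le_top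
  have : IsManifold 𝓘(ℂ, E) 1 X := IsManifold.of_le (n := ω) le_top
  have : IsManifold 𝓘(ℂ, E) (minSmoothness ℂ 2) X := IsManifold.of_le (n := ω) le_top
  set e := chartAt E x₀ with he
  have hd : e.MDifferentiable 𝓘(ℂ, E) 𝓘(ℂ, E) := mdifferentiable_chart x₀
  have hs : ∀ x ∈ e.source, ContMDiffAt 𝓘(ℂ, E) 𝓘(ℂ, E) ω e x := fun x hx =>
    (contMDiffOn_chart x hx).contMDiffAt (e.open_source.mem_nhds hx)
  have hinv : ∀ x ∈ e.source, (mfderiv 𝓘(ℂ, E) 𝓘(ℂ, E) e x).IsInvertible := fun x hx =>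
    ⟨hd.mfderiv hx, rfl⟩
  have hp : ∀ (ζ : E → E), ∀ x ∈ e.source, VectorField.mpullback 𝓘(ℂ, E) 𝓘(ℂ, E) e ζ x =
      mfderiv 𝓘(ℂ, E) 𝓘(ℂ, E) e.symm (e x) (ζ (e x)) := by
    intro ζ x hx
    have h := ContinuousLinearMap.inverse_equiv (hd.mfderiv hx)
    exact DFunLike.congr_fun h (ζ (e x))
  have hm : ∀ (ζ : E → E), AnalyticOnNhd ℂ ζ O → ∀ y ∈ O, MDifferentiableAt 𝓘(ℂ, E) 𝓘(ℂ, E).tangent
      (fun y => (⟨y, ζ y⟩ : TangentBundle 𝓘(ℂ, E) E)) y := fun ζ hζ y hy =>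
    (contMDiffAt_vectorSpace_iff_contDiffAt.2 ((hζ y hy).contDiffAt (n := 1))).mdifferentiableAt
      one_ne_zero
  have hU : IsOpen (e.source ∩ e ⁻¹' O) := e.isOpen_inter_preimage hO
  have hf : ∀ (ζ : E → E), AnalyticOnNhd ℂ ζ O →
      IsHolField (e.source ∩ e ⁻¹' O) (VectorField.mpullback 𝓘(ℂ, E) 𝓘(ℂ, E) e ζ) :=
    fun ζ hζ x hx => ((hm ζ hζ (e x) hx.2).mpullback_vectorField (hs x hx.1) (hinv x hx.1)
      le_top).mdifferentiableWithinAt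
  have hw : ∀ (ζ : E → E), (∀ z ∈ O, mfderiv 𝓘(ℂ, E) 𝓘(ℂ, E) e.symm z (ζ z) ∈ W (e.symm z)) →
      ∀ x ∈ e.source ∩ e ⁻¹' O, VectorField.mpullback 𝓘(ℂ, E) 𝓘(ℂ, E) e ζ x ∈ W x := by
    intro ζ hζ x hx
    rw [hp ζ x hx.1]
    have h := hζ (e x) hx.2
    have key : ∀ y, y = x → ∀ v : E, (v : TangentSpace 𝓘(ℂ, E) y) ∈ W y →
        (v : TangentSpace 𝓘(ℂ, E) x) ∈ W x := by
      rintro y rfl v hv
      exact hv
    exact key _ (e.left_inv hx.1) _ h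
  have hzt := hOt hz
  have hx : e.symm z ∈ e.source := e.map_target hzt
  have hez : e (e.symm z) = z := e.right_inv hzt
  have hO' : e (e.symm z) ∈ O := by rwa [hez]
  have h := hW _ _ _ hU (hf ξ hξ) (hf η hη) (hw ξ h₁) (hw η h₂) (e.symm z) ⟨hx, hO'⟩
  have h2 := VectorField.mpullback_mlieBracket (hm ξ hξ _ hO') (hm η hη _ hO') (hs _ hx) le_top
  have hb : VectorField.mlieBracket 𝓘(ℂ, E) ξ η = VectorField.lieBracket (E := E) ℂ ξ η :=
    (VectorField.mlieBracketWithin_eq_lieBracketWithin (s := univ)).trans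
      VectorField.lieBracketWithin_univ
  have key : ∀ y, y = z → (mfderiv 𝓘(ℂ, E) 𝓘(ℂ, E) e.symm y
      (VectorField.lieBracket (E := E) ℂ ξ η y : E) : E) =
      mfderiv 𝓘(ℂ, E) 𝓘(ℂ, E) e.symm z (VectorField.lieBracket (E := E) ℂ ξ η z : E) := by
    rintro y rfl
    rfl
  have h3 := (congrArg (fun V => VectorField.mpullback 𝓘(ℂ, E) 𝓘(ℂ, E) e V (e.symm z))
    hb).symm.trans h2
  have h4 := ((key _ hez).symm.trans
    (hp (VectorField.lieBracket (E := E) ℂ ξ η) _ hx).symm).trans h3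
  exact mem_of_eq_of_mem h4 h

end Vale.Agent.P278
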