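import Vale.Agent.P278.Frame
import Vale.Agent.P278.Invol
import Vale.Agent.P278.FrobE1
import Vale.Agent.P278.FrobE2

/-! Adapted charts exist around every point. -/

open Set Filter Topology Metric
open scoped Manifold ContDiff

namespace Vale.Agent.P278

variable {E : Type*} [NormedAddCommGroup E] [NormedSpace ℂ E] [FiniteDimensional ℂ E]
  {X : Type*} [TopologicalSpace X] [ChartedSpace E X] [IsManifold 𝓘(ℂ, E) ω X]
  {ι : Type} [Fintype ι] [DecidableEq ι]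


/-- Proof idea: `exists_frame`, `invol_chart` (for `I = univ.erase i`), `frob_one`, `frob_multi`;
take `φ = (chartAt E x).trans Ψ` and compute `mfderiv φ` by the chain rule. -/
theorem exists_adapted [ConnectedSpace X]
    {V : ι → ∀ x : X, Submodule ℂ (TangentSpace 𝓘(ℂ, E) x)}
    (hhol : ∀ i, IsHolSubbundle (V i)) (hsum : ∀ x, DirectSum.IsInternal fun i => V i x)
    (hint : ∀ I : Finset ι, IsIntegrable fun x => ⨆ i ∈ I, V i x) :
    ∃ r : ι → ℕ, ∀ x : X, ∃ φ : OpenPartialHomeomorph X (∀ i, Fin (r i) → ℂ),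
      AdaptedChart V φ ∧ x ∈ φ.source := by
  obtain ⟨r, hr⟩ := exists_frame hhol hsum
  refine ⟨r, fun x₀ => ?_⟩
  obtain ⟨O, hO, hx₀, hOt, T, hT, hTp⟩ := hr x₀
  have hb : ∀ z ∈ O, Function.Bijective (T z) := fun z hz => (hTp z hz).1
  have hone : ∀ i, ∃ ψ : E → Fin (r i) → ℂ, AnalyticAt ℂ ψ (chartAt E x₀ x₀) ∧
      (∀ᶠ z in 𝓝 (chartAt E x₀ x₀), ∀ c, c i = 0 → fderiv ℂ ψ z (T z c) = 0) ∧
      ∀ a, fderiv ℂ ψ (chartAt E x₀ x₀) (T (chartAt E x₀ x₀) (Pi.single i a)) = a := by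
    intro i
    refine frob_one (A := fun i => Fin (r i) → ℂ) hO hx₀ hT hb i ?_
    intro O' hO'O hO' ξ η hξ hη h₁ h₂ z hz
    have key := invol_chart (hint (Finset.univ.erase i)) x₀ hO' (hO'O.trans hOt) hξ hη
      (fun z hz => by
        obtain ⟨c, hc, he⟩ := h₁ z hz
        rw [he]
        exact (((hTp z (hO'O hz)).2 i c).2).2 hc)
      (fun z hz => by
        obtain ⟨c, hc, he⟩ := h₂ z hz
        rw [he]
        exact (((hTp z (hO'O hz)).2 i c).2).2 hc) z hz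
    obtain ⟨c, hc⟩ := (hb z (hO'O hz)).2 (VectorField.lieBracket ℂ ξ η z)
    refine ⟨c, ?_, hc.symm⟩
    rw [← hc] at key
    exact (((hTp z (hO'O hz)).2 i c).2).1 key
  choose ψ hψ h₁ h₂ using hone
  obtain ⟨Ψ, hz₀, hΨO, hΨ, hΨs, hΨp⟩ :=
    frob_multi (A := fun i => Fin (r i) → ℂ) hO hx₀ hb hψ h₁ h₂
  have he : ContMDiffOn 𝓘(ℂ, E) 𝓘(ℂ, E) ω (chartAt E x₀) (chartAt E x₀).source :=
    contMDiffOn_chart
  have hes : ContMDiffOn 𝓘(ℂ, E) 𝓘(ℂ, E) ω (chartAt E x₀).symm (chartAt E x₀).target :=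
    contMDiffOn_chart_symm
  have hΨm : ContMDiffOn 𝓘(ℂ, E) 𝓘(ℂ, ∀ i, Fin (r i) → ℂ) ω Ψ Ψ.source :=
    contMDiffOn_iff_contDiffOn.2 (hΨ.contDiffOn_of_completeSpace)
  have hΨsm : ContMDiffOn 𝓘(ℂ, ∀ i, Fin (r i) → ℂ) 𝓘(ℂ, E) ω Ψ.symm Ψ.target :=
    contMDiffOn_iff_contDiffOn.2 (hΨs.contDiffOn_of_completeSpace)
  refine ⟨(chartAt E x₀).trans Ψ, ⟨⟨?_, ?_⟩, ?_⟩, ?_⟩
  · exact hΨm.comp (he.mono inter_subset_left) (fun x hx => hx.2)
  · exact hes.comp (hΨsm.mono inter_subset_left) (fun x hx => hx.2)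
  · intro x hx i v
    have hx1 : x ∈ (chartAt E x₀).source := hx.1
    have hx2 : chartAt E x₀ x ∈ Ψ.source := hx.2
    have hxO := hΨO hx2
    have hmd : (chartAt E x₀).MDifferentiable 𝓘(ℂ, E) 𝓘(ℂ, E) := mdifferentiable_chart x₀
    have hd1 : MDifferentiableAt 𝓘(ℂ, E) 𝓘(ℂ, E) (chartAt E x₀) x := hmd.mdifferentiableAt hx1
    have hd2 : DifferentiableAt ℂ Ψ (chartAt E x₀ x) := (hΨ _ hx2).differentiableAt
    have hch : (mfderiv 𝓘(ℂ, E) 𝓘(ℂ, ∀ i, Fin (r i) → ℂ) ((chartAt E x₀).trans Ψ) x v :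
        ∀ i, Fin (r i) → ℂ) =
        fderiv ℂ Ψ (chartAt E x₀ x) (mfderiv 𝓘(ℂ, E) 𝓘(ℂ, E) (chartAt E x₀) x v) := by
      have h3 := mfderiv_comp_apply x (mdifferentiableAt_iff_differentiableAt.2 hd2) hd1 v
      rw [mfderiv_eq_fderiv] at h3
      exact h3
    obtain ⟨c, hc⟩ := (hb _ hxO).2 (mfderiv 𝓘(ℂ, E) 𝓘(ℂ, E) (chartAt E x₀) x v)
    have hv : mfderiv 𝓘(ℂ, E) 𝓘(ℂ, E) (chartAt E x₀).symm (chartAt E x₀ x)
        (T (chartAt E x₀ x) c) = v := by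
      rw [hc]
      exact congrArg (fun L : E →L[ℂ] E => L v) (hmd.symm_comp_deriv hx1)
    have h4 := ((hTp _ hxO).2 i c).1
    have h5 : ∀ (y : X) (w : E), y = x → (w ∈ V i y ↔ w ∈ V i x) := by
      rintro y w rfl
      rfl
    have h6 : v ∈ V i x ↔ ∀ j, j ≠ i → c j = 0 := by
      rw [← h4, hv]
      exact (h5 _ v ((chartAt E x₀).left_inv hx1)).symm
    rw [h6, ← hΨp _ hx2 i c, hc]
    simp only [hch]
  · exact ⟨mem_chart_source E x₀, hz₀⟩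

end Vale.Agent.P278
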