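import Vale.Agent.P278.Abs

/-! Adapted charts lift along a local biholomorphism. -/

open Set Filter Topology Metric
open scoped Manifold ContDiff

namespace Vale.Agent.P278

variable {E : Type*} [NormedAddCommGroup E] [NormedSpace ℂ E] [FiniteDimensional ℂ E]
  {X : Type*} [TopologicalSpace X] [ChartedSpace E X] [IsManifold 𝓘(ℂ, E) ω X]
  {ι : Type} [Fintype ι] [DecidableEq ι]

variable {A : ι → Type*} [∀ i, NormedAddCommGroup (A i)] [∀ i, NormedSpace ℂ (A i)]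
  [∀ i, FiniteDimensional ℂ (A i)]


/-- Proof idea: `hπ z` gives a partial diffeomorphism `Φ` that agrees with `π` on its source; take
`φ' = Φ.toOpenPartialHomeomorph.trans φ`; on the source `φ' = φ ∘ π`, chain rule. -/
theorem adapted_lift {Z : Type*} [TopologicalSpace Z] [ChartedSpace E Z]
    [IsManifold 𝓘(ℂ, E) ω Z] {π : Z → X} (hπ : IsLocalDiffeomorph 𝓘(ℂ, E) 𝓘(ℂ, E) ω π)
    {V : ι → ∀ x : X, Submodule ℂ (TangentSpace 𝓘(ℂ, E) x)}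
    {φ : OpenPartialHomeomorph X (∀ i, A i)} (hφ : AdaptedChart V φ) {z : Z}
    (hz : π z ∈ φ.source) :
    ∃ φ' : OpenPartialHomeomorph Z (∀ i, A i),
      AdaptedChart (fun i z => (V i (π z)).comap (mfderiv 𝓘(ℂ, E) 𝓘(ℂ, E) π z).toLinearMap) φ' ∧
        z ∈ φ'.source ∧ (φ' : Z → ∀ i, A i) =ᶠ[𝓝 z] φ ∘ π := by
  obtain ⟨Φ, hzΦ, he⟩ := hπ z
  have hev : ∀ x ∈ Φ.source, (φ ∘ Φ : Z → ∀ i, A i) =ᶠ[𝓝 x] φ ∘ π := fun x hx => by
    filter_upwards [Φ.open_source.mem_nhds hx] with y hy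
    simp only [Function.comp_apply, he hy]
  refine ⟨Φ.toOpenPartialHomeomorph.trans φ, ⟨⟨?_, ?_⟩, ?_⟩, ⟨hzΦ, ?_⟩, hev z hzΦ⟩
  · exact hφ.1.1.comp (Φ.contMDiffOn_toFun.mono inter_subset_left) inter_subset_right
  · exact Φ.contMDiffOn_invFun.comp (hφ.1.2.mono inter_subset_left) inter_subset_right
  · rintro x ⟨hx, hx'⟩ i v
    have hπx : π x ∈ φ.source := by rw [he hx]; exact hx'
    have d1 : MDifferentiableAt 𝓘(ℂ, E) 𝓘(ℂ, E) π x := hπ.mdifferentiable (by simp) x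
    have d2 : MDifferentiableAt 𝓘(ℂ, E) 𝓘(ℂ, ∀ i, A i) φ (π x) :=
      (hφ.1.1.contMDiffAt (φ.open_source.mem_nhds hπx)).mdifferentiableAt (by simp)
    have e : mfderiv 𝓘(ℂ, E) 𝓘(ℂ, ∀ i, A i) (Φ.toOpenPartialHomeomorph.trans φ) x =
        (mfderiv 𝓘(ℂ, E) 𝓘(ℂ, ∀ i, A i) φ (π x)).comp (mfderiv 𝓘(ℂ, E) 𝓘(ℂ, E) π x) :=
      (hev x hx).mfderiv_eq.trans (mfderiv_comp x d2 d1)
    rw [e]
    exact hφ.2 _ hπx i _
  · change Φ z ∈ φ.source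
    rwa [← he hzΦ]

end Vale.Agent.P278
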