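import Mathlib

/-! Holomorphic subbundles of the tangent bundle, integrability, Kaehler metrics. -/

open scoped Manifold ContDiff

namespace Vale.Agent.P278

variable {E : Type*} [NormedAddCommGroup E] [NormedSpace ℂ E]
  {X : Type*} [TopologicalSpace X] [ChartedSpace E X]

/-- The coefficient `g(u,v)` of the real bilinear form field `g` in the chart `e`, at the point `z`
of the target of `e`. -/
noncomputable def coef (g : X → E →L[ℝ] E →L[ℝ] ℝ) (e : OpenPartialHomeomorph X E) (u v : E)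
    (z : E) : ℝ :=
  g (e.symm z) (mfderiv 𝓘(ℂ, E) 𝓘(ℂ, E) e.symm z u) (mfderiv 𝓘(ℂ, E) 𝓘(ℂ, E) e.symm z v)

/-- `g` is a Kaehler metric: a smooth Riemannian metric, invariant under the complex structure,
whose fundamental form `(u,v) ↦ g(iu,v)` is closed. -/
structure IsKahlerMetric (g : X → E →L[ℝ] E →L[ℝ] ℝ) : Prop where
  symm : ∀ x u v, g x u v = g x v u
  pos : ∀ x v, v ≠ 0 → 0 < g x v v
  herm : ∀ x u v, g x (Complex.I • u) (Complex.I • v) = g x u v
  smooth : ∀ e ∈ atlas E X, ∀ u v, ContDiffOn ℝ ∞ (coef g e u v) e.target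
  closed : ∀ e ∈ atlas E X, ∀ z ∈ e.target, ∀ u v w,
    fderiv ℝ (coef g e (Complex.I • v) w) z u + fderiv ℝ (coef g e (Complex.I • w) u) z v +
      fderiv ℝ (coef g e (Complex.I • u) v) z w = 0

variable [IsManifold 𝓘(ℂ, E) ω X]

/-- `s` is a holomorphic vector field on `U`. -/
def IsHolField (U : Set X) (s : ∀ x : X, TangentSpace 𝓘(ℂ, E) x) : Prop :=
  MDifferentiableOn 𝓘(ℂ, E) 𝓘(ℂ, E).tangent
    (fun x => (⟨x, s x⟩ : TangentBundle 𝓘(ℂ, E) X)) U

/-- `V` is a holomorphic subbundle of the tangent bundle: it has local holomorphic frames. -/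
def IsHolSubbundle (V : ∀ x : X, Submodule ℂ (TangentSpace 𝓘(ℂ, E) x)) : Prop :=
  ∀ x₀ : X, ∃ (U : Set X) (m : ℕ) (s : Fin m → ∀ x : X, TangentSpace 𝓘(ℂ, E) x),
    IsOpen U ∧ x₀ ∈ U ∧ (∀ j, IsHolField U (s j)) ∧
      ∀ x ∈ U, LinearIndependent ℂ (fun j => s j x) ∧
        Submodule.span ℂ (Set.range fun j => s j x) = V x

/-- The local holomorphic sections of `V` are closed under the Lie bracket. -/
def IsIntegrable (V : ∀ x : X, Submodule ℂ (TangentSpace 𝓘(ℂ, E) x)) : Prop :=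
  ∀ (U : Set X) (s t : ∀ x : X, TangentSpace 𝓘(ℂ, E) x), IsOpen U →
    IsHolField U s → IsHolField U t → (∀ x ∈ U, s x ∈ V x) → (∀ x ∈ U, t x ∈ V x) →
      ∀ x ∈ U, VectorField.mlieBracket 𝓘(ℂ, E) s t x ∈ V x

end Vale.Agent.P278
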