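import Vale.Agent.P278.Abs

/-! From the local product structure to a compatible biholomorphism. -/

open Set Filter Topology Metric
open scoped Manifold ContDiff

namespace Vale.Agent.P278

variable {E : Type*} [NormedAddCommGroup E] [NormedSpace ℂ E] [FiniteDimensional ℂ E]
  {X : Type*} [TopologicalSpace X] [ChartedSpace E X] [IsManifold 𝓘(ℂ, E) ω X]
  {ι : Type} [Fintype ι] [DecidableEq ι]

variable {A : ι → Type*} [∀ i, NormedAddCommGroup (A i)] [∀ i, NormedSpace ℂ (A i)]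
  [∀ i, FiniteDimensional ℂ (A i)]


namespace FinalMfdAux

omit [FiniteDimensional ℂ E] [IsManifold 𝓘(ℂ, E) ω X] [DecidableEq ι] in
theorem loc {Y : ι → Type*} [∀ i, TopologicalSpace (Y i)] [∀ i, ChartedSpace (A i) (Y i)]
    (Φ : X ≃ₜ ∀ i, Y i) {x : X} {φ : OpenPartialHomeomorph X (∀ i, A i)} (hφ : HolChart E φ)
    (hx : x ∈ φ.source) (h : LocProd Φ φ x) :
    ContMDiffAt 𝓘(ℂ, E) (ModelWithCorners.pi fun i => 𝓘(ℂ, A i)) ω Φ x ∧
    ContMDiffAt (ModelWithCorners.pi fun i => 𝓘(ℂ, A i)) 𝓘(ℂ, E) ω Φ.symm (Φ x) ∧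
    ∃ L : ∀ i, A i ≃L[ℂ] A i, ∀ v i,
      (mfderiv 𝓘(ℂ, E) (ModelWithCorners.pi fun i => 𝓘(ℂ, A i)) Φ x v : ∀ i, A i) i
        = L i ((mfderiv 𝓘(ℂ, E) 𝓘(ℂ, ∀ i, A i) φ x v : ∀ i, A i) i) := by
  have := fun i => FiniteDimensional.complete ℂ (A i)
  choose f L h1 h2 h3 using h
  let Θ : (∀ i, A i) → ∀ i, A i := fun v i => f i (v i)
  have a1 : ContDiffAt ℂ ω Θ (φ x) := contDiffAt_pi.2 fun i =>
    (h1 i).contDiffAt.comp (f := fun v : ∀ i, A i => v i) (φ x)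
      (ContinuousLinearMap.proj (R := ℂ) (φ := A) i).contDiff.contDiffAt
  have a2 : HasFDerivAt Θ (ContinuousLinearEquiv.piCongrRight L : (∀ i, A i) →L[ℂ] ∀ i, A i)
      (φ x) := hasFDerivAt_pi''
    fun i => (h2 i).comp (f := fun v : ∀ i, A i => v i) (φ x) (hasFDerivAt_apply i _)
  have a3 : (extChartAt (ModelWithCorners.pi fun i => 𝓘(ℂ, A i)) (Φ x) ∘ Φ) =ᶠ[𝓝 x] Θ ∘ φ :=
    (eventually_all.2 h3).mono fun z hz => funext hz
  have a4 := (hφ.1 x hx).contMDiffAt (φ.open_source.mem_nhds hx)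
  have a5 := (hφ.2 _ (φ.map_source hx)).contMDiffAt (φ.open_target.mem_nhds (φ.map_source hx))
  refine ⟨contMDiffAt_iff_target.2 ⟨Φ.continuous.continuousAt,
    (a1.contMDiffAt.comp x a4).congr_of_eventuallyEq a3⟩, ?_, L, fun v i => ?_⟩
  · have hn : (ω : WithTop ℕ∞) ≠ 0 := by simp
    have hb : (ModelWithCorners.pi fun i => 𝓘(ℂ, A i)).Boundaryless :=
      ⟨eq_univ_of_forall fun v => ⟨v, rfl⟩⟩
    have b1 := a1.to_localInverse a2 hn
    have b2 := a1.localInverse_apply_image a2 hn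
    have b3 : extChartAt (ModelWithCorners.pi fun i => 𝓘(ℂ, A i)) (Φ x) (Φ x) = Θ (φ x) :=
      a3.self_of_nhds
    have b4 := (a5.comp_of_eq b1.contMDiffAt b2)
    rw [contMDiffAt_iff_source, b3]
    refine (b4.congr_of_eventuallyEq ?_).contMDiffWithinAt
    rw [← b3]
    have b5 : Tendsto (Φ.symm ∘ (extChartAt (ModelWithCorners.pi fun i => 𝓘(ℂ, A i)) (Φ x)).symm)
        (𝓝 (extChartAt (ModelWithCorners.pi fun i => 𝓘(ℂ, A i)) (Φ x) (Φ x))) (𝓝 x) := by
      have c := Φ.symm.continuous.continuousAt.comp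
        (continuousAt_extChartAt_symm (I := ModelWithCorners.pi fun i => 𝓘(ℂ, A i)) (Φ x))
      rwa [ContinuousAt, Function.comp_apply, extChartAt_to_inv, Φ.symm_apply_apply] at c
    have b6 := (φ.continuousAt hx).eventually (a1.hasStrictFDerivAt' a2 hn).eventually_left_inverse
    filter_upwards [b5.eventually a3, b5.eventually b6, b5.eventually (φ.open_source.mem_nhds hx),
      extChartAt_target_mem_nhds (I := ModelWithCorners.pi fun i => 𝓘(ℂ, A i)) (Φ x)]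
      with w c1 c2 c3 c4
    simp only [Function.comp_apply, Φ.apply_symm_apply] at c1 c2 c3 ⊢
    rw [(extChartAt _ (Φ x)).right_inv c4] at c1
    rw [← c1] at c2
    exact ((congrArg φ.symm c2).trans (φ.left_inv c3)).symm
  · have b1 := (a2.hasMFDerivAt.comp x
      (a4.mdifferentiableAt (by simp)).hasMFDerivAt).congr_of_eventuallyEq a3
    have b2 : HasMFDerivAt 𝓘(ℂ, E) (ModelWithCorners.pi fun i => 𝓘(ℂ, A i)) Φ x _ :=
      ⟨Φ.continuous.continuousAt, b1.2⟩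
    rw [b2.mfderiv]
    rfl

end FinalMfdAux

/-- Proof idea: near `x`, `Φ = χ.symm ∘ Θ ∘ φ` with `χ = chartAt (ModelPi A) (Φ x)`, the product of
the charts (`piChartedSpace_chartAt`), and `Θ v i = f i (v i)`, a local analytic isomorphism with
block diagonal invertible derivative. Use `contMDiffAt_iff` (the extended chart of the product at
`Φ x` is `χ`), the analytic inverse function theorem for the inverse map, and compute
`mfderiv Φ x v i = L i (mfderiv φ x v i)` through `HasMFDerivAt`; `mfderiv φ x` is bijective. -/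
theorem exists_diffeomorph {V : ι → ∀ x : X, Submodule ℂ (TangentSpace 𝓘(ℂ, E) x)}
    {Y : ι → Type*} [∀ i, TopologicalSpace (Y i)] [∀ i, ChartedSpace (A i) (Y i)]
    (Φ : X ≃ₜ ∀ i, Y i)
    (h : ∀ x, ∃ φ : OpenPartialHomeomorph X (∀ i, A i), AdaptedChart V φ ∧ x ∈ φ.source ∧
      LocProd Φ φ x) :
    ∃ Ψ : Diffeomorph 𝓘(ℂ, E) (ModelWithCorners.pi fun i => 𝓘(ℂ, A i)) X (∀ i, Y i) ω,
      ∀ (x : X) (i : ι) (u : ∀ j, A j),
        (∃ v ∈ V i x, mfderiv 𝓘(ℂ, E) (ModelWithCorners.pi fun i => 𝓘(ℂ, A i)) Ψ x v = u) ↔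
          ∀ j, j ≠ i → u j = 0 := by
  choose φ h1 h2 h3 using h
  have h4 := fun x => FinalMfdAux.loc Φ (h1 x).1 (h2 x) (h3 x)
  refine ⟨⟨Φ.toEquiv, fun x => (h4 x).1, fun y => ?_⟩, fun x i u => ?_⟩
  · obtain ⟨x, rfl⟩ := Φ.surjective y
    exact (h4 x).2.1
  obtain ⟨L, hL⟩ := (h4 x).2.2
  constructor
  · rintro ⟨v, hv, rfl⟩ j hj
    exact (hL v j).trans (by rw [((h1 x).2 x (h2 x) i v).1 hv j hj, map_zero])
  · intro hu
    have h5 : (φ x).MDifferentiable 𝓘(ℂ, E) 𝓘(ℂ, ∀ i, A i) :=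
      ⟨(h1 x).1.1.mdifferentiableOn (by simp), (h1 x).1.2.mdifferentiableOn (by simp)⟩
    obtain ⟨v, hv⟩ := h5.mfderiv_surjective (h2 x) fun j => (L j).symm (u j)
    refine ⟨v, ((h1 x).2 x (h2 x) i v).2 fun j hj => ?_, funext fun j => (hL v j).trans ?_⟩
    · exact (congrFun hv j).trans (by rw [hu j hj, map_zero])
    · exact (congrArg (L j) (congrFun hv j)).trans ((L j).apply_symm_apply _)

end Vale.Agent.P278
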