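import Vale.Agent.P278.Abs

/-! Holomorphic frames adapted to the splitting, in a chart. -/

open Set Filter Topology Metric
open scoped Manifold ContDiff

namespace Vale.Agent.P278

variable {E : Type*} [NormedAddCommGroup E] [NormedSpace ℂ E] [FiniteDimensional ℂ E]
  {X : Type*} [TopologicalSpace X] [ChartedSpace E X] [IsManifold 𝓘(ℂ, E) ω X]
  {ι : Type} [Fintype ι] [DecidableEq ι]


namespace FrameAux

theorem lin {W : Type*} [AddCommGroup W] [Module ℂ W] {V : ι → Submodule ℂ W}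
    (hV : DirectSum.IsInternal V) {r : ι → ℕ} {s : ∀ i, Fin (r i) → W}
    (h1 : ∀ i, LinearIndependent ℂ (s i)) (h2 : ∀ i, Submodule.span ℂ (range (s i)) = V i)
    (S : (∀ i, Fin (r i) → ℂ) →ₗ[ℂ] W) (hS : ∀ c, S c = ∑ i, ∑ l, c i l • s i l) :
    Function.Bijective S ∧ ∀ i c, (S c ∈ V i ↔ ∀ j, j ≠ i → c j = 0) ∧
      (S c ∈ ⨆ j ∈ Finset.univ.erase i, V j ↔ c i = 0) := by
  have h3 : ∀ (i) (c : Fin (r i) → ℂ), ∑ l, c l • s i l ∈ V i := fun i c =>
    h2 i ▸ (Submodule.mem_span_range_iff_exists_fun ℂ).2 ⟨c, rfl⟩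
  have h4 : ∀ i j, j ≠ i → V j ≤ ⨆ j ∈ Finset.univ.erase i, V j := fun i j h =>
    le_iSup₂_of_le j (Finset.mem_erase.2 ⟨h, Finset.mem_univ j⟩) le_rfl
  have h5 : ∀ i c, S c ∈ ⨆ j ∈ Finset.univ.erase i, V j ↔ c i = 0 := fun i c => by
    rw [hS, ← Finset.add_sum_erase _ _ (Finset.mem_univ i), Submodule.add_mem_iff_left _
      (sum_mem fun j hj => h4 i j (Finset.ne_of_mem_erase hj) (h3 j _))]
    refine ⟨fun h => funext (Fintype.linearIndependent_iff.1 (h1 i) _ ?_), fun h => by simp [h]⟩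
    refine (Submodule.disjoint_def.1 (hV.submodule_iSupIndep i)) _ (h3 i _) ?_
    exact (iSup₂_le fun j hj => le_iSup₂_of_le j (Finset.ne_of_mem_erase hj) le_rfl :
      ⨆ j ∈ Finset.univ.erase i, V j ≤ ⨆ j ≠ i, V j) h
  refine ⟨⟨(injective_iff_map_eq_zero S).2 fun c hc => funext fun i => (h5 i c).1 ?_, ?_⟩,
    fun i c => ⟨⟨fun h j hj => (h5 j c).1 (h4 j i hj.symm h), fun h => ?_⟩, h5 i c⟩⟩
  · rw [hc]
    exact zero_mem _
  · rw [← LinearMap.range_eq_top, eq_top_iff, ← hV.submodule_iSup_eq_top]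
    refine iSup_le fun i v hv => ?_
    obtain ⟨c, rfl⟩ := (Submodule.mem_span_range_iff_exists_fun ℂ).1 (h2 i ▸ hv)
    refine ⟨Pi.single i c, ?_⟩
    rw [hS, Finset.sum_eq_single_of_mem i (Finset.mem_univ i) fun j _ hj => by
      simp [Pi.single_eq_of_ne hj], Pi.single_eq_same]
  · rw [hS, Finset.sum_eq_single_of_mem i (Finset.mem_univ i) fun j _ hj => by simp [h j hj]]
    exact h3 i _

omit [FiniteDimensional ℂ E] in
theorem rank [ConnectedSpace X] {V : ∀ x : X, Submodule ℂ (TangentSpace 𝓘(ℂ, E) x)}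
    (h : IsHolSubbundle V) : ∃ r : ℕ, ∀ x₀ : X,
      ∃ (U : Set X) (s : Fin r → ∀ x : X, TangentSpace 𝓘(ℂ, E) x),
        IsOpen U ∧ x₀ ∈ U ∧ (∀ j, IsHolField U (s j)) ∧
          ∀ x ∈ U, LinearIndependent ℂ (fun j => s j x) ∧
            Submodule.span ℂ (Set.range fun j => s j x) = V x := by
  choose U m s h1 h2 h3 h4 using h
  have h5 : ∀ x₀, ∀ x ∈ U x₀, Module.finrank ℂ (V x) = m x₀ := fun x₀ x hx => by
    rw [← (h4 x₀ x hx).2, finrank_span_eq_card (h4 x₀ x hx).1, Fintype.card_fin]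
  have h6 : IsLocallyConstant m := (IsLocallyConstant.iff_exists_open m).2 fun x₀ =>
    ⟨U x₀, h1 x₀, h2 x₀, fun x hx => (h5 x x (h2 x)).symm.trans (h5 x₀ x hx)⟩
  obtain ⟨y⟩ : Nonempty X := inferInstance
  refine ⟨m y, fun x₀ => ?_⟩
  rw [h6.apply_eq_of_preconnectedSpace y x₀]
  exact ⟨U x₀, s x₀, h1 x₀, h2 x₀, h3 x₀, h4 x₀⟩

theorem diff {U : Set X} (hU : IsOpen U) {s : ∀ x : X, TangentSpace 𝓘(ℂ, E) x}
    (hs : IsHolField U s) (x₀ : X) {z : E} (hz : z ∈ (chartAt E x₀).target)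
    (hz' : (chartAt E x₀).symm z ∈ U) :
    DifferentiableAt ℂ (fun z => (VectorField.mpullback 𝓘(ℂ, E) 𝓘(ℂ, E) (chartAt E x₀).symm s z : E))
      z := by
  have := FiniteDimensional.complete ℂ E
  have h1 := ((hs _ hz').mdifferentiableAt (hU.mem_nhds hz')).mpullback_vectorField (n := ω)
    ((contMDiffOn_chart_symm z hz).contMDiffAt ((chartAt E x₀).open_target.mem_nhds hz))
    ⟨(mdifferentiable_chart (I := 𝓘(ℂ, E)) x₀).symm.mfderiv hz, rfl⟩ le_top
  exact MDifferentiableAt.differentiableAt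
    (((contMDiff_snd_tangentBundle_modelSpace (n := 1) E 𝓘(ℂ, E)).mdifferentiableAt
      one_ne_zero).comp z h1)

end FrameAux

/-- Proof idea: the rank of `V i x` is locally constant, hence constant. At `x₀` take frames `s i` on
a common open set; in the chart `e = chartAt E x₀` put
`σ i l z = VectorField.mpullback 𝓘(ℂ, E) 𝓘(ℂ, E) e.symm (s i l) z`, which is differentiable on
`O = e.target ∩ e.symm ⁻¹' U` (`MDifferentiableAt.mpullback_vectorField`, then the vector space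
form), hence analytic (`Vale.Agent.P274.analyticOnNhd_of_differentiableOn`), and
`T z c = ∑ i, ∑ l, c i l • σ i l z`. The rest is linear algebra from `DirectSum.IsInternal` and
invertibility of `mfderiv e.symm z` (`OpenPartialHomeomorph.MDifferentiable.mfderiv`). -/
theorem exists_frame [ConnectedSpace X] {V : ι → ∀ x : X, Submodule ℂ (TangentSpace 𝓘(ℂ, E) x)}
    (hhol : ∀ i, IsHolSubbundle (V i)) (hsum : ∀ x, DirectSum.IsInternal fun i => V i x) :
    ∃ r : ι → ℕ, ∀ x₀ : X, ∃ O : Set E, IsOpen O ∧ chartAt E x₀ x₀ ∈ O ∧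
      O ⊆ (chartAt E x₀).target ∧ ∃ T : E → (∀ i, Fin (r i) → ℂ) →L[ℂ] E,
        AnalyticOnNhd ℂ T O ∧ ∀ z ∈ O, Function.Bijective (T z) ∧ ∀ i c,
          (mfderiv 𝓘(ℂ, E) 𝓘(ℂ, E) (chartAt E x₀).symm z (T z c) ∈ V i ((chartAt E x₀).symm z) ↔
            ∀ j, j ≠ i → c j = 0) ∧
          (mfderiv 𝓘(ℂ, E) 𝓘(ℂ, E) (chartAt E x₀).symm z (T z c) ∈
            ⨆ j ∈ Finset.univ.erase i, V j ((chartAt E x₀).symm z) ↔ c i = 0) := by
  have := FiniteDimensional.complete ℂ E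
  choose r hr using fun i => FrameAux.rank (hhol i)
  refine ⟨r, fun x₀ => ?_⟩
  choose U s h1 h2 h3 h4 using fun i => hr i x₀
  have hU : IsOpen (⋂ i, U i) := isOpen_iInter_of_finite h1
  have hO := (chartAt E x₀).isOpen_inter_preimage_symm hU
  refine ⟨_, hO, ⟨mem_chart_target E x₀, ?_⟩, inter_subset_left, fun z => ∑ i, ∑ l,
    ContinuousLinearMap.smulRightL ℂ (∀ i, Fin (r i) → ℂ) E
      ((ContinuousLinearMap.proj l).comp
        (ContinuousLinearMap.proj (R := ℂ) (φ := fun i => Fin (r i) → ℂ) i))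
      (VectorField.mpullback 𝓘(ℂ, E) 𝓘(ℂ, E) (chartAt E x₀).symm (s i l) z), ?_, fun z hz => ?_⟩
  · rw [mem_preimage, (chartAt E x₀).left_inv (mem_chart_source E x₀)]
    exact mem_iInter.2 h2
  · refine Vale.Agent.P274.analyticOnNhd_of_differentiableOn hO fun z hz =>
      DifferentiableAt.differentiableWithinAt ?_
    refine DifferentiableAt.fun_sum fun i _ => DifferentiableAt.fun_sum fun l _ => ?_
    exact (ContinuousLinearMap.differentiableAt _).comp z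
      (FrameAux.diff (h1 i) (h3 i l) x₀ hz.1 (mem_iInter.1 hz.2 i))
  · let L := (mdifferentiable_chart (I := 𝓘(ℂ, E)) x₀).symm.mfderiv hz.1
    have hL : (mfderiv 𝓘(ℂ, E) 𝓘(ℂ, E) (chartAt E x₀).symm z).IsInvertible := ⟨L, rfl⟩
    obtain ⟨T, hT⟩ : ∃ T : (∀ i, Fin (r i) → ℂ) →L[ℂ] E, T = ∑ i, ∑ l,
      ContinuousLinearMap.smulRightL ℂ (∀ i, Fin (r i) → ℂ) E
        ((ContinuousLinearMap.proj l).comp
          (ContinuousLinearMap.proj (R := ℂ) (φ := fun i => Fin (r i) → ℂ) i))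
        (VectorField.mpullback 𝓘(ℂ, E) 𝓘(ℂ, E) (chartAt E x₀).symm (s i l) z) := ⟨_, rfl⟩
    obtain ⟨a1, a2⟩ := FrameAux.lin (hsum ((chartAt E x₀).symm z))
      (fun i => (h4 i _ (mem_iInter.1 hz.2 i)).1) (fun i => (h4 i _ (mem_iInter.1 hz.2 i)).2)
      ((mfderiv 𝓘(ℂ, E) 𝓘(ℂ, E) (chartAt E x₀).symm z).toLinearMap ∘ₗ T.toLinearMap) fun c => by
        have a : T c = ∑ i, ∑ l, c i l •
            VectorField.mpullback 𝓘(ℂ, E) 𝓘(ℂ, E) (chartAt E x₀).symm (s i l) z := by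
          rw [hT]
          simp only [sum_apply]
          rfl
        refine (congrArg (mfderiv 𝓘(ℂ, E) 𝓘(ℂ, E) (chartAt E x₀).symm z) a).trans ?_
        simp only [map_sum, map_smul, VectorField.mpullback_apply, hL.self_apply_inverse]
    have a3 := (Function.Bijective.of_comp_iff' L.bijective T).1 a1
    subst hT
    exact ⟨a3, a2⟩

end Vale.Agent.P278
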