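import Vale.Agent.P278.Abs

/-! Holomorphic solution of the radial equation. -/

open Set Filter Topology Metric
open scoped Manifold ContDiff

namespace Vale.Agent.P278

variable {A B : Type*} [NormedAddCommGroup A] [NormedSpace ℂ A] [FiniteDimensional ℂ A]
  [NormedAddCommGroup B] [NormedSpace ℂ B] [FiniteDimensional ℂ B]

namespace Frob1Aux

open MeasureTheory

theorem diff_integral {E : Type*} [NormedAddCommGroup E] [NormedSpace ℂ E] [FiniteDimensional ℂ E]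
    {G : ℂ × E → B} {W : Set (ℂ × E)} (hW : IsOpen W) (hG : DifferentiableOn ℂ G W) {V : Set E}
    (hV : IsOpen V) (hVW : ∀ p ∈ V, ∀ t ∈ Icc (0 : ℝ) 1, ((t : ℂ), p) ∈ W) :
    DifferentiableOn ℂ (fun p => ∫ t in (0 : ℝ)..1, G (t, p)) V := by
  have : CompleteSpace B := FiniteDimensional.complete ℂ B
  have : ProperSpace E := FiniteDimensional.proper ℂ E
  have hA := Vale.Agent.P274.analyticOnNhd_of_differentiableOn hW hG
  have hc : ContinuousOn (fderiv ℂ G) W := hA.fderiv.continuousOn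
  intro p hp
  obtain ⟨ε, hε, hεV⟩ := nhds_basis_closedBall.mem_iff.1 (hV.mem_nhds hp)
  have hK : IsCompact ((((↑) : ℝ → ℂ) '' Icc 0 1) ×ˢ closedBall p ε) :=
    (isCompact_Icc.image Complex.continuous_ofReal).prod (isCompact_closedBall p ε)
  have hKW : (((↑) : ℝ → ℂ) '' Icc 0 1) ×ˢ closedBall p ε ⊆ W := by
    rintro ⟨_, x⟩ ⟨⟨t, ht, rfl⟩, hx⟩
    exact hVW x (hεV hx) t ht
  obtain ⟨C, hC⟩ := hK.exists_bound_of_continuousOn (hc.mono hKW)
  have hI : ∀ t ∈ uIoc (0 : ℝ) 1, t ∈ Icc (0 : ℝ) 1 := fun t ht => by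
    rw [uIoc_of_le zero_le_one] at ht
    exact Ioc_subset_Icc_self ht
  have hcont : ∀ x ∈ V, ContinuousOn (fun t : ℝ => G (t, x)) (Icc 0 1) := fun x hx =>
    hG.continuousOn.comp (by fun_prop) fun t ht => hVW x hx t ht
  have hcont' : ContinuousOn (fun t : ℝ => fderiv ℂ G (t, p)) (Icc 0 1) :=
    hc.comp (by fun_prop) fun t ht => hVW p hp t ht
  refine (intervalIntegral.hasFDerivAt_integral_of_dominated_of_fderiv_le (𝕜 := ℂ) (μ := volume)
    (F := fun x (t : ℝ) => G (t, x))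
    (F' := fun x (t : ℝ) => (fderiv ℂ G (t, x)).comp (ContinuousLinearMap.inr ℂ ℂ E))
    (bound := fun _ => C * ‖ContinuousLinearMap.inr ℂ ℂ E‖) (closedBall_mem_nhds p hε) ?_ ?_ ?_ ?_
    ?_ ?_).differentiableAt.differentiableWithinAt
  · filter_upwards [hV.mem_nhds hp] with x hx
    exact ((hcont x hx).mono hI).aestronglyMeasurable measurableSet_uIoc
  · exact ContinuousOn.intervalIntegrable_of_Icc zero_le_one (hcont p hp)
  · exact ((hcont'.clm_comp continuousOn_const).mono hI).aestronglyMeasurable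
      measurableSet_uIoc
  · refine Eventually.of_forall fun t ht x hx => (ContinuousLinearMap.opNorm_comp_le _ _).trans ?_
    exact mul_le_mul_of_nonneg_right (hC _ ⟨⟨t, hI t ht, rfl⟩, hx⟩) (norm_nonneg _)
  · exact intervalIntegrable_const
  · refine Eventually.of_forall fun t ht x hx => ?_
    exact ((hA _ (hVW x (hεV hx) t (hI t ht))).differentiableAt.hasFDerivAt).comp x
      (hasFDerivAt_prodMk_right (t : ℂ) x)

/-- the integrand -/
def ig (Γ : A × B → A →L[ℂ] B) (Φ : A × B → B) (q : ℂ × (A × B)) : B :=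
  Γ (q.1 • q.2.1, Φ (q.1 • q.2.1, q.2.2)) q.2.1

/-- the Picard operator -/
noncomputable def pic (Γ : A × B → A →L[ℂ] B) (Φ : A × B → B) (p : A × B) : B :=
  p.2 + ∫ t in (0 : ℝ)..1, ig Γ Φ (t, p)

/-- admissible functions -/
def Good (δ R : ℝ) (Φ : A × B → B) : Prop :=
  DifferentiableOn ℂ Φ (ball 0 δ) ∧ ∀ p ∈ ball (0 : A × B) δ, ‖Φ p‖ ≤ R

/-- the domain of the integrand -/
def dom (A B : Type*) [NormedAddCommGroup A] [NormedSpace ℂ A] [NormedAddCommGroup B] (δ : ℝ) :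
    Set (ℂ × (A × B)) := {q | (q.1 • q.2.1, q.2.2) ∈ ball (0 : A × B) δ}

omit [FiniteDimensional ℂ A] [NormedSpace ℂ B] [FiniteDimensional ℂ B] in
theorem isOpen_dom (δ : ℝ) : IsOpen (dom A B δ) :=
  isOpen_ball.preimage (by fun_prop : Continuous fun q : ℂ × (A × B) => (q.1 • q.2.1, q.2.2))

omit [FiniteDimensional ℂ A] [NormedSpace ℂ B] [FiniteDimensional ℂ B] in
theorem mem_dom {δ : ℝ} {p : A × B} (hp : p ∈ ball (0 : A × B) δ) {t : ℝ} (ht : t ∈ Icc (0 : ℝ) 1) :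
    ((t : ℂ), p) ∈ dom A B δ := by
  simp only [dom, mem_ofPred_eq, mem_ball_zero_iff, Prod.norm_def, max_lt_iff] at hp ⊢
  refine ⟨lt_of_le_of_lt ?_ hp.1, hp.2⟩
  rw [norm_smul, Complex.norm_real, Real.norm_of_nonneg ht.1]
  exact mul_le_of_le_one_left (norm_nonneg _) ht.2

variable {Γ : A × B → A →L[ℂ] B} {δ R M : ℝ} {K : NNReal} {Φ Φ' : A × B → B}

omit [NormedSpace ℂ A] [FiniteDimensional ℂ A] [FiniteDimensional ℂ B] in
theorem mem_cb [NormedSpace ℂ A] (hδ : δ ≤ R) (hΦ : Good δ R Φ) {p : A × B}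
    (hp : p ∈ ball (0 : A × B) δ) : (p.1, Φ p) ∈ closedBall (0 : A × B) R := by
  rw [mem_closedBall_zero_iff, Prod.norm_def, max_le_iff]
  exact ⟨(norm_fst_le p).trans ((mem_ball_zero_iff.1 hp).le.trans hδ), hΦ.2 p hp⟩

omit [FiniteDimensional ℂ A] [FiniteDimensional ℂ B] in
theorem ig_diff (hδ : δ ≤ R) (hΓ : AnalyticOnNhd ℂ Γ (closedBall 0 R)) (hΦ : Good δ R Φ) :
    DifferentiableOn ℂ (ig Γ Φ) (dom A B δ) := by
  have h1 : DifferentiableOn ℂ (fun q : ℂ × (A × B) => Φ (q.1 • q.2.1, q.2.2)) (dom A B δ) :=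
    hΦ.1.comp (by fun_prop) fun _ hq => hq
  have h2 : DifferentiableOn ℂ
      (fun q : ℂ × (A × B) => Γ (q.1 • q.2.1, Φ (q.1 • q.2.1, q.2.2))) (dom A B δ) :=
    hΓ.differentiableOn.comp (DifferentiableOn.prodMk (by fun_prop) h1)
      fun _ hq => mem_cb hδ hΦ hq
  exact h2.clm_apply (by fun_prop)

omit [FiniteDimensional ℂ A] [FiniteDimensional ℂ B] in
theorem ig_int (hδ : δ ≤ R) (hΓ : AnalyticOnNhd ℂ Γ (closedBall 0 R)) (hΦ : Good δ R Φ)
    {p : A × B} (hp : p ∈ ball (0 : A × B) δ) :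
    IntervalIntegrable (fun t : ℝ => ig Γ Φ (t, p)) volume 0 1 :=
  ContinuousOn.intervalIntegrable_of_Icc zero_le_one
    ((ig_diff hδ hΓ hΦ).continuousOn.comp (by fun_prop) fun _ ht => mem_dom hp ht)

omit [FiniteDimensional ℂ A] [FiniteDimensional ℂ B] in
theorem uI {t : ℝ} (ht : t ∈ uIoc (0 : ℝ) 1) : t ∈ Icc (0 : ℝ) 1 := by
  rw [uIoc_of_le zero_le_one] at ht
  exact Ioc_subset_Icc_self ht

theorem pic_good (hM0 : 0 ≤ M) (hδ : δ * (1 + M) ≤ R) (hδR : δ ≤ R)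
    (hΓ : AnalyticOnNhd ℂ Γ (closedBall 0 R)) (hM : ∀ q ∈ closedBall (0 : A × B) R, ‖Γ q‖ ≤ M)
    (hΦ : Good δ R Φ) : Good δ R (pic Γ Φ) := by
  have hd := diff_integral (E := A × B) (G := ig Γ Φ) (W := dom A B δ) (V := ball 0 δ)
    (isOpen_dom δ) (ig_diff hδR hΓ hΦ)
    (isOpen_ball (x := (0 : A × B)) (ε := δ)) fun p hp t ht => mem_dom hp ht
  refine ⟨differentiable_snd.differentiableOn.add hd, fun p hp => ?_⟩
  have h0 := (mem_ball_zero_iff.1 hp).le
  have h1 : ‖∫ t in (0 : ℝ)..1, ig Γ Φ (t, p)‖ ≤ M * δ * |1 - 0| :=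
    intervalIntegral.norm_integral_le_of_norm_le_const fun t ht => by
      have hq : ((t : ℂ) • p.1, p.2) ∈ ball (0 : A × B) δ := mem_dom hp (uI ht)
      have h2 := hM _ (mem_cb hδR hΦ hq)
      simp only [ig]
      exact (ContinuousLinearMap.le_opNorm _ _).trans
        (mul_le_mul h2 ((norm_fst_le p).trans h0) (norm_nonneg _) hM0)
  refine (norm_add_le _ _).trans ?_
  have h2 := (norm_snd_le p).trans h0
  simp only [sub_zero, abs_one, mul_one] at h1
  linarith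

omit [FiniteDimensional ℂ A] [FiniteDimensional ℂ B] in
theorem pic_contr (hδR : δ ≤ R) (hK : (K : ℝ) * δ ≤ 1 / 2)
    (hΓ : AnalyticOnNhd ℂ Γ (closedBall 0 R)) (hL : LipschitzOnWith K Γ (closedBall 0 R))
    (hΦ : Good δ R Φ) (hΦ' : Good δ R Φ') {c : ℝ}
    (hc : ∀ p ∈ ball (0 : A × B) δ, ‖Φ p - Φ' p‖ ≤ c) {p : A × B} (hp : p ∈ ball (0 : A × B) δ) :
    ‖pic Γ Φ p - pic Γ Φ' p‖ ≤ c / 2 := by
  have h0 := (norm_fst_le p).trans (mem_ball_zero_iff.1 hp).le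
  have hc0 : 0 ≤ c := (norm_nonneg _).trans (hc p hp)
  rw [pic, pic, add_sub_add_left_eq_sub,
    ← intervalIntegral.integral_sub (ig_int hδR hΓ hΦ hp) (ig_int hδR hΓ hΦ' hp)]
  refine (intervalIntegral.norm_integral_le_of_norm_le_const (C := c / 2) fun t ht => ?_).trans
    (by simp)
  have hq := mem_dom hp (uI ht)
  have h1 := hL.norm_sub_le (mem_cb hδR hΦ hq) (mem_cb hδR hΦ' hq)
  simp only [Prod.mk_sub_mk, sub_self, Prod.norm_def, norm_zero, norm_nonneg, max_eq_right] at h1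
  have h2 := hc _ hq
  simp only [ig]
  rw [← _root_.sub_apply]
  refine (ContinuousLinearMap.le_opNorm _ _).trans ?_
  calc _ ≤ (K * c) * δ := mul_le_mul (h1.trans (mul_le_mul_of_nonneg_left h2 K.2)) h0
        (norm_nonneg _) (mul_nonneg K.2 hc0)
    _ = (K * δ) * c := by ring
    _ ≤ 1 / 2 * c := mul_le_mul_of_nonneg_right hK hc0
    _ = c / 2 := by ring

theorem exists_fix (hM0 : 0 ≤ M) (hδ : δ * (1 + M) ≤ R) (hδR : δ ≤ R) (hK : (K : ℝ) * δ ≤ 1 / 2)
    (hΓ : AnalyticOnNhd ℂ Γ (closedBall 0 R)) (hM : ∀ q ∈ closedBall (0 : A × B) R, ‖Γ q‖ ≤ M)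
    (hL : LipschitzOnWith K Γ (closedBall 0 R)) :
    ∃ Ψ : A × B → B, Good δ R Ψ ∧ ∀ p ∈ ball (0 : A × B) δ, pic Γ Ψ p = Ψ p := by
  have : CompleteSpace B := FiniteDimensional.complete ℂ B
  let f : ℕ → A × B → B := fun n => (pic Γ)^[n] Prod.snd
  have hf : ∀ n, f (n + 1) = pic Γ (f n) := fun n => Function.iterate_succ_apply' _ _ _
  have hg : ∀ n, Good δ R (f n) := fun n => by
    induction n with
    | zero => exact ⟨differentiable_snd.differentiableOn, fun p hp =>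
        (norm_snd_le p).trans ((mem_ball_zero_iff.1 hp).le.trans hδR)⟩
    | succ n ih => rw [hf]; exact pic_good hM0 hδ hδR hΓ hM ih
  have hd : ∀ n, ∀ p ∈ ball (0 : A × B) δ, ‖f n p - f (n + 1) p‖ ≤ 4 * R / 2 / 2 ^ n := fun n => by
    induction n with
    | zero => exact fun p hp => (norm_sub_le _ _).trans (by
        linarith [(hg 0).2 p hp, (hg (0 + 1)).2 p hp, pow_zero (2 : ℝ), div_one (4 * R / 2)])
    | succ n ih =>
      intro p hp
      rw [hf (n + 1)]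
      nth_rewrite 1 [hf n]
      refine (pic_contr hδR hK hΓ hL (hg n) (hg (n + 1)) ih hp).trans_eq ?_
      rw [pow_succ, div_div _ (2 ^ n)]
  have hd' : ∀ p ∈ ball (0 : A × B) δ, ∀ n, dist (f n p) (f (n + 1) p) ≤ 4 * R / 2 / 2 ^ n :=
    fun p hp n => by rw [dist_eq_norm]; exact hd n p hp
  have ht : ∀ p ∈ ball (0 : A × B) δ,
      Tendsto (fun n => f n p) atTop (𝓝 (limUnder atTop fun n => f n p)) := fun p hp =>
    (cauchySeq_of_le_geometric_two (hd' p hp)).tendsto_limUnder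
  have hG : Good δ R fun p => limUnder atTop fun n => f n p := by
    refine ⟨(Vale.Agent.P274.weierstrass (l := atTop) (f := f) isOpen_ball (fun x hx => ?_) ht).1,
      fun p hp => le_of_tendsto' (ht p hp).norm fun n => (hg n).2 p hp⟩
    obtain ⟨r, hr, hrV⟩ := Metric.isOpen_iff.1 isOpen_ball x hx
    exact ⟨r, hr, R, Eventually.of_forall fun n =>
      ⟨(hg n).1.mono hrV, fun y hy => (hg n).2 y (hrV hy)⟩⟩
  refine ⟨_, hG, fun p hp => ?_⟩
  refine tendsto_nhds_unique ?_ ((ht p hp).comp (tendsto_add_atTop_nat 1))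
  rw [tendsto_iff_norm_sub_tendsto_zero]
  have h0 : Tendsto (fun n : ℕ => 4 * R / 2 ^ n / 2) atTop (𝓝 0) := by
    have := (tendsto_const_nhds (x := 4 * R)).div_atTop
      (tendsto_pow_atTop_atTop_of_one_lt (one_lt_two (α := ℝ)))
    simpa using this.div_const 2
  refine squeeze_zero (fun _ => norm_nonneg _) (fun n => ?_) h0
  simp only [Function.comp, hf]
  refine pic_contr hδR hK hΓ hL (hg n) hG (fun q hq => ?_) hp
  rw [← dist_eq_norm]
  exact dist_le_of_le_geometric_two_of_tendsto (hd' q hq) (ht q hq) n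

omit [FiniteDimensional ℂ A] in
theorem radial (hδR : δ ≤ R) (hΓ : AnalyticOnNhd ℂ Γ (closedBall 0 R)) (hΦ : Good δ R Φ)
    (hfix : ∀ p ∈ ball (0 : A × B) δ, pic Γ Φ p = Φ p) {p : A × B} (hp : p ∈ ball (0 : A × B) δ) :
    fderiv ℂ Φ p (p.1, 0) = Γ (p.1, Φ p) p.1 := by
  have : CompleteSpace B := FiniteDimensional.complete ℂ B
  have hO : IsOpen {u : ℝ | ((u : ℂ), p) ∈ dom A B δ} := (isOpen_dom δ).preimage (by fun_prop)
  have h1 : (1 : ℝ) ∈ {u : ℝ | ((u : ℂ), p) ∈ dom A B δ} := mem_dom hp ⟨zero_le_one, le_rfl⟩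
  have hc : ContinuousOn (fun u : ℝ => ig Γ Φ (u, p)) {u : ℝ | ((u : ℂ), p) ∈ dom A B δ} :=
    (ig_diff hδR hΓ hΦ).continuousOn.comp (by fun_prop) fun _ hu => hu
  have h2 := (intervalIntegral.integral_hasDerivAt_right (ig_int hδR hΓ hΦ hp)
    (hc.stronglyMeasurableAtFilter hO _ h1) (hc.continuousAt (hO.mem_nhds h1))).const_add p.2
  have h3 : HasDerivAt (fun s : ℝ => (((s : ℂ) • p.1, p.2) : A × B)) (p.1, 0) 1 := by
    simpa using (Complex.ofRealCLM.hasDerivAt (x := 1)).smul_const p.1 |>.prodMk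
      (hasDerivAt_const (1 : ℝ) p.2)
  have h4 : HasFDerivAt Φ (fderiv ℂ Φ p) ((((1 : ℝ) : ℂ) • p.1, p.2) : A × B) := by
    simpa using (hΦ.1.differentiableAt (isOpen_ball.mem_nhds hp)).hasFDerivAt
  have h5 := (h4.restrictScalars ℝ).comp_hasDerivAt (1 : ℝ) h3
  have h6 : (Φ ∘ fun s : ℝ => (((s : ℂ) • p.1, p.2) : A × B)) =ᶠ[𝓝 1]
      fun s => p.2 + ∫ u in (0 : ℝ)..s, ig Γ Φ (u, p) := by
    filter_upwards [hO.mem_nhds h1] with s hs
    have h7 := intervalIntegral.smul_integral_comp_mul_right (a := 0) (b := 1)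
      (fun u : ℝ => ig Γ Φ (u, p)) s
    rw [zero_mul, one_mul] at h7
    rw [Function.comp, ← hfix _ hs, pic, ← h7, ← intervalIntegral.integral_smul]
    congr 2
    ext t
    simp only [ig, smul_smul, Complex.ofReal_mul, map_smul]
    rw [Complex.coe_smul]
  have h8 := h5.unique (h2.congr_of_eventuallyEq h6)
  simpa [ig] using h8

end Frob1Aux

/-- Proof idea: Picard iteration `Ψ₀ p = p.2`,
`Ψₙ₊₁ (a, c) = c + ∫ t in 0..1, Γ (t • a, Ψₙ (t • a, c)) a` on a small ball (sup norm), where `Γ` is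
bounded and Lipschitz on a closed ball inside `U`. Each iterate is complex differentiable
(differentiation under the integral), the iterates converge uniformly, so the limit is holomorphic
(`Vale.Agent.P274.weierstrass`, `Vale.Agent.P274.analyticOnNhd_of_differentiableOn`) and solves the
integral equation; substituting `t ↦ t s` and differentiating at `s = 1` gives the last clause.
Any other proof is fine. -/
theorem frob_radial {Γ : A × B → A →L[ℂ] B} {U : Set (A × B)} (hU : IsOpen U) (h0 : 0 ∈ U)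
    (hΓ : AnalyticOnNhd ℂ Γ U) :
    ∃ δ > 0, ∃ Ψ : A × B → B, AnalyticOnNhd ℂ Ψ (ball 0 δ) ∧ ∀ p ∈ ball (0 : A × B) δ,
      (p.1, Ψ p) ∈ U ∧ Ψ (0, p.2) = p.2 ∧ fderiv ℂ Ψ p (p.1, 0) = Γ (p.1, Ψ p) p.1 := by
  have : CompleteSpace B := FiniteDimensional.complete ℂ B
  obtain ⟨K, t, ht, hL⟩ := ((hΓ 0 h0).contDiffAt (n := 1)).exists_lipschitzOnWith
  obtain ⟨R, hR, hRU⟩ := nhds_basis_closedBall.mem_iff.1 (inter_mem (hU.mem_nhds h0) ht)
  have hL' : LipschitzOnWith K Γ (closedBall 0 R) := hL.mono fun _ hq => (hRU hq).2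
  have hΓ' : AnalyticOnNhd ℂ Γ (closedBall 0 R) := hΓ.mono fun _ hq => (hRU hq).1
  have hM : ∀ q ∈ closedBall (0 : A × B) R, ‖Γ q‖ ≤ ‖Γ 0‖ + K * R := fun q hq => by
    have h1 := hL'.norm_sub_le hq (mem_closedBall_self hR.le)
    rw [sub_zero] at h1
    have h2 := mul_le_mul_of_nonneg_left (mem_closedBall_zero_iff.1 hq) K.2
    have h3 := norm_le_insert' (Γ q) (Γ 0)
    exact h3.trans (add_le_add le_rfl (h1.trans h2))
  have hM0 : 0 ≤ ‖Γ 0‖ + K * R := by positivity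
  set M := ‖Γ 0‖ + K * R
  have hK0 : (0 : ℝ) ≤ K := K.2
  have hδ : 0 < min (R / (1 + M)) (1 / (2 * (K + 1))) := by positivity
  have h1 : min (R / (1 + M)) (1 / (2 * (K + 1))) * (1 + M) ≤ R :=
    (le_div_iff₀ (by positivity)).1 (min_le_left _ _)
  have h2 : min (R / (1 + M)) (1 / (2 * (K + 1))) * (2 * (K + 1)) ≤ 1 :=
    (le_div_iff₀ (by positivity)).1 (min_le_right _ _)
  set δ := min (R / (1 + M)) (1 / (2 * (K + 1)))
  have hδR : δ ≤ R := by nlinarith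
  obtain ⟨Ψ, hG, hfix⟩ := Frob1Aux.exists_fix hM0 h1 hδR (by nlinarith) hΓ' hM hL'
  refine ⟨δ, hδ, Ψ, Vale.Agent.P274.analyticOnNhd_of_differentiableOn isOpen_ball hG.1,
    fun p hp => ⟨(hRU (Frob1Aux.mem_cb hδR hG hp)).1, ?_, Frob1Aux.radial hδR hΓ' hG hfix hp⟩⟩
  have h3 : ((0 : A), p.2) ∈ ball (0 : A × B) δ := by
    simpa [Frob1Aux.dom, hδ] using Frob1Aux.mem_dom hp (t := 0) ⟨le_rfl, zero_le_one⟩
  rw [← hfix _ h3]
  simp [Frob1Aux.pic, Frob1Aux.ig]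

end Vale.Agent.P278
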