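import Vale.Agent.P278.Abs

/-! The radial solution solves the total differential equation. -/

open Set Filter Topology Metric
open scoped Manifold ContDiff

namespace Vale.Agent.P278

variable {A B : Type*} [NormedAddCommGroup A] [NormedSpace ℂ A] [FiniteDimensional ℂ A]
  [NormedAddCommGroup B] [NormedSpace ℂ B] [FiniteDimensional ℂ B]


namespace Frob2Aux

/-- the defect in the total differential equation -/
noncomputable def df (Γ : A × B → A →L[ℂ] B) (Ψ : A × B → B) (v : A) (q : A × B) : B :=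
  fderiv ℂ Ψ q (v, 0) - Γ (q.1, Ψ q) v

theorem hasFDerivAt_pair {Ψ : A × B → B} {q : A × B} (hΨ : AnalyticAt ℂ Ψ q) :
    HasFDerivAt (fun q : A × B => (q.1, Ψ q))
      ((ContinuousLinearMap.fst ℂ A B).prod (fderiv ℂ Ψ q)) q :=
  hasFDerivAt_fst.prodMk hΨ.differentiableAt.hasFDerivAt

theorem line_df {Γ : A × B → A →L[ℂ] B} {Ψ : A × B → B} {z : ℂ → A × B} {s : ℂ} {w : A × B}
    (hz : HasDerivAt z w s) (hΨ : AnalyticAt ℂ Ψ (z s)) (hΓ : AnalyticAt ℂ Γ ((z s).1, Ψ (z s)))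
    {u : ℂ → A} {u' : A} (hu : HasDerivAt u u' s) :
    HasDerivAt (fun t => df Γ Ψ (u t) (z t))
      (fderiv ℂ (fderiv ℂ Ψ) (z s) w (u s, 0) -
        fderiv ℂ Γ ((z s).1, Ψ (z s)) (w.1, fderiv ℂ Ψ (z s) w) (u s) + df Γ Ψ u' (z s)) s := by
  have hc := FiniteDimensional.complete ℂ B
  have a1 : HasDerivAt (fun t => fderiv ℂ Ψ (z t)) (fderiv ℂ (fderiv ℂ Ψ) (z s) w) s :=
    hΨ.fderiv.differentiableAt.hasFDerivAt.comp_hasDerivAt s hz
  have a2 : HasDerivAt (fun t => ((u t, 0) : A × B)) (u', 0) s :=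
    hu.prodMk (hasDerivAt_const s (0 : B))
  have a3 : HasDerivAt (fun t => ((z t).1, Ψ (z t))) (w.1, fderiv ℂ Ψ (z s) w) s :=
    (hasFDerivAt_pair hΨ).comp_hasDerivAt s hz
  have a4 : HasDerivAt (fun t => Γ ((z t).1, Ψ (z t)))
      (fderiv ℂ Γ ((z s).1, Ψ (z s)) (w.1, fderiv ℂ Ψ (z s) w)) s :=
    HasFDerivAt.comp_hasDerivAt (f := fun t => ((z t).1, Ψ (z t))) s
      hΓ.differentiableAt.hasFDerivAt a3
  refine ((a1.clm_apply a2).fun_sub (a4.clm_apply hu)).congr_deriv ?_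
  simp only [df]
  abel

end Frob2Aux

open Frob2Aux

/-- Proof idea: fix `p = (x, c)` and `v`, put `z s = (s x, c)`, `G s = (s x, Ψ (z s))` and
`R s = s • (fderiv Ψ (z s) (v, 0) - Γ (G s) v)` for real `s ∈ [0,1]`. Differentiating the radial
equation in the direction `(v, 0)` and using the symmetry of the second derivative of `Ψ` and the
integrability condition, `R' s = fderiv Γ (G s) (0, R s) x`, `R 0 = 0`; Gronwall
(`norm_le_gronwallBound_of_norm_deriv_right_le`) gives `R 1 = 0`. (For `s = 0` or to divide the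
radial equation by `s`, use continuity, or work with `s R' s`.) -/
theorem frob_total {Γ : A × B → A →L[ℂ] B} {U : Set (A × B)} (hU : IsOpen U)
    (hΓ : AnalyticOnNhd ℂ Γ U)
    (hint : ∀ p ∈ U, ∀ u v : A, fderiv ℂ Γ p (u, Γ p u) v = fderiv ℂ Γ p (v, Γ p v) u)
    {δ : ℝ} {Ψ : A × B → B} (hΨ : AnalyticOnNhd ℂ Ψ (ball 0 δ))
    (h : ∀ p ∈ ball (0 : A × B) δ,
      (p.1, Ψ p) ∈ U ∧ fderiv ℂ Ψ p (p.1, 0) = Γ (p.1, Ψ p) p.1) :
    ∀ p ∈ ball (0 : A × B) δ, ∀ v : A, fderiv ℂ Ψ p (v, 0) = Γ (p.1, Ψ p) v := by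
  have hc := FiniteDimensional.complete ℂ B
  have hr : ∀ q ∈ ball (0 : A × B) δ, df Γ Ψ q.1 q = 0 := fun q hq => sub_eq_zero.2 (h q hq).2
  have key : ∀ q ∈ ball (0 : A × B) δ, ∀ v : A, fderiv ℂ (fderiv ℂ Ψ) q (q.1, 0) (v, 0) -
      fderiv ℂ Γ (q.1, Ψ q) (q.1, fderiv ℂ Ψ q (q.1, 0)) v + df Γ Ψ v q =
      fderiv ℂ Γ (q.1, Ψ q) (0, df Γ Ψ v q) q.1 := by
    intro q hq v
    have hz : HasDerivAt (fun t : ℂ => q + t • ((v, 0) : A × B)) (v, 0) 0 := by
      simpa using ((hasDerivAt_id (0 : ℂ)).smul_const ((v, 0) : A × B)).const_add q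
    have hu : HasDerivAt (fun t : ℂ => (q + t • ((v, 0) : A × B)).1) v 0 :=
      (ContinuousLinearMap.fst ℂ A B).hasFDerivAt.comp_hasDerivAt 0 hz
    have h1 := line_df (Γ := Γ) (Ψ := Ψ) hz (by simpa using hΨ q hq)
      (by simpa using hΓ _ (h q hq).1) hu
    have h2 : (fun t : ℂ => df Γ Ψ (q + t • ((v, 0) : A × B)).1 (q + t • ((v, 0) : A × B))) =ᶠ[𝓝 0]
        fun _ => 0 := by
      have h3 : ∀ᶠ t in 𝓝 (0 : ℂ), q + t • ((v, 0) : A × B) ∈ ball (0 : A × B) δ :=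
        hz.continuousAt.eventually (isOpen_ball.mem_nhds (by simpa using hq))
      exact h3.mono fun t ht => hr _ ht
    have h3 := h1.unique ((hasDerivAt_const (0 : ℂ) (0 : B)).congr_of_eventuallyEq h2)
    simp only [zero_smul, add_zero] at h3
    have h4 := (hΨ q hq).contDiffAt.isSymmSndFDerivAt_of_omega.eq (v, 0) (q.1, 0)
    have h5 := hint _ (h q hq).1 q.1 v
    have h6 : ((v, fderiv ℂ Ψ q (v, 0)) : A × B) = (v, Γ (q.1, Ψ q) v) + (0, df Γ Ψ v q) := by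
      simp [df]
    rw [h6, map_add, add_apply, h4, ← h5] at h3
    rw [(h q hq).2]
    linear_combination (norm := abel) h3
  rintro ⟨x, c⟩ hp v
  have hz : ∀ s : ℂ, HasDerivAt (fun t : ℂ => ((t • x, c) : A × B)) (x, 0) s := fun s => by
    simpa using ((hasDerivAt_id s).smul_const x).prodMk (hasDerivAt_const s c)
  have hm : ∀ s ∈ Icc (0 : ℝ) 1, (((s : ℂ) • x, c) : A × B) ∈ ball (0 : A × B) δ := by
    intro s hs
    rw [mem_ball_zero_iff] at hp ⊢
    refine lt_of_le_of_lt (max_le_max ?_ le_rfl) hp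
    rw [norm_smul, Complex.norm_real, Real.norm_of_nonneg hs.1]
    exact mul_le_of_le_one_left (norm_nonneg _) hs.2
  have hd : ∀ s ∈ Icc (0 : ℝ) 1, HasDerivAt (fun t : ℝ => df Γ Ψ ((t : ℂ) • v) ((t : ℂ) • x, c))
      (fderiv ℂ Γ ((s : ℂ) • x, Ψ ((s : ℂ) • x, c)) (0, df Γ Ψ ((s : ℂ) • v) ((s : ℂ) • x, c)) x)
      s := by
    intro s hs
    have hu : HasDerivAt (fun t : ℂ => t • v) v s := by
      simpa using (hasDerivAt_id (s : ℂ)).smul_const v
    have h1 := line_df (Γ := Γ) (Ψ := Ψ) (hz s) (hΨ _ (hm s hs)) (hΓ _ (h _ (hm s hs)).1) hu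
    have h2 := h1.scomp s (Complex.ofRealCLM.hasDerivAt (x := s))
    refine h2.congr_deriv ?_
    have h3 := key _ (hm s hs) v
    have e1 : (((s : ℂ) • x, 0) : A × B) = (s : ℂ) • (x, 0) := by simp
    have e2 : (((s : ℂ) • v, 0) : A × B) = (s : ℂ) • (v, 0) := by simp
    have e3 : ∀ b : B, (((s : ℂ) • x, (s : ℂ) • b) : A × B) = (s : ℂ) • (x, b) := fun _ => rfl
    have e4 : ∀ q, ((0, df Γ Ψ ((s : ℂ) • v) q) : A × B) = (s : ℂ) • (0, df Γ Ψ v q) := by
      intro q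
      rw [df, df, e2, map_smul, map_smul, ← smul_sub, Prod.smul_mk, smul_zero]
    simp only [e1, e3, map_smul, smul_apply] at h3
    simp only [Complex.ofRealCLM_apply, Complex.ofReal_one, one_smul, e2, e4, map_smul,
      smul_apply]
    exact h3
  have hcont : ContinuousOn (fun s : ℝ => fderiv ℂ Γ ((s : ℂ) • x, Ψ ((s : ℂ) • x, c)))
      (Icc 0 1) := by
    intro s hs
    have c1 : Continuous fun s : ℝ => (((s : ℂ) • x, c) : A × B) := by fun_prop
    have c2 : ContinuousAt (fun s : ℝ => Ψ ((s : ℂ) • x, c)) s :=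
      ContinuousAt.comp (f := fun s : ℝ => (((s : ℂ) • x, c) : A × B))
        (hΨ _ (hm s hs)).continuousAt c1.continuousAt
    exact (ContinuousAt.comp (f := fun s : ℝ => (((s : ℂ) • x, Ψ ((s : ℂ) • x, c)) : A × B))
      (hΓ _ (h _ (hm s hs)).1).fderiv.continuousAt
      (c1.continuousAt.fst.prodMk c2)).continuousWithinAt
  obtain ⟨K, hK⟩ := isCompact_Icc.exists_bound_of_continuousOn
    (E := A × B →L[ℂ] A →L[ℂ] B) hcont
  have h0 := eq_zero_of_abs_deriv_le_mul_abs_self_of_eq_zero_right (K := K * ‖x‖)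
    (fun s hs => (hd s hs).continuousAt.continuousWithinAt)
    (fun s hs => (hd s (Ico_subset_Icc_self hs)).hasDerivWithinAt) (by simp [df, Prod.mk_zero_zero])
    (fun s hs => ?_) 1 (right_mem_Icc.2 zero_le_one)
  · simpa [df, sub_eq_zero] using h0
  · refine (ContinuousLinearMap.le_opNorm₂ _ _ _).trans ?_
    rw [Prod.norm_mk, norm_zero, max_eq_right (norm_nonneg _), mul_right_comm]
    gcongr
    exact hK s (Ico_subset_Icc_self hs)

end Vale.Agent.P278
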