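import Vale.Agent.P278.Frob1
import Vale.Agent.P278.Frob2

/-! First integrals of an integrable graph distribution. -/

open Set Filter Topology Metric
open scoped Manifold ContDiff

namespace Vale.Agent.P278

variable {A B : Type*} [NormedAddCommGroup A] [NormedSpace ℂ A] [FiniteDimensional ℂ A]
  [NormedAddCommGroup B] [NormedSpace ℂ B] [FiniteDimensional ℂ B]


namespace Frob3Aux

theorem at_zero {Γ : A × B → A →L[ℂ] B} {U : Set (A × B)} (hU : IsOpen U)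
    (h0 : 0 ∈ U) (hΓ : AnalyticOnNhd ℂ Γ U)
    (hint : ∀ p ∈ U, ∀ u v : A, fderiv ℂ Γ p (u, Γ p u) v = fderiv ℂ Γ p (v, Γ p v) u) :
    ∃ ψ : A × B → B, AnalyticAt ℂ ψ 0 ∧ (∀ᶠ p in 𝓝 0, ∀ u, fderiv ℂ ψ p (u, Γ p u) = 0) ∧
      ∀ x, fderiv ℂ ψ 0 (0, x) = x := by
  have hcA := FiniteDimensional.complete ℂ A
  have hcB := FiniteDimensional.complete ℂ B
  obtain ⟨δ, hδ, Ψ, hΨ, h⟩ := frob_radial hU h0 hΓ
  have ht := frob_total hU hΓ hint hΨ fun p hp => ⟨(h p hp).1, (h p hp).2.2⟩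
  have hb : (0 : A × B) ∈ ball (0 : A × B) δ := mem_ball_self hδ
  have hn : ball (0 : A × B) δ ∈ 𝓝 (0 : A × B) := ball_mem_nhds _ hδ
  have z0 : Ψ 0 = 0 := (h 0 hb).2.1
  have d0 : ∀ x, fderiv ℂ Ψ 0 (0, x) = x := by
    intro x
    have h1 : HasFDerivAt (fun c : B => Ψ (0, c))
        ((fderiv ℂ Ψ 0).comp (ContinuousLinearMap.inr ℂ A B)) 0 :=
      HasFDerivAt.comp (f := fun c : B => ((0, c) : A × B)) 0
        (hΨ 0 hb).differentiableAt.hasFDerivAt (ContinuousLinearMap.inr ℂ A B).hasFDerivAt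
    have h2 : (fun c : B => Ψ (0, c)) =ᶠ[𝓝 0] id := by
      have h3 : ∀ᶠ c in 𝓝 (0 : B), ((0, c) : A × B) ∈ ball (0 : A × B) δ :=
        (Continuous.prodMk_right (0 : A)).continuousAt.eventually hn
      exact h3.mono fun c hc => (h _ hc).2.1
    simpa using congrArg (fun L : B →L[ℂ] B => L x)
      (h1.unique ((hasFDerivAt_id (0 : B)).congr_of_eventuallyEq h2))
  obtain ⟨Θ, hΘ⟩ : ∃ Θ : A × B → A × B, Θ = fun p => (p.1, Ψ p) := ⟨_, rfl⟩
  have Θ0 : Θ 0 = 0 := by rw [hΘ]; simp [z0]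
  have dΘ : ∀ p ∈ ball (0 : A × B) δ,
      HasFDerivAt Θ ((ContinuousLinearMap.fst ℂ A B).prod (fderiv ℂ Ψ p)) p := fun p hp =>
    hΘ ▸ Frob2Aux.hasFDerivAt_pair (hΨ p hp)
  have aΘ : ContDiffAt ℂ ω Θ 0 := hΘ ▸ (analyticAt_fst.prod (hΨ 0 hb)).contDiffAt
  let e : (A × B) ≃L[ℂ] A × B :=
    (ContinuousLinearEquiv.refl ℂ A).skewProd (ContinuousLinearEquiv.refl ℂ B) (Γ 0)
  have de : HasFDerivAt Θ (e : A × B →L[ℂ] A × B) 0 := by
    refine (dΘ 0 hb).congr_fderiv (ContinuousLinearMap.ext fun ⟨u, x⟩ => ?_)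
    have h1 := ht 0 hb u
    rw [z0] at h1
    have h2 : ((u, x) : A × B) = (0, x) + (u, 0) := by simp
    refine Prod.ext rfl ?_
    change fderiv ℂ Ψ 0 (u, x) = x + Γ 0 u
    rw [h2, map_add, d0, h1]
    rfl
  have hs := aΘ.hasStrictFDerivAt' de (by simp)
  obtain ⟨Φ, aΦ, hl, hr, hten⟩ : ∃ Φ : A × B → A × B, AnalyticAt ℂ Φ 0 ∧
      (∀ᶠ p in 𝓝 0, Φ (Θ p) = p) ∧ (∀ᶠ q in 𝓝 0, Θ (Φ q) = q) ∧ Tendsto Φ (𝓝 0) (𝓝 0) := by
    have h1 := (aΘ.to_localInverse de (by simp)).analyticAt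
    have h2 := hs.eventually_right_inverse
    have h3 := hs.localInverse_tendsto
    rw [Θ0] at h1 h2 h3
    exact ⟨_, h1, hs.eventually_left_inverse, h2, h3⟩
  have aψ : AnalyticAt ℂ (fun q => (Φ q).2) 0 := analyticAt_snd.comp aΦ
  have tΘ : Tendsto Θ (𝓝 0) (𝓝 0) := by simpa [ContinuousAt, Θ0] using de.continuousAt
  have key : ∀ᶠ p in 𝓝 (0 : A × B), p ∈ ball (0 : A × B) δ ∧
      ∀ w : A × B, fderiv ℂ (fun q => (Φ q).2) (Θ p) (w.1, fderiv ℂ Ψ p w) = w.2 := by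
    filter_upwards [hn, hl.eventually_nhds, tΘ.eventually aψ.eventually_analyticAt]
      with p hp h1 h2
    refine ⟨hp, fun w => ?_⟩
    have h3 := h2.differentiableAt.hasFDerivAt.comp p (dΘ p hp)
    have h4 : ((fun q => (Φ q).2) ∘ Θ) =ᶠ[𝓝 p] Prod.snd :=
      h1.mono fun q hq => congrArg Prod.snd hq
    exact congrArg (fun L : A × B →L[ℂ] B => L w)
      (h3.unique (hasFDerivAt_snd.congr_of_eventuallyEq h4))
  refine ⟨_, aψ, ?_, fun x => ?_⟩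
  · filter_upwards [hten.eventually key, hr] with q h1 h2 u
    have h3 := h1.2 (u, 0)
    have h4 : ((Φ q).1, Ψ (Φ q)) = q := by rw [hΘ] at h2; exact h2
    rwa [ht _ h1.1 u, h2, h4] at h3
  · have h1 := key.self_of_nhds.2 (0, x)
    rwa [d0, Θ0] at h1

end Frob3Aux

/-- Proof idea: translate `p₀` to `0`; `Θ (a, c) = (a, Ψ (a, c))` has derivative
`(u, x) ↦ (u, Γ 0 u + x)` at `0`, which is invertible; let `ψ` be the second component of the
analytic local inverse (`ContDiffAt.toOpenPartialHomeomorph`, `ContDiffAt.to_localInverse` with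
`n = ω`, or `OpenPartialHomeomorph.analyticAt_symm'`). -/
theorem frob_integral {Γ : A × B → A →L[ℂ] B} {U : Set (A × B)} (hU : IsOpen U) {p₀ : A × B}
    (h0 : p₀ ∈ U) (hΓ : AnalyticOnNhd ℂ Γ U)
    (hint : ∀ p ∈ U, ∀ u v : A, fderiv ℂ Γ p (u, Γ p u) v = fderiv ℂ Γ p (v, Γ p v) u) :
    ∃ ψ : A × B → B, AnalyticAt ℂ ψ p₀ ∧ (∀ᶠ p in 𝓝 p₀, ∀ u, fderiv ℂ ψ p (u, Γ p u) = 0) ∧
      ∀ x, fderiv ℂ ψ p₀ (0, x) = x := by
  have hc : Continuous fun q : A × B => q + p₀ := by fun_prop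
  obtain ⟨ψ, h1, h2, h3⟩ := Frob3Aux.at_zero (Γ := fun q => Γ (q + p₀))
    (U := (fun q => q + p₀) ⁻¹' U) (hU.preimage hc) (by simpa using h0)
    (fun q hq => AnalyticAt.comp (f := fun q => q + p₀) (hΓ _ hq) (by fun_prop))
    (fun q hq u v => by simpa only [fderiv_comp_add_right] using hint _ hq u v)
  have ht : Tendsto (fun q : A × B => q - p₀) (𝓝 p₀) (𝓝 0) :=
    tendsto_sub_nhds_zero_iff.2 tendsto_id
  refine ⟨fun q => ψ (q - p₀), AnalyticAt.comp (f := fun q => q - p₀) (by simpa using h1)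
    (by fun_prop), ?_, fun x => ?_⟩
  · filter_upwards [ht.eventually h2] with q hq u
    simpa only [fderiv_comp_sub, sub_add_cancel] using hq u
  · rw [fderiv_comp_sub, sub_self, h3]

end Vale.Agent.P278
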