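import Vale.Agent.P278.Mono

/-! Monodromy theorem for a locally constant family of germs. -/

open Set Filter Topology Metric
open scoped Manifold ContDiff

namespace Vale.Agent.P278

namespace GermAux

variable {Z Y : Type*} [TopologicalSpace Z]

/-- The class of all functions with the same germ at `x`. -/
def cl (x : Z) (ψ : Z → Y) : Set (Z → Y) := {φ | φ =ᶠ[𝓝 x] ψ}

/-- The space of admissible germs. -/
def Et (G : Z → (Z → Y) → Prop) : Type _ :=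
  {e : Z × Set (Z → Y) // ∃ ψ, G e.1 ψ ∧ e.2 = cl e.1 ψ}

variable {G : Z → (Z → Y) → Prop}

/-- The base point. -/
def pt (e : Et G) : Z := e.1.1

theorem ex_rep (e : Et G) : ∃ ψ, ψ ∈ e.1.2 := by
  obtain ⟨ψ, -, h⟩ := e.2
  exact ⟨ψ, h ▸ EventuallyEq.refl _ _⟩

theorem rep_eq {e : Et G} {φ ψ : Z → Y} (h : φ ∈ e.1.2) (h' : ψ ∈ e.1.2) : φ =ᶠ[𝓝 (pt e)] ψ := by
  obtain ⟨χ, -, hχ⟩ := e.2
  rw [hχ] at h h'
  exact EventuallyEq.trans h (EventuallyEq.symm h')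

theorem rep_congr {e : Et G} {φ ψ : Z → Y} (h : φ ∈ e.1.2) (h' : ψ =ᶠ[𝓝 (pt e)] φ) :
    ψ ∈ e.1.2 := by
  obtain ⟨χ, -, hχ⟩ := e.2
  rw [hχ] at h ⊢
  exact EventuallyEq.trans h' h

theorem rep_good (congr : ∀ x ψ ψ', G x ψ → ψ =ᶠ[𝓝 x] ψ' → G x ψ') {e : Et G} {φ : Z → Y}
    (h : φ ∈ e.1.2) : G (pt e) φ := by
  obtain ⟨χ, h1, hχ⟩ := e.2
  rw [hχ] at h
  exact congr _ _ _ h1 (EventuallyEq.symm h)

theorem et_ext {e e' : Et G} {φ : Z → Y} (hp : pt e = pt e') (h : φ ∈ e.1.2) (h' : φ ∈ e'.1.2) :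
    e = e' :=
  Subtype.ext (Prod.ext hp (Set.ext fun _ =>
    ⟨fun a => rep_congr h' (hp ▸ rep_eq a h), fun a => rep_congr h (hp ▸ rep_eq a h')⟩))

instance : TopologicalSpace (Et G) where
  IsOpen O := ∀ e ∈ O, ∀ ψ ∈ e.1.2, ∀ᶠ x in 𝓝 (pt e), ∀ e' : Et G, pt e' = x → ψ ∈ e'.1.2 → e' ∈ O
  isOpen_univ := fun _ _ _ _ => Eventually.of_forall fun _ _ _ _ => trivial
  isOpen_inter := fun _ _ h h' e he ψ hψ =>
    ((h e he.1 ψ hψ).and (h' e he.2 ψ hψ)).mono fun _ a e' b c => ⟨a.1 e' b c, a.2 e' b c⟩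
  isOpen_sUnion := fun _ h e ⟨O, hO, he⟩ ψ hψ =>
    (h O hO e he ψ hψ).mono fun _ a e' b c => ⟨O, hO, a e' b c⟩

theorem isOpen_box {U : Set Z} (hU : IsOpen U) (ψ : Z → Y) :
    IsOpen {e : Et G | pt e ∈ U ∧ ψ ∈ e.1.2} := by
  intro e he φ hφ
  filter_upwards [hU.mem_nhds he.1, (rep_eq he.2 hφ).eventuallyEq_nhds] with x a b e' c d
  exact ⟨c ▸ a, rep_congr d (c ▸ b)⟩

theorem continuous_pt : Continuous (pt : Et G → Z) :=
  ⟨fun _ hU _ he _ _ => Filter.mem_of_superset (hU.mem_nhds he) fun _ a _ c _ =>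
    show pt _ ∈ _ from c ▸ a⟩

open Classical in
/-- The section given by a function. -/
noncomputable def sec (e₀ : Et G) (ψ : Z → Y) (x : Z) : Et G :=
  if h : G x ψ then ⟨(x, cl x ψ), ψ, h, rfl⟩ else e₀

theorem sec_spec (e₀ : Et G) {ψ : Z → Y} {x : Z} (h : G x ψ) :
    pt (sec e₀ ψ x) = x ∧ ψ ∈ (sec e₀ ψ x).1.2 := by
  have e : sec e₀ ψ x = ⟨(x, cl x ψ), ψ, h, rfl⟩ := dif_pos h
  rw [e]
  exact ⟨rfl, EventuallyEq.refl _ _⟩

theorem sec_cont (e₀ : Et G) {ψ : Z → Y} {W : Set Z} (hW : IsOpen W) (h : ∀ x ∈ W, G x ψ) :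
    ContinuousOn (sec e₀ ψ) W := by
  intro x hx
  refine ContinuousAt.continuousWithinAt fun O hO => ?_
  obtain ⟨O', a1, a2, a3⟩ := mem_nhds_iff.1 hO
  have a4 := a2 _ a3 ψ (sec_spec e₀ (h x hx)).2
  rw [(sec_spec e₀ (h x hx)).1] at a4
  rw [mem_map]
  filter_upwards [a4, hW.mem_nhds hx] with y b1 b2
  exact a1 (b1 _ (sec_spec e₀ (h y b2)).1 (sec_spec e₀ (h y b2)).2)

end GermAux

open GermAux in
/-- Proof idea: let `E` be the type of pairs `(x, γ)` with `γ : Filter.Germ (𝓝 x) Y` the germ of some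
`ψ` with `G x ψ`, with the topology generated by the sets `{(x, ↑ψ) | x ∈ U}`, `U` open and `G x ψ`
on `U`. The projection is a separated local homeomorphism with the local section property of
`exists_section` (on the interior of `V`); evaluate the global section. -/
theorem germ_mono {Z Y : Type*} [TopologicalSpace Z] [SimplyConnectedSpace Z]
    [LocallyPathConnectedSpace Z] (G : Z → (Z → Y) → Prop)
    (congr : ∀ x ψ ψ', G x ψ → ψ =ᶠ[𝓝 x] ψ' → G x ψ')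
    (ext : ∀ x, ∃ V ∈ 𝓝 x, ∀ x' ∈ V, ∀ ψ, G x' ψ → ∃ ψ', ψ' =ᶠ[𝓝 x'] ψ ∧ ∀ x'' ∈ V, G x'' ψ')
    (sep : ∀ x ψ ψ', G x ψ → G x ψ' → (∃ᶠ x' in 𝓝 x, ψ =ᶠ[𝓝 x'] ψ') → ψ =ᶠ[𝓝 x] ψ')
    {x₀ : Z} {ψ₀ : Z → Y} (h₀ : G x₀ ψ₀) : ∃ ψ, ψ =ᶠ[𝓝 x₀] ψ₀ ∧ ∀ x, G x ψ := by
  have LS : ∀ b : Z, ∃ W, IsOpen W ∧ b ∈ W ∧ ∀ e : Et G, pt e ∈ W →
      ∃ ψ ∈ e.1.2, ∀ x ∈ W, G x ψ := by
    intro b
    obtain ⟨V, hV, h⟩ := ext b
    refine ⟨interior V, isOpen_interior, mem_interior_iff_mem_nhds.2 hV, fun e he => ?_⟩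
    obtain ⟨φ, hφ⟩ := ex_rep e
    obtain ⟨ψ, a1, a2⟩ := h _ (interior_subset he) φ (rep_good congr hφ)
    exact ⟨ψ, rep_congr hφ a1, fun x hx => a2 x (interior_subset hx)⟩
  have hp : IsLocalHomeomorph (pt : Et G → Z) := by
    intro e
    obtain ⟨W, hW, he, h⟩ := LS (pt e)
    obtain ⟨ψ, a1, a2⟩ := h e he
    exact ⟨{
      toFun := pt
      invFun := sec e ψ
      source := {e' | pt e' ∈ W ∧ ψ ∈ e'.1.2}
      target := W
      map_source' := fun _ a => a.1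
      map_target' := fun x hx => ⟨(sec_spec e (a2 x hx)).1.symm ▸ hx, (sec_spec e (a2 x hx)).2⟩
      left_inv' := fun e' a => et_ext (sec_spec e (a2 _ a.1)).1 (sec_spec e (a2 _ a.1)).2 a.2
      right_inv' := fun x hx => (sec_spec e (a2 x hx)).1
      open_source := isOpen_box hW ψ
      open_target := hW
      continuousOn_toFun := continuous_pt.continuousOn
      continuousOn_invFun := sec_cont e hW a2 }, ⟨he, a1⟩, rfl⟩
  have hs : IsSeparatedMap (pt : Et G → Z) := by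
    intro e e' h hne
    obtain ⟨φ, hφ⟩ := ex_rep e
    obtain ⟨ψ, hψ⟩ := ex_rep e'
    have a1 : ¬ ∃ᶠ x in 𝓝 (pt e), φ =ᶠ[𝓝 x] ψ := fun a =>
      hne (et_ext h hφ (rep_congr hψ
        (h ▸ sep _ _ _ (rep_good congr hφ) (h ▸ rep_good congr hψ) a)))
    obtain ⟨U, a2, a3, a4⟩ := eventually_nhds_iff.1 (not_frequently.1 a1)
    exact ⟨_, _, isOpen_box a3 φ, isOpen_box a3 ψ, ⟨a4, hφ⟩, ⟨h ▸ a4, hψ⟩,
      Set.disjoint_left.2 fun d b1 b2 => a2 _ b1.1 (rep_eq b1.2 b2.2)⟩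
  obtain ⟨s, s1, s2, s3⟩ := exists_section hp hs (fun b => by
    obtain ⟨W, hW, hb, h⟩ := LS b
    refine ⟨W, hW.mem_nhds hb, fun e he => ?_⟩
    obtain ⟨ψ, a1, a2⟩ := h e he
    exact ⟨sec e ψ, sec_cont e hW a2, fun x hx => (sec_spec e (a2 x hx)).1,
      et_ext (sec_spec e (a2 _ he)).1 (sec_spec e (a2 _ he)).2 a1⟩) ⟨(x₀, cl x₀ ψ₀), ψ₀, h₀, rfl⟩
  choose r hr using fun x => ex_rep (s x)
  have key : ∀ x φ, φ ∈ (s x).1.2 → φ =ᶠ[𝓝 x] fun y => r y y := by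
    intro x φ hφ
    have a1 := s1.continuousAt.preimage_mem_nhds
      ((isOpen_box isOpen_univ φ).mem_nhds ⟨mem_univ _, hφ⟩)
    filter_upwards [a1] with y hy
    have a2 := (rep_eq hy.2 (hr y)).self_of_nhds
    rwa [s2] at a2
  refine ⟨fun y => r y y, (key x₀ ψ₀ ?_).symm, fun x => ?_⟩
  · have a1 : s x₀ = _ := s3
    rw [a1]
    exact EventuallyEq.refl _ _
  · have a1 := rep_good congr (hr x)
    rw [s2] at a1
    exact congr x _ _ a1 (key x _ (hr x))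

end Vale.Agent.P278
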