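import Vale.Agent.P278.Basic

/-! Gluing of local extensions along a compact convex set. -/

open Set Filter Topology Metric
open scoped Manifold ContDiff

namespace Vale.Agent.P278

variable {A B A' B' D : Type*} [NormedAddCommGroup A] [NormedSpace ℂ A]
  [NormedAddCommGroup B] [NormedSpace ℂ B] [NormedAddCommGroup A'] [NormedSpace ℂ A']
  [NormedAddCommGroup B'] [NormedSpace ℂ B'] [NormedAddCommGroup D] [NormedSpace ℂ D]
  {Z : Type*} [TopologicalSpace Z] {𝒜 : ProdAtlas Z A B}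

/-- Proof idea. Lebesgue number: `δ > 0` with every `ball p δ`, `p ∈ S`, inside some `W p'`; call
`G p` the corresponding map. If `z ∈ ball p δ ∩ ball q δ`, the midpoint of `p, q` lies in `S` and in
both balls, so the open convex set `ball p δ ∩ ball q δ` meets `S₀`, and `ident` gives
`G p = G q` near `z`. Define `F' z = G (p z) z` for a chosen `p z ∈ S` with `dist z (p z) < δ`. -/
theorem glue [T2Space Z] [CompleteSpace A] [CompleteSpace B] {S S₀ : Set (A' × B')}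
    (hS : IsCompact S) (hc : Convex ℝ S) (h₀ : S₀ ⊆ S) (hd : S ⊆ closure S₀) {F : A' × B' → Z}
    (h : ∀ p ∈ S, ∃ (W : Set (A' × B')) (G : A' × B' → Z), IsOpen W ∧ p ∈ W ∧
      (∀ q ∈ W, CompatAt 𝒜 G q) ∧ ∀ m ∈ S₀, m ∈ W → G =ᶠ[𝓝 m] F) :
    ∃ δ > 0, ∃ F' : A' × B' → Z, (∀ q ∈ thickening δ S, CompatAt 𝒜 F' q) ∧
      ∀ m ∈ S₀, F' =ᶠ[𝓝 m] F := by
  classical
  have : Nonempty (A' × B' → Z) := ⟨F⟩
  choose! W G₀ h1 h2 h3 h4 using h
  obtain ⟨δ, hδ, h5⟩ := lebesgue_number_lemma_of_metric (c := fun p : S => W p) hS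
    (fun p => h1 p p.2) fun p hp => mem_iUnion.2 ⟨⟨p, hp⟩, h2 p hp⟩
  have h6 : ∀ p ∈ S, ∃ G : A' × B' → Z, (∀ q ∈ ball p δ, CompatAt 𝒜 G q) ∧
      ∀ m ∈ S₀, m ∈ ball p δ → G =ᶠ[𝓝 m] F := fun p hp => by
    obtain ⟨i, hi⟩ := h5 p hp
    exact ⟨G₀ i, fun q hq => h3 i i.2 q (hi hq), fun m hm hq => h4 i i.2 m hm (hi hq)⟩
  choose! G g1 g2 using h6
  have key : ∀ p ∈ S, ∀ q ∈ S, ∀ z ∈ ball p δ ∩ ball q δ, G p =ᶠ[𝓝 z] G q := by
    intro p hp q hq z hz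
    have e : dist p q < 2 * δ := by
      linarith [dist_triangle_left p q z, mem_ball.1 hz.1, mem_ball.1 hz.2]
    obtain ⟨m, hm, hm'⟩ := mem_closure_iff.1 (hd (hc.midpoint_mem hp hq)) (ball p δ ∩ ball q δ)
      (isOpen_ball.inter isOpen_ball)
      ⟨by rw [mem_ball, dist_midpoint_left, Real.norm_two]; linarith,
        by rw [mem_ball, dist_midpoint_right, Real.norm_two]; linarith⟩
    exact ident ((convex_ball p δ).inter (convex_ball q δ)).isPreconnected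
      (fun x hx => (g1 p hp x hx.1).holAt) (fun x hx => (g1 q hq x hx.2).holAt) hm
      ((g2 p hp m hm' hm.1).trans (g2 q hq m hm' hm.2).symm) z hz
  obtain ⟨F', hF'⟩ : ∃ F' : A' × B' → Z, ∀ p ∈ S, ∀ z ∈ ball p δ, G p z = F' z := by
    refine ⟨fun z => if h : ∃ p ∈ S, z ∈ ball p δ then G h.choose z else F z, fun p hp z hz => ?_⟩
    have h : ∃ p ∈ S, z ∈ ball p δ := ⟨p, hp, hz⟩
    simp only [dif_pos h]
    exact (key p hp _ h.choose_spec.1 z ⟨hz, h.choose_spec.2⟩).eq_of_nhds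
  have h7 : ∀ p ∈ S, ∀ z ∈ ball p δ, G p =ᶠ[𝓝 z] F' := fun p hp z hz =>
    mem_of_superset (isOpen_ball.mem_nhds hz) (hF' p hp)
  refine ⟨δ, hδ, F', fun q hq => ?_, fun m hm => (h7 m (h₀ hm) m (mem_ball_self hδ)).symm.trans
    (g2 m (h₀ hm) m hm (mem_ball_self hδ))⟩
  obtain ⟨p, hp, hq⟩ := mem_thickening_iff.1 hq
  exact (g1 p hp q hq).congr (h7 p hp q hq)

/-- Proof idea: the conditions on `G₁` and `G₂` are open (`HorAt.eventually`, continuity), so they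
hold on thickenings (`IsCompact.exists_thickening_subset_open`); then `compatAt_symm`. -/
theorem localExt [CompleteSpace A] [CompleteSpace B] {φ : OpenPartialHomeomorph Z (A × B)}
    (hφ : φ ∈ 𝒜.charts) {q : A × B} {R : ℝ} (hq : ball q R ⊆ φ.target) {S₁ : Set A'}
    {S₂ : Set B'} (h₁ : IsCompact S₁) (h₂ : IsCompact S₂) {G₁ : A' → Z} {G₂ : B' → Z}
    (hG₁ : ∀ s ∈ S₁, HorAt 𝒜 G₁ s ∧ G₁ s ∈ φ.source ∧ φ (G₁ s) ∈ ball q R)
    (hG₂ : ∀ t ∈ S₂, VerAt 𝒜 G₂ t ∧ G₂ t ∈ φ.source ∧ φ (G₂ t) ∈ ball q R) :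
    ∃ δ > 0, ∀ p ∈ thickening δ S₁ ×ˢ thickening δ S₂,
      CompatAt 𝒜 (fun p : A' × B' => φ.symm ((φ (G₁ p.1)).1, (φ (G₂ p.2)).2)) p := by
  obtain ⟨δ₁, d₁, e₁⟩ := h₁.exists_thickening_subset_open isOpen_interior
    (t := interior {s | HorAt 𝒜 G₁ s ∧ G₁ s ∈ φ.source ∧ φ (G₁ s) ∈ ball q R}) fun s hs =>
    mem_interior_iff_mem_nhds.2 ((hG₁ s hs).1.eventually.and
      (((hG₁ s hs).1.1.eventually (φ.open_source.mem_nhds (hG₁ s hs).2.1)).and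
        (((φ.continuousAt (hG₁ s hs).2.1).comp (hG₁ s hs).1.1).eventually
          (isOpen_ball.mem_nhds (hG₁ s hs).2.2))))
  obtain ⟨δ₂, d₂, e₂⟩ := h₂.exists_thickening_subset_open isOpen_interior
    (t := interior {s | VerAt 𝒜 G₂ s ∧ G₂ s ∈ φ.source ∧ φ (G₂ s) ∈ ball q R}) fun s hs =>
    mem_interior_iff_mem_nhds.2 ((hG₂ s hs).1.eventually.and
      (((hG₂ s hs).1.1.eventually (φ.open_source.mem_nhds (hG₂ s hs).2.1)).and
        (((φ.continuousAt (hG₂ s hs).2.1).comp (hG₂ s hs).1.1).eventually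
          (isOpen_ball.mem_nhds (hG₂ s hs).2.2))))
  refine ⟨min δ₁ δ₂, lt_min d₁ d₂, fun p hp => ?_⟩
  obtain ⟨a1, a2, a3⟩ := interior_subset (e₁ (thickening_mono (min_le_left _ _) _ hp.1))
  obtain ⟨b1, b2, b3⟩ := interior_subset (e₂ (thickening_mono (min_le_right _ _) _ hp.2))
  rw [← ball_prod_same] at a3 b3
  exact compatAt_symm (f₁ := fun a => (φ (G₁ a)).1) (f₂ := fun b => (φ (G₂ b)).2) hφ
    (hq (by rw [← ball_prod_same]; exact ⟨a3.1, b3.2⟩))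
    (analyticAt_fst.comp (a1.holAt.2 φ hφ a2)) (analyticAt_snd.comp (b1.holAt.2 φ hφ b2))

end Vale.Agent.P278
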