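import Vale.Agent.P278.HolBasic

/-! Local properties of holonomy projections. -/

open Set Filter Topology Metric
open scoped Manifold ContDiff

namespace Vale.Agent.P278

variable {A B A' B' D : Type*} [NormedAddCommGroup A] [NormedSpace ℂ A]
  [NormedAddCommGroup B] [NormedSpace ℂ B] [NormedAddCommGroup A'] [NormedSpace ℂ A']
  [NormedAddCommGroup B'] [NormedSpace ℂ B'] [NormedAddCommGroup D] [NormedSpace ℂ D]
  {Z : Type*} [TopologicalSpace Z] {𝒜 : ProdAtlas Z A B}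

theorem Good.congr {x : Z} {ψ ψ' : Z → Z} (h : Good 𝒜 x ψ) (he : ψ =ᶠ[𝓝 x] ψ') :
    Good 𝒜 x ψ' := by
  obtain ⟨φ, hφ, hx, g₁, h1, h2⟩ := h
  exact ⟨φ, hφ, hx, g₁, h1, he.symm.trans h2⟩

/-- Independence of the chart. With `φ ∘ φ'.symm = f₁ × f₂` near `φ' x`, put
`κ a = f₁ ((φ' x).1 + a) - (φ x).1`; then `plaque φ' x = plaque φ x ∘ κ` near `0`; use
`Hol.comp` and `hol_of_eventuallyEq`. -/
theorem Good.chart {x : Z} {ψ : Z → Z} (h : Good 𝒜 x ψ) {φ : OpenPartialHomeomorph Z (A × B)}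
    (hφ : φ ∈ 𝒜.charts) (hx : x ∈ φ.source) :
    ∃ g₁ : A → Z, Hol 𝒜 (plaque φ x) g₁ ∧ HorEt 𝒜 g₁ 0 ∧ g₁ 0 = ψ x ∧
      ψ =ᶠ[𝓝 x] fun y => g₁ ((φ y).1 - (φ x).1) := by
  obtain ⟨φ₀, hφ₀, hx₀, g₁, h1, h2⟩ := h
  obtain ⟨f₁, f₂, k₁, k₂, he⟩ := 𝒜.compat φ hφ φ₀ hφ₀ x hx hx₀
  have e : φ₀ x = (f₁ (φ x).1, f₂ (φ x).2) := by
    have := he.eq_of_nhds
    simpa [φ.left_inv hx] using this
  set κ : A → A := fun a => f₁ ((φ x).1 + a) - (φ₀ x).1 with hκ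
  have hκa : AnalyticAt ℂ κ 0 :=
    (AnalyticAt.comp (g := f₁) (f := fun a => (φ x).1 + a) (by simpa using k₁)
      (analyticAt_const.add analyticAt_id)).sub analyticAt_const
  have hκ0 : κ 0 = 0 := by simp [hκ, e]
  have t : Tendsto (fun a : A => ((φ x).1 + a, (φ x).2)) (𝓝 0) (𝓝 (φ x)) :=
    (by fun_prop : Continuous fun a : A => ((φ x).1 + a, (φ x).2)).tendsto' _ _ (by simp)
  have e1 : plaque φ x =ᶠ[𝓝 0] plaque φ₀ x ∘ κ := by
    filter_upwards [t.eventually he,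
      ((φ.tendsto_symm hx).comp t).eventually (φ₀.open_source.mem_nhds hx₀)] with a a1 a2
    simp only [Function.comp_apply] at a1 a2
    simp only [plaque, Function.comp_apply, hκ, add_sub_cancel]
    rw [← φ₀.left_inv a2, a1, e]
  have hh : Hol 𝒜 (plaque φ x) (g₁ ∘ κ) :=
    (hol_of_eventuallyEq (horEt_plaque hφ hx).horAt e1).trans (h1.comp hκa hκ0)
  have e2 : ψ =ᶠ[𝓝 x] fun y => (g₁ ∘ κ) ((φ y).1 - (φ x).1) := by
    filter_upwards [h2, (φ.continuousAt hx).eventually he, φ.open_source.mem_nhds hx]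
      with y a1 a2 a3
    simp only [Function.comp_apply, φ.left_inv a3] at a2
    simp only [a1, Function.comp_apply, hκ, add_sub_cancel, a2]
  refine ⟨g₁ ∘ κ, hh, hh.horEt_iff.1 (horEt_plaque hφ hx), ?_, e2⟩
  simpa using e2.eq_of_nhds.symm

theorem Good.continuousAt {x : Z} {ψ : Z → Z} (h : Good 𝒜 x ψ) : ContinuousAt ψ x := by
  obtain ⟨φ, hφ, hx⟩ := 𝒜.cover x
  obtain ⟨g₁, -, h2, -, h4⟩ := h.chart hφ hx
  refine ContinuousAt.congr ?_ h4.symm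
  refine ContinuousAt.comp (f := fun y => (φ y).1 - (φ x).1) (by simpa using h2.1) ?_
  exact (φ.continuousAt hx).fst.sub continuousAt_const

theorem Good.holAt_comp {ψ : Z → Z} {u : D → Z} {m : D} (h : Good 𝒜 (u m) ψ)
    (hu : HolAt 𝒜 u m) : HolAt 𝒜 (ψ ∘ u) m := by
  obtain ⟨φ, hφ, hx⟩ := 𝒜.cover (u m)
  obtain ⟨g₁, -, h2, -, h4⟩ := h.chart hφ hx
  have hk : AnalyticAt ℂ (fun d => (φ (u d)).1 - (φ (u m)).1) m :=
    (AnalyticAt.comp (g := Prod.fst) (f := φ ∘ u) analyticAt_fst (hu.2 φ hφ hx)).sub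
      analyticAt_const
  have := HolAt.comp (𝒜 := 𝒜) (F := g₁) (by simpa using h2.horAt.holAt) hk
  exact this.congr (EventuallyEq.symm (hu.1.eventually h4))

/-- Use `ident` for `ψ ∘ φ.symm` and `ψ' ∘ φ.symm` on a small ball (`HolAt.eventually`). -/
theorem Good.sep [T2Space Z] [CompleteSpace A] [CompleteSpace B] {x : Z} {ψ ψ' : Z → Z}
    (h : Good 𝒜 x ψ) (h' : Good 𝒜 x ψ') (hf : ∃ᶠ x' in 𝓝 x, ψ =ᶠ[𝓝 x'] ψ') :
    ψ =ᶠ[𝓝 x] ψ' := by
  obtain ⟨φ, hφ, hx⟩ := 𝒜.cover x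
  have hs : HolAt 𝒜 φ.symm (φ x) := holAt_symm (T := id) hφ (φ.map_source hx) analyticAt_id
  have a1 := Good.holAt_comp (ψ := ψ) (u := φ.symm) (m := φ x) (by rwa [φ.left_inv hx]) hs
  have a2 := Good.holAt_comp (ψ := ψ') (u := φ.symm) (m := φ x) (by rwa [φ.left_inv hx]) hs
  obtain ⟨ε, hε, hb⟩ := Metric.eventually_nhds_iff_ball.1 (a1.eventually.and a2.eventually)
  obtain ⟨x', b1, b2, b3⟩ := (hf.and_eventually
    (((φ.continuousAt hx).eventually (ball_mem_nhds _ hε)).and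
      (φ.open_source.mem_nhds hx))).exists
  have := ident (convex_ball (φ x) ε).isPreconnected (fun m hm => (hb m hm).1)
    (fun m hm => (hb m hm).2) b2 ((φ.tendsto_symm b3).eventually b1) (φ x) (mem_ball_self hε)
  filter_upwards [(φ.continuousAt hx).eventually this, φ.open_source.mem_nhds hx] with y c1 c2
  simpa [φ.left_inv c2] using c1

end Vale.Agent.P278
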