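import Vale.Agent.P278.HolBasic

/-! Transport of horizontal balls along the holonomy relation. -/

open Set Filter Topology Metric
open scoped Manifold ContDiff

namespace Vale.Agent.P278

variable {A B A' B' D : Type*} [NormedAddCommGroup A] [NormedSpace ℂ A]
  [NormedAddCommGroup B] [NormedSpace ℂ B] [NormedAddCommGroup A'] [NormedSpace ℂ A']
  [NormedAddCommGroup B'] [NormedSpace ℂ B'] [NormedAddCommGroup D] [NormedSpace ℂ D]
  {Z : Type*} [TopologicalSpace Z] {𝒜 : ProdAtlas Z A B}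

theorem step_of_family {R S : ℝ} {F : A × ℂ → Z}
    (hF : ∀ p ∈ ball (0 : A) R ×ˢ ball (0 : ℂ) S, CompatAt 𝒜 F p) {a : A}
    (ha : a ∈ ball (0 : A) R) (c d : ℂ) (h : ∀ t ∈ ball (0 : ℂ) 3, c + t * d ∈ ball (0 : ℂ) S) :
    Hol 𝒜 (fun a' => F (a + a', c)) fun a' => F (a + a', c + d) := by
  refine Step.hol ⟨fun q => F (a + q.1, c + q.2 * d), fun t ht => ?_, by simp, by simp⟩
  exact CompatAt.comp (k₁ := fun a' => a + a') (k₂ := fun t : ℂ => c + t * d) (q := ((0 : A), t))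
    (hF _ ⟨by simpa using ha, h t ht⟩) (analyticAt_const.add analyticAt_id)
    (analyticAt_const.add (analyticAt_id.mul analyticAt_const))

theorem transport_step [T2Space Z] [CompleteSpace A] [CompleteSpace B] (hB : BRC 𝒜)
    {F : A × ℂ → Z} (hF : ∀ t ∈ ball (0 : ℂ) 2, CompatAt 𝒜 F (0, t)) {R : ℝ} (hR : 0 < R)
    {G : A → Z} (hG : ∀ a ∈ ball (0 : A) R, HorAt 𝒜 G a) (he : G =ᶠ[𝓝 0] fun a => F (a, 0)) :
    ∃ G₁ : A → Z, (∀ a ∈ ball (0 : A) R, HorAt 𝒜 G₁ a) ∧ (G₁ =ᶠ[𝓝 0] fun a => F (a, 1)) ∧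
      ∀ a ∈ ball (0 : A) R, Hol 𝒜 (fun a' => G (a + a')) fun a' => G₁ (a + a') := by
  obtain ⟨F', hF', e1, e2⟩ := hB R 2 G (fun t => F (0, t)) hR two_pos hG
    (fun t ht => (hF t ht).verAt) he.eq_of_nhds
  have h00 : F' =ᶠ[𝓝 (0, 0)] F := by
    refine CompatAt.agree (hF' _ ⟨mem_ball_self hR, mem_ball_self two_pos⟩)
      (hF 0 (mem_ball_self two_pos)) ?_ ?_
    · filter_upwards [ball_mem_nhds (0 : A) hR, he] with a h1 h2
      rw [e1 a h1, h2]
    · filter_upwards [ball_mem_nhds (0 : ℂ) two_pos] with b h1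
      exact e2 b h1
  have hS : IsPreconnected (({0} : Set A) ×ˢ ball (0 : ℂ) 2) :=
    isPreconnected_singleton.prod (convex_ball _ _).isPreconnected
  have h01 : F' =ᶠ[𝓝 (0, 1)] F := by
    refine ident (𝒜 := 𝒜) hS ?_ ?_ (m₀ := (0, 0)) ⟨rfl, mem_ball_self two_pos⟩ h00 (0, 1)
      ⟨rfl, by simp⟩
    · rintro ⟨a, t⟩ ⟨ha, ht⟩
      obtain rfl : a = 0 := ha
      exact (hF' _ ⟨mem_ball_self hR, ht⟩).holAt
    · rintro ⟨a, t⟩ ⟨ha, ht⟩
      obtain rfl : a = 0 := ha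
      exact (hF t ht).holAt
  have tt : ContinuousAt (fun a' : A => (a', (1 : ℂ))) 0 :=
    (continuous_id.prodMk continuous_const).continuousAt
  refine ⟨fun a => F' (a, 1), fun a ha => (hF' (a, 1) ⟨ha, by simp⟩).horAt, tt.eventually h01,
    fun a ha => ?_⟩
  have hb : ∀ c : ℂ, ‖c‖ ≤ 1 / 2 → ∀ t ∈ ball (0 : ℂ) 3, c + t * (1 / 2) ∈ ball (0 : ℂ) 2 := by
    intro c hc t ht
    rw [mem_ball_zero_iff] at ht ⊢
    have := norm_add_le c (t * (1 / 2))
    rw [norm_mul] at this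
    have h2 : ‖(1 / 2 : ℂ)‖ = 1 / 2 := by simp
    rw [h2] at this
    linarith
  have s1 := step_of_family hF' ha 0 (1 / 2) (hb 0 (by simp))
  have s2 := step_of_family hF' ha (0 + 1 / 2) (1 / 2) (hb _ (by simp))
  have e3 : (0 + 1 / 2 + 1 / 2 : ℂ) = 1 := by norm_num
  rw [e3] at s2
  have ta : ContinuousAt (fun a' : A => a + a') 0 := by fun_prop
  refine Hol.trans (hol_of_eventuallyEq ?_ ?_) (s1.trans s2)
  · exact HorAt.comp (k := fun a' => a + a') (by simpa using hG a ha)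
      (analyticAt_const.add analyticAt_id)
  · filter_upwards [ta.eventually (isOpen_ball.mem_nhds
      (show a + 0 ∈ ball (0 : A) R by simpa using ha))] with a' ha'
    exact (e1 _ ha').symm

/-- Proof idea: induction on `Relation.EqvGen`, proving the statement for `(g, g₁)` and `(g₁, g)`
together. For a step with witness `F`: forwards apply `BRC` to `G` and `F (0, ·)` on `ball 0 3`,
getting `F'`; `F' = F` near `(0,0)` (`CompatAt.agree`), so near `(0,1)` (`ident` on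
`{0} × ball 0 3`); put `G₁ = F' (·, 1)`. Backwards apply `BRC` to `G` and `t ↦ F (0, 1 - t)` on
`ball 0 2`; the relation between `F' (a + ·, 0)` and `F' (a + ·, 1)` is the composite of the two
steps `t ↦ t/2` and `t ↦ 1/2 + t/2`. -/
theorem transport [T2Space Z] [CompleteSpace A] [CompleteSpace B] (hB : BRC 𝒜) {g g₁ : A → Z}
    (h : Hol 𝒜 g g₁) {R : ℝ} (hR : 0 < R) {G : A → Z} (hG : ∀ a ∈ ball (0 : A) R, HorAt 𝒜 G a)
    (he : G =ᶠ[𝓝 0] g) :
    ∃ G₁ : A → Z, (∀ a ∈ ball (0 : A) R, HorAt 𝒜 G₁ a) ∧ G₁ =ᶠ[𝓝 0] g₁ ∧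
      ∀ a ∈ ball (0 : A) R, Hol 𝒜 (fun a' => G (a + a')) fun a' => G₁ (a + a') := by
  have main : ∀ g g₁ : A → Z, Hol 𝒜 g g₁ →
      (∀ G : A → Z, (∀ a ∈ ball (0 : A) R, HorAt 𝒜 G a) → G =ᶠ[𝓝 0] g →
        ∃ G₁ : A → Z, (∀ a ∈ ball (0 : A) R, HorAt 𝒜 G₁ a) ∧ G₁ =ᶠ[𝓝 0] g₁ ∧
          ∀ a ∈ ball (0 : A) R, Hol 𝒜 (fun a' => G (a + a')) fun a' => G₁ (a + a')) ∧
      (∀ G : A → Z, (∀ a ∈ ball (0 : A) R, HorAt 𝒜 G a) → G =ᶠ[𝓝 0] g₁ →
        ∃ G₁ : A → Z, (∀ a ∈ ball (0 : A) R, HorAt 𝒜 G₁ a) ∧ G₁ =ᶠ[𝓝 0] g ∧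
          ∀ a ∈ ball (0 : A) R, Hol 𝒜 (fun a' => G (a + a')) fun a' => G₁ (a + a')) := by
    intro g g₁ h
    induction h with
    | rel x y h =>
      obtain ⟨F, hF, e0, e1⟩ := h
      constructor
      · intro G hG he
        obtain ⟨G₁, a1, a2, a3⟩ := transport_step hB
          (fun t ht => hF t (ball_subset_ball (by norm_num) ht)) hR hG (he.trans e0)
        exact ⟨G₁, a1, a2.trans e1.symm, a3⟩
      · intro G hG he
        obtain ⟨G₁, a1, a2, a3⟩ := transport_step hB (F := fun q => F (id q.1, 1 - q.2))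
          (fun t ht => CompatAt.comp (k₁ := id) (k₂ := fun t : ℂ => 1 - t) (q := ((0 : A), t))
            (hF _ (by
              rw [mem_ball_zero_iff] at ht ⊢
              have := norm_sub_le (1 : ℂ) t
              rw [norm_one] at this
              linarith)) analyticAt_id (analyticAt_const.sub analyticAt_id)) hR hG
          (he.trans (by simpa using e1))
        exact ⟨G₁, a1, a2.trans (by simpa using e0.symm), a3⟩
    | refl x =>
      exact ⟨fun G hG he => ⟨G, hG, he, fun a _ => Hol.refl _⟩,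
        fun G hG he => ⟨G, hG, he, fun a _ => Hol.refl _⟩⟩
    | symm x y _ ih => exact ih.symm
    | trans x y z _ _ ih1 ih2 =>
      constructor
      · intro G hG he
        obtain ⟨G₁, a1, a2, a3⟩ := ih1.1 G hG he
        obtain ⟨G₂, b1, b2, b3⟩ := ih2.1 G₁ a1 a2
        exact ⟨G₂, b1, b2, fun a ha => (a3 a ha).trans (b3 a ha)⟩
      · intro G hG he
        obtain ⟨G₁, a1, a2, a3⟩ := ih2.2 G hG he
        obtain ⟨G₂, b1, b2, b3⟩ := ih1.2 G₁ a1 a2
        exact ⟨G₂, b1, b2, fun a ha => (a3 a ha).trans (b3 a ha)⟩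
  exact (main g g₁ h).1 G hG he

end Vale.Agent.P278
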