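import Vale.Agent.P278.GoodA
import Vale.Agent.P278.Transport
import Vale.Agent.P278.Germ

/-! Existence of a global holonomy projection. -/

open Set Filter Topology Metric
open scoped Manifold ContDiff

namespace Vale.Agent.P278

variable {A B A' B' D : Type*} [NormedAddCommGroup A] [NormedSpace ℂ A]
  [NormedAddCommGroup B] [NormedSpace ℂ B] [NormedAddCommGroup A'] [NormedSpace ℂ A']
  [NormedAddCommGroup B'] [NormedSpace ℂ B'] [NormedAddCommGroup D] [NormedSpace ℂ D]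
  {Z : Type*} [TopologicalSpace Z] {𝒜 : ProdAtlas Z A B}

/-- Proof idea: take a chart `φ` at `x` with `ball (φ x) (7 r)` in the target and
`V = φ.source ∩ φ ⁻¹' ball (φ x) r`. For `x' ∈ V` apply `Good.chart` and `transport` to
`G = plaque φ x'` on `ball 0 (2r)`; put `ψ' y = G₁ ((φ y).1 - (φ x').1)`. For `x'' ∈ V` use
`hol_chart` and the last clause of `transport` at `a = (φ x'').1 - (φ x').1`. -/
theorem good_ext [T2Space Z] [CompleteSpace A] [CompleteSpace B] (hB : BRC 𝒜) (x : Z) :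
    ∃ V ∈ 𝓝 x, ∀ x' ∈ V, ∀ ψ, Good 𝒜 x' ψ → ∃ ψ', ψ' =ᶠ[𝓝 x'] ψ ∧ ∀ x'' ∈ V, Good 𝒜 x'' ψ' := by
  obtain ⟨φ, hφ, hx⟩ := 𝒜.cover x
  obtain ⟨ε, hε, hb⟩ := Metric.isOpen_iff.1 φ.open_target _ (φ.map_source hx)
  set r := ε / 7 with hr
  have hr0 : 0 < r := by positivity
  have hn : ∀ y : Z, φ y ∈ ball (φ x) r →
      ‖(φ y).1 - (φ x).1‖ < r ∧ ‖(φ y).2 - (φ x).2‖ < r := by
    intro y hy
    rw [mem_ball, Prod.dist_eq, max_lt_iff, dist_eq_norm, dist_eq_norm] at hy
    exact hy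
  have hm : ∀ (a : A) (b : B), ‖a - (φ x).1‖ < ε → ‖b - (φ x).2‖ < ε → (a, b) ∈ φ.target := by
    intro a b ha hb'
    refine hb ?_
    rw [mem_ball, Prod.dist_eq, max_lt_iff, dist_eq_norm, dist_eq_norm]
    exact ⟨ha, hb'⟩
  refine ⟨φ.source ∩ φ ⁻¹' ball (φ x) r, inter_mem (φ.open_source.mem_nhds hx)
    ((φ.continuousAt hx).preimage_mem_nhds (ball_mem_nhds _ hr0)), ?_⟩
  rintro x' ⟨h1, h2⟩ ψ hψ
  obtain ⟨n1, n2⟩ := hn x' h2
  obtain ⟨g₁, k1, -, -, k4⟩ := hψ.chart hφ h1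
  obtain ⟨G₁, l1, l2, l3⟩ := transport hB k1 (R := 2 * r) (by positivity) (G := plaque φ x')
    (fun a ha => horAt_plaque hφ (hm _ _ (by
      rw [mem_ball_zero_iff] at ha
      have := norm_add_le ((φ x').1 - (φ x).1) a
      rw [sub_add_eq_add_sub] at this
      linarith) (by linarith))) EventuallyEq.rfl
  refine ⟨fun y => G₁ ((φ y).1 - (φ x').1), ?_, ?_⟩
  · have t : Tendsto (fun y => (φ y).1 - (φ x').1) (𝓝 x') (𝓝 0) := by
      have : ContinuousAt (fun y => (φ y).1 - (φ x').1) x' :=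
        (φ.continuousAt h1).fst.sub continuousAt_const
      simpa using this.tendsto
    exact EventuallyEq.trans (t.eventually l2) k4.symm
  · rintro x'' ⟨h3, h4⟩
    obtain ⟨m1, m2⟩ := hn x'' h4
    have ha : (φ x'').1 - (φ x').1 ∈ ball (0 : A) (2 * r) := by
      rw [mem_ball_zero_iff]
      have := norm_sub_le ((φ x'').1 - (φ x).1) ((φ x').1 - (φ x).1)
      rw [sub_sub_sub_cancel_right] at this
      linarith
    refine ⟨φ, hφ, h3, fun a' => G₁ ((φ x'').1 - (φ x').1 + a'), ?_, ?_⟩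
    · refine Hol.trans ?_ (l3 _ ha)
      have := hol_chart (𝒜 := 𝒜) hφ (c := (φ x'').1) (b := (φ x'').2) (b' := (φ x').2)
        (fun t ht => hm _ _ (by linarith) (by
          rw [mem_ball_zero_iff] at ht
          have e1 := norm_sub_le ((φ x').2 - (φ x).2) ((φ x'').2 - (φ x).2)
          rw [sub_sub_sub_cancel_right] at e1
          have e2 := norm_add_le ((φ x'').2 - (φ x).2) (t • ((φ x').2 - (φ x'').2))
          rw [sub_add_eq_add_sub, norm_smul] at e2
          have e3 : ‖t‖ * ‖(φ x').2 - (φ x'').2‖ ≤ 3 * (2 * r) :=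
            mul_le_mul ht.le (by linarith) (norm_nonneg _) (by norm_num)
          linarith))
      have e4 : (fun a' => plaque φ x' ((φ x'').1 - (φ x').1 + a')) =
          fun a => φ.symm ((φ x'').1 + a, (φ x').2) := by
        funext a'
        simp only [plaque, ← add_assoc, add_sub_cancel]
      rw [e4]
      exact this
    · refine Eventually.of_forall fun y => ?_
      simp only [sub_add_sub_cancel']

/-- Proof idea: `germ_mono` with the germ `y ↦ plaque φ x₀ ((φ y).1 - (φ x₀).1)` at any point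
`x₀`; this germ is idempotent near `x₀`. -/
theorem exists_good [T2Space Z] [SimplyConnectedSpace Z] [LocallyPathConnectedSpace Z]
    [CompleteSpace A] [CompleteSpace B] (hB : BRC 𝒜) :
    ∃ p : Z → Z, (∀ x, Good 𝒜 x p) ∧ ∃ x₀, ∀ᶠ z in 𝓝 x₀, p (p z) = p z := by
  obtain ⟨x₀⟩ : Nonempty Z := inferInstance
  obtain ⟨φ, hφ, hx⟩ := 𝒜.cover x₀
  have h0 : Good 𝒜 x₀ fun y => plaque φ x₀ ((φ y).1 - (φ x₀).1) :=
    ⟨φ, hφ, hx, plaque φ x₀, Hol.refl _, EventuallyEq.rfl⟩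
  obtain ⟨p, hp, hp'⟩ := germ_mono (Good 𝒜) (fun x ψ ψ' h he => h.congr he) (good_ext hB)
    (fun x ψ ψ' h h' hf => h.sep h' hf) h0
  refine ⟨p, hp', x₀, ?_⟩
  have e0 : p x₀ = x₀ := by simpa [plaque_zero hx] using hp.eq_of_nhds
  have t : Tendsto p (𝓝 x₀) (𝓝 x₀) := by
    have := (hp' x₀).continuousAt.tendsto
    rwa [e0] at this
  have t2 : Tendsto (fun y => ((φ y).1, (φ x₀).2)) (𝓝 x₀) (𝓝 (φ x₀)) :=
    ((φ.continuousAt hx).fst.prodMk (continuousAt_const (y := (φ x₀).2))).tendsto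
  filter_upwards [hp, t.eventually hp, t2.eventually (φ.open_target.mem_nhds (φ.map_source hx))]
    with z a1 a2 a3
  simp only [plaque, add_sub_cancel] at a1 a2
  rw [a2, a1, φ.right_inv a3]

end Vale.Agent.P278
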