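import Vale.Agent.P278.Basic

/-! Elementary properties of the holonomy relation. -/

open Set Filter Topology Metric
open scoped Manifold ContDiff

namespace Vale.Agent.P278

variable {A B A' B' D : Type*} [NormedAddCommGroup A] [NormedSpace ℂ A]
  [NormedAddCommGroup B] [NormedSpace ℂ B] [NormedAddCommGroup A'] [NormedSpace ℂ A']
  [NormedAddCommGroup B'] [NormedSpace ℂ B'] [NormedAddCommGroup D] [NormedSpace ℂ D]
  {Z : Type*} [TopologicalSpace Z] {𝒜 : ProdAtlas Z A B}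

theorem Hol.refl (g : A → Z) : Hol 𝒜 g g := Relation.EqvGen.refl g

theorem Hol.symm {g g₁ : A → Z} (h : Hol 𝒜 g g₁) : Hol 𝒜 g₁ g := Relation.EqvGen.symm _ _ h

theorem Hol.trans {g g₁ g₂ : A → Z} (h : Hol 𝒜 g g₁) (h' : Hol 𝒜 g₁ g₂) : Hol 𝒜 g g₂ :=
  Relation.EqvGen.trans _ _ _ h h'

theorem Step.hol {g g₁ : A → Z} (h : Step 𝒜 g g₁) : Hol 𝒜 g g₁ := Relation.EqvGen.rel _ _ h

/-- Use `F (a, t) = g a`. -/
theorem hol_of_eventuallyEq {g g' : A → Z} (hg : HorAt 𝒜 g 0) (he : g =ᶠ[𝓝 0] g') :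
    Hol 𝒜 g g' := by
  exact Step.hol ⟨fun q => g q.1, fun t _ => hg.compatAt t, EventuallyEq.rfl, he.symm⟩

theorem Hol.horAt_iff {g g₁ : A → Z} (h : Hol 𝒜 g g₁) : HorAt 𝒜 g 0 ↔ HorAt 𝒜 g₁ 0 := by
  induction h with
  | rel x y h =>
    obtain ⟨F, hF, h0, h1⟩ := h
    exact iff_of_true ((hF 0 (by simp)).horAt.congr h0.symm)
      ((hF 1 (by simp)).horAt.congr h1.symm)
  | refl x => exact Iff.rfl
  | symm x y _ ih => exact ih.symm
  | trans x y z _ _ ih1 ih2 => exact ih1.trans ih2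

theorem horEt_locally {F : A × ℂ → Z} (hF : ∀ t ∈ ball (0 : ℂ) 3, CompatAt 𝒜 F (0, t)) {t₀ : ℂ}
    (ht₀ : t₀ ∈ ball (0 : ℂ) 3) :
    ∀ᶠ t in 𝓝 t₀, (HorEt 𝒜 (fun a => F (a, t)) 0 ↔ HorEt 𝒜 (fun a => F (a, t₀)) 0) := by
  obtain ⟨φ, hφ, hp⟩ := 𝒜.cover (F (0, t₀))
  obtain ⟨f₁, f₂, h₁, -, he⟩ := (hF t₀ ht₀).2 φ hφ hp
  have key : ∀ t ∈ ball (0 : ℂ) 3, F (0, t) ∈ φ.source →
      (φ ∘ F =ᶠ[𝓝 (0, t)] fun q => (f₁ q.1, f₂ q.2)) →
      (HorEt 𝒜 (fun a => F (a, t)) 0 ↔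
        ∃ L : A ≃L[ℂ] A, HasFDerivAt f₁ (L : A →L[ℂ] A) 0) := by
    intro t ht hs he'
    have tt : ContinuousAt (fun a' : A => (a', t)) 0 :=
      (continuous_id.prodMk continuous_const).continuousAt
    have he'' : φ ∘ (fun a => F (a, t)) =ᶠ[𝓝 0] fun a => (f₁ a, f₂ t) := tt.eventually he'
    constructor
    · intro h
      obtain ⟨f, L, -, hL, e⟩ := h.2 φ hφ hs
      refine ⟨L, hL.congr_of_eventuallyEq ?_⟩
      filter_upwards [he'', e] with a a1 a2
      exact congrArg Prod.fst (a1.symm.trans a2)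
    · rintro ⟨L, hL⟩
      exact horEt_of_chart hφ hs (hF t ht).horAt.1 h₁ hL he''
  have tt : ContinuousAt (fun t : ℂ => ((0 : A), t)) t₀ :=
    (continuous_const.prodMk continuous_id).continuousAt
  filter_upwards [isOpen_ball.mem_nhds ht₀, tt.eventually he.eventually_nhds,
    tt.eventually ((hF t₀ ht₀).1.eventually (φ.open_source.mem_nhds hp))] with t a1 a2 a3
  rw [key t a1 a3 a2, key t₀ ht₀ hp he]

/-- For one step: the set of `t ∈ ball 0 3` such that `F (·, t)` is `HorEt` at `0` is open and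
closed, because near `(0, t₀)` the first component of `φ ∘ F` does not depend on `t`
(`horEt_of_chart`). -/
theorem Hol.horEt_iff {g g₁ : A → Z} (h : Hol 𝒜 g g₁) : HorEt 𝒜 g 0 ↔ HorEt 𝒜 g₁ 0 := by
  induction h with
  | rel x y h =>
    obtain ⟨F, hF, h0, h1⟩ := h
    have key : ∀ s ∈ ball (0 : ℂ) 3, ∀ t ∈ ball (0 : ℂ) 3,
        HorEt 𝒜 (fun a => F (a, s)) 0 → HorEt 𝒜 (fun a => F (a, t)) 0 := by
      intro s hs t ht h
      by_contra hn
      have hpc := (convex_ball (0 : ℂ) 3).isPreconnected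
      refine hn (hpc.subset_of_closure_inter_subset
        (u := {t | ∀ᶠ v in 𝓝 t, HorEt 𝒜 (fun a => F (a, v)) 0})
        isOpen_setOfPred_eventually_nhds ⟨s, hs, ?_⟩ ?_ ht).self_of_nhds
      · filter_upwards [horEt_locally hF hs] with v hv
        exact hv.2 h
      · rintro u ⟨hu1, hu2⟩
        obtain ⟨v, hv1, hv2⟩ :=
          ((mem_closure_iff_frequently.1 hu1).and_eventually (horEt_locally hF hu2)).exists
        filter_upwards [horEt_locally hF hu2] with v' hv'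
        exact hv'.2 (hv2.1 hv1.self_of_nhds)
    exact ⟨fun h => (key 0 (by simp) 1 (by simp) (h.congr h0)).congr h1.symm,
      fun h => (key 1 (by simp) 0 (by simp) (h.congr h1)).congr h0.symm⟩
  | refl x => exact Iff.rfl
  | symm x y _ ih => exact ih.symm
  | trans x y z _ _ ih1 ih2 => exact ih1.trans ih2

theorem Hol.comp {g g₁ : A → Z} (h : Hol 𝒜 g g₁) {κ : A → A} (hκ : AnalyticAt ℂ κ 0)
    (h0 : κ 0 = 0) : Hol 𝒜 (g ∘ κ) (g₁ ∘ κ) := by
  induction h with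
  | rel x y h =>
    obtain ⟨F, hF, e0, e1⟩ := h
    have t : Tendsto κ (𝓝 0) (𝓝 0) := by
      have := hκ.continuousAt.tendsto
      rwa [h0] at this
    refine Step.hol ⟨fun q => F (κ q.1, id q.2), fun t ht => ?_, t.eventually e0, t.eventually e1⟩
    exact CompatAt.comp (q := ((0 : A), t)) (by simpa [h0] using hF t ht) hκ analyticAt_id
  | refl x => exact Hol.refl _
  | symm x y _ ih => exact ih.symm
  | trans x y z _ _ ih1 ih2 => exact ih1.trans ih2

/-- A vertical translation inside one chart: use `F (a, t) = φ.symm (c + a, b + t • (b' - b))`. -/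
theorem hol_chart {φ : OpenPartialHomeomorph Z (A × B)} (hφ : φ ∈ 𝒜.charts) {c : A} {b b' : B}
    (h : ∀ t ∈ ball (0 : ℂ) 3, (c, b + t • (b' - b)) ∈ φ.target) :
    Hol 𝒜 (fun a => φ.symm (c + a, b)) fun a => φ.symm (c + a, b') := by
  refine Step.hol ⟨fun q => φ.symm (c + q.1, b + q.2 • (b' - b)), fun t ht => ?_, ?_, ?_⟩
  · exact compatAt_symm (f₁ := fun a => c + a) (f₂ := fun t : ℂ => b + t • (b' - b)) hφ
      (by simpa using h t ht) (analyticAt_const.add analyticAt_id)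
      (analyticAt_const.add (analyticAt_id.smul analyticAt_const))
  · simp
  · simp

end Vale.Agent.P278
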