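import Vale.Agent.P278.PullGen

/-! The Kaehler form in product charts. -/

open Set Filter Topology Metric
open scoped Manifold ContDiff

namespace Vale.Agent.P278

variable {E : Type*} [NormedAddCommGroup E] [NormedSpace ℂ E] [FiniteDimensional ℂ E]
  {X : Type*} [TopologicalSpace X] [ChartedSpace E X] [IsManifold 𝓘(ℂ, E) ω X]
  {A B : Type*} [NormedAddCommGroup A] [NormedSpace ℂ A] [FiniteDimensional ℂ A]
  [NormedAddCommGroup B] [NormedSpace ℂ B] [FiniteDimensional ℂ B]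

namespace KahlerAux

variable {D D' : Type*} [NormedAddCommGroup D] [NormedSpace ℂ D] [NormedAddCommGroup D']
  [NormedSpace ℂ D']

variable (E) in
/-- The derivative of the inverse chart. -/
noncomputable def dm (φ : OpenPartialHomeomorph X D) (z : D) : D →L[ℂ] E :=
  mfderiv 𝓘(ℂ, D) 𝓘(ℂ, E) φ.symm z

omit [FiniteDimensional ℂ E] [IsManifold 𝓘(ℂ, E) ω X] in
theorem has_dm {φ : OpenPartialHomeomorph X D} (hφ : HolChart E φ) {z : D} (hz : z ∈ φ.target) :
    HasMFDerivAt 𝓘(ℂ, D) 𝓘(ℂ, E) φ.symm z (mfderiv 𝓘(ℂ, D) 𝓘(ℂ, E) φ.symm z) :=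
  ((hφ.2.contMDiffAt (φ.open_target.mem_nhds hz)).mdifferentiableAt (by simp)).hasMFDerivAt

omit [FiniteDimensional ℂ E] [IsManifold 𝓘(ℂ, E) ω X] in
theorem trans_smooth {φ : OpenPartialHomeomorph X D} {ψ : OpenPartialHomeomorph X D'}
    (hφ : HolChart E φ) (hψ : HolChart E ψ) {z : D} (hz : z ∈ φ.target)
    (hz' : φ.symm z ∈ ψ.source) : ContDiffAt ℂ ω (ψ ∘ φ.symm) z :=
  contMDiffAt_iff_contDiffAt.1 ((hψ.1.contMDiffAt (ψ.open_source.mem_nhds hz')).comp z
    (hφ.2.contMDiffAt (φ.open_target.mem_nhds hz)))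

omit [FiniteDimensional ℂ E] [IsManifold 𝓘(ℂ, E) ω X] in
theorem chain {φ : OpenPartialHomeomorph X D} {ψ : OpenPartialHomeomorph X D'}
    (hφ : HolChart E φ) (hψ : HolChart E ψ) {z : D} (hz : z ∈ φ.target)
    (hz' : φ.symm z ∈ ψ.source) (u : D) :
    dm E φ z u = dm E ψ (ψ (φ.symm z)) (fderiv ℂ (ψ ∘ φ.symm) z u) := by
  have h1 := hasMFDerivAt_iff_hasFDerivAt.2
    ((trans_smooth hφ hψ hz hz').differentiableAt (by simp)).hasFDerivAt
  have h2 := HasMFDerivAt.comp z (has_dm hψ (ψ.map_source hz')) h1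
  have h3 : φ.symm =ᶠ[𝓝 z] ψ.symm ∘ (ψ ∘ φ.symm) := by
    filter_upwards [(φ.continuousAt_symm hz).eventually (ψ.open_source.mem_nhds hz')] with q hq
    exact (ψ.left_inv hq).symm
  exact congrArg (fun L : D →L[ℂ] E => L u)
    (hasMFDerivAt_unique (has_dm hφ hz) (h2.congr_of_eventuallyEq h3))

omit [FiniteDimensional ℂ E] [IsManifold 𝓘(ℂ, E) ω X] in
theorem dm_ne {φ : OpenPartialHomeomorph X D} (hφ : HolChart E φ) {z : D} (hz : z ∈ φ.target)
    {v : D} (hv : v ≠ 0) : dm E φ z v ≠ 0 := by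
  have h1 := ((hφ.1.contMDiffAt (φ.open_source.mem_nhds (φ.map_target hz))).mdifferentiableAt
    (by simp)).hasMFDerivAt
  have h2 := HasMFDerivAt.comp z h1 (has_dm hφ hz)
  have h3 : id =ᶠ[𝓝 z] φ ∘ φ.symm := by
    filter_upwards [φ.open_target.mem_nhds hz] with q hq
    exact (φ.right_inv hq).symm
  have h4 : v = (mfderiv 𝓘(ℂ, E) 𝓘(ℂ, D) φ (φ.symm z) : E →L[ℂ] D) (dm E φ z v) :=
    congrArg (fun L : D →L[ℂ] D => L v)
      (hasMFDerivAt_unique (hasMFDerivAt_id z) (h2.congr_of_eventuallyEq h3))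
  intro h
  rw [h] at h4
  exact hv (h4.trans (map_zero (mfderiv 𝓘(ℂ, E) 𝓘(ℂ, D) φ (φ.symm z))))

omit [FiniteDimensional ℂ E] in
theorem holChart_chartAt (x : X) : HolChart E (chartAt E x) :=
  ⟨contMDiffOn_chart, contMDiffOn_chart_symm⟩

variable [NormedSpace ℝ D] [IsScalarTower ℝ ℂ D] {g : X → E →L[ℝ] E →L[ℝ] ℝ}

/-- The fundamental form in the chart `φ`. -/
noncomputable def kf (g : X → E →L[ℝ] E →L[ℝ] ℝ) (φ : OpenPartialHomeomorph X D) (z : D) :
    D →L[ℝ] D →L[ℝ] ℝ :=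
  (g (φ.symm z)).bilinearComp ((Complex.I • dm E φ z).restrictScalars ℝ)
    ((dm E φ z).restrictScalars ℝ)

omit [FiniteDimensional ℂ E] [IsManifold 𝓘(ℂ, E) ω X] in
theorem kf_apply (φ : OpenPartialHomeomorph X D) (z u v : D) :
    kf g φ z u v = g (φ.symm z) (Complex.I • dm E φ z u) (dm E φ z v) := rfl

omit [FiniteDimensional ℂ E] [IsManifold 𝓘(ℂ, E) ω X] in
theorem kf_anti (hg : IsKahlerMetric g) (φ : OpenPartialHomeomorph X D) (z u v : D) :
    kf g φ z u v = -kf g φ z v u := by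
  rw [kf_apply, kf_apply, ← hg.herm, smul_smul, Complex.I_mul_I, neg_smul, one_smul, map_neg,
    neg_apply, hg.symm]

omit [FiniteDimensional ℂ E] [IsManifold 𝓘(ℂ, E) ω X] in
theorem kf_coef (e : OpenPartialHomeomorph X E) (u v : E) :
    (fun z => kf g e z u v) = coef g e (Complex.I • u) v := by
  funext z
  rw [kf_apply, ← map_smul]
  rfl

omit [IsManifold 𝓘(ℂ, E) ω X] in
theorem kf_chart (hg : IsKahlerMetric g) {e : OpenPartialHomeomorph X E} (he : e ∈ atlas E X)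
    {z : E} (hz : z ∈ e.target) : ContDiffAt ℝ 1 (kf g e) z ∧ ∀ u v s,
      fderiv ℝ (kf g e) z u v s + fderiv ℝ (kf g e) z v s u + fderiv ℝ (kf g e) z s u v = 0 := by
  have h1 : ContDiffOn ℝ 1 (kf g e) e.target :=
    contDiffOn_clm_apply.2 fun u => contDiffOn_clm_apply.2 fun v => by
      rw [kf_coef]
      exact (hg.smooth e he _ _).of_le (by simp)
  have h2 := h1.contDiffAt (e.open_target.mem_nhds hz)
  have h3 : ∀ u v s, fderiv ℝ (kf g e) z u v s = fderiv ℝ (coef g e (Complex.I • v) s) z u := by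
    intro u v s
    have h4 := ((ContinuousLinearMap.apply ℝ ℝ s).comp
      (ContinuousLinearMap.apply ℝ (E →L[ℝ] ℝ) v)).hasFDerivAt.comp z
        (h2.differentiableAt one_ne_zero).hasFDerivAt
    rw [← kf_coef]
    exact (congrArg (fun L : E →L[ℝ] ℝ => L u) h4.fderiv).symm
  refine ⟨h2, fun u v s => ?_⟩
  rw [h3, h3, h3]
  exact hg.closed e he z hz u v s

theorem kf_loc (hg : IsKahlerMetric g) {φ : OpenPartialHomeomorph X D} (hφ : HolChart E φ) {z : D}
    (hz : z ∈ φ.target) : ContDiffAt ℝ 1 (kf g φ) z ∧ ∀ u v s,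
      fderiv ℝ (kf g φ) z u v s + fderiv ℝ (kf g φ) z v s u + fderiv ℝ (kf g φ) z s u v = 0 := by
  obtain ⟨e, he⟩ : ∃ e, e = chartAt E (φ.symm z) := ⟨_, rfl⟩
  have h0 : HolChart E e := he ▸ holChart_chartAt _
  have hx : φ.symm z ∈ e.source := he ▸ mem_chart_source E _
  obtain ⟨k1, k2⟩ := kf_chart hg (he ▸ chart_mem_atlas E _ : e ∈ atlas E X) (e.map_source hx)
  obtain ⟨p1, p2⟩ := pullForm_closed (f := e ∘ φ.symm) (w := kf g e) (p := z)
    (((trans_smooth hφ h0 hz hx).restrict_scalars ℝ).of_le le_top) k1 (kf_anti hg e _) k2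
  have h1 : kf g φ =ᶠ[𝓝 z] pullForm (e ∘ φ.symm) (kf g e) := by
    filter_upwards [φ.open_target.mem_nhds hz,
      (φ.continuousAt_symm hz).eventually (e.open_source.mem_nhds hx)] with q hq hq'
    ext u v
    rw [pullForm, ((trans_smooth hφ h0 hq hq').differentiableAt
      (by simp)).fderiv_restrictScalars ℝ, kf_apply, chain hφ h0 hq hq', chain hφ h0 hq hq']
    exact congrArg (fun x => g x _ _) (e.left_inv hq').symm
  rw [h1.fderiv_eq]
  exact ⟨p1.congr_of_eventuallyEq h1, p2⟩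

end KahlerAux

open KahlerAux in
/-- Proof idea: `w φ z u v = g (φ.symm z) (i • D u) (D v)` with `D = mfderiv φ.symm z` (complex
linear, injective because `mfderiv φ ∘ D = id`). For `e = chartAt E x` let `k e z` be the same form
for `e`, so `k e z u v = coef g e (i • u) v z`; it is `C^1` (`contDiffOn_clm_apply`, finite
dimension) and closed. Near `φ x`, `w φ = pullForm (e ∘ φ.symm) (k e)` by the chain rule; apply
`pullForm_closed`. -/
theorem exists_tameForm {g : X → E →L[ℝ] E →L[ℝ] ℝ} (hg : IsKahlerMetric g)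
    (𝒜 : ProdAtlas X A B) (h : ∀ φ ∈ 𝒜.charts, HolChart E φ) : ∃ w, TameForm 𝒜 w := by
  refine ⟨kf g, fun φ hφ z hz => (kf_loc hg (h φ hφ) hz).1.contDiffWithinAt,
    fun φ _ z _ => kf_anti hg φ z, fun φ hφ z hz => (kf_loc hg (h φ hφ) hz).2,
    fun φ hφ z hz v hv => ?_, fun φ hφ ψ hψ x hx hx' u v => ?_⟩
  · rw [kf_apply, map_smul (dm E φ z)]
    exact hg.pos _ _ (smul_ne_zero Complex.I_ne_zero (dm_ne (h φ hφ) hz hv))
  · have e := φ.left_inv hx
    have c := chain (h φ hφ) (h ψ hψ) (φ.map_source hx) (e.symm ▸ hx')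
    rw [kf_apply, kf_apply, c, c, e, ψ.left_inv hx']

end Vale.Agent.P278
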