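import Vale.Agent.P278.Basic

/-! Completion of rectangles lifts to covering spaces. -/

open Set Filter Topology Metric
open scoped Manifold ContDiff

namespace Vale.Agent.P278

variable {A B A' B' D : Type*} [NormedAddCommGroup A] [NormedSpace ℂ A]
  [NormedAddCommGroup B] [NormedSpace ℂ B] [NormedAddCommGroup A'] [NormedSpace ℂ A']
  [NormedAddCommGroup B'] [NormedSpace ℂ B'] [NormedAddCommGroup D] [NormedSpace ℂ D]
  {Z : Type*} [TopologicalSpace Z] {𝒜 : ProdAtlas Z A B}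

namespace LiftAux

/-- Lifting of a continuous map on an open convex set. -/
theorem lift_on {X : Type*} [TopologicalSpace X] {π : Z → X} (hπ : IsCoveringMap π)
    {S : Set D} (hS : Convex ℝ S) (hSo : IsOpen S) {F : D → X} (hF : ContinuousOn F S)
    {p₀ : D} (hp₀ : p₀ ∈ S) {e₀ : Z} (he : π e₀ = F p₀) :
    ∃ G : D → Z, G p₀ = e₀ ∧ (∀ p ∈ S, ContinuousAt G p) ∧ ∀ p ∈ S, π (G p) = F p := by
  classical
  have i1 : ContractibleSpace S := hS.contractibleSpace ⟨p₀, hp₀⟩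
  have i2 : LocallyPathConnectedSpace S := hSo.locallyPathConnectedSpace
  obtain ⟨G, ⟨h0, hG⟩, -⟩ := hπ.existsUnique_continuousMap_lifts
    (⟨S.domRestrict F, hF.domRestrict⟩ : C(S, X)) ⟨p₀, hp₀⟩ e₀ he
  refine ⟨fun p => if hp : p ∈ S then G ⟨p, hp⟩ else e₀, by simp [hp₀, h0], ?_, ?_⟩
  · have hc : ContinuousOn (fun p => if hp : p ∈ S then G ⟨p, hp⟩ else e₀) S := by
      rw [continuousOn_iff_continuous_domRestrict]
      refine G.continuous.congr fun p => ?_
      simp [p.2]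
    exact fun p hp => hc.continuousAt (hSo.mem_nhds hp)
  · intro p hp
    simp only [hp, dite_true]
    exact congrFun hG ⟨p, hp⟩

end LiftAux

/-- Proof idea: `π ∘ g`, `π ∘ h` are horizontal and vertical (`horAt_of_chart`, `verAt_of_chart`);
complete downstairs, lift on the convex product of balls
(`IsCoveringMap.existsUnique_continuousMap_lifts` on the subtype, which is contractible and locally
path connected), extend arbitrarily; the axes agree by uniqueness of lifts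
(`IsCoveringMap.eqOn_of_comp_eqOn`), compatibility by `compatAt_of_chart`. -/
theorem brc_lift {X : Type*} [TopologicalSpace X] {𝒜' : ProdAtlas X A B} {π : Z → X}
    (hπ : IsCoveringMap π)
    (hrel : ∀ z, ∃ φ ∈ 𝒜.charts, ∃ ψ ∈ 𝒜'.charts, z ∈ φ.source ∧ π z ∈ ψ.source ∧
      (φ : Z → A × B) =ᶠ[𝓝 z] ψ ∘ π)
    (h : BRC 𝒜') : BRC 𝒜 := by
  intro R₁ R₂ g k hR₁ hR₂ hg hk h0
  have hg' : ∀ a ∈ ball (0 : A) R₁, HorAt 𝒜' (π ∘ g) a := by
    intro a ha
    obtain ⟨φ, hφ, ψ, hψ, hz, hz', he⟩ := hrel (g a)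
    obtain ⟨f, hf, hfe⟩ := (hg a ha).2 φ hφ hz
    refine horAt_of_chart (c := (φ (g a)).2) hψ hz'
      (hπ.continuous.continuousAt.comp (hg a ha).1) hf ?_
    filter_upwards [hfe, (hg a ha).1.eventually he] with x h1 h2
    rw [← h1]
    exact h2.symm
  have hk' : ∀ b ∈ ball (0 : ℂ) R₂, VerAt 𝒜' (π ∘ k) b := by
    intro b hb
    obtain ⟨φ, hφ, ψ, hψ, hz, hz', he⟩ := hrel (k b)
    obtain ⟨f, hf, hfe⟩ := (hk b hb).2 φ hφ hz
    refine verAt_of_chart (c := (φ (k b)).1) hψ hz'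
      (hπ.continuous.continuousAt.comp (hk b hb).1) hf ?_
    filter_upwards [hfe, (hk b hb).1.eventually he] with x h1 h2
    rw [← h1]
    exact h2.symm
  obtain ⟨F, hF, hFg, hFk⟩ := h R₁ R₂ (π ∘ g) (π ∘ k) hR₁ hR₂ hg' hk' (by simp [h0])
  have hSo : IsOpen (ball (0 : A) R₁ ×ˢ ball (0 : ℂ) R₂) := isOpen_ball.prod isOpen_ball
  have hS : Convex ℝ (ball (0 : A) R₁ ×ˢ ball (0 : ℂ) R₂) :=
    (convex_ball _ _).prod (convex_ball _ _)
  have hp₀ : ((0 : A), (0 : ℂ)) ∈ ball (0 : A) R₁ ×ˢ ball (0 : ℂ) R₂ :=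
    ⟨mem_ball_self hR₁, mem_ball_self hR₂⟩
  obtain ⟨G, hG0, hGc, hGπ⟩ := LiftAux.lift_on hπ hS hSo
    (fun p hp => (hF p hp).1.continuousWithinAt) hp₀ (e₀ := g 0)
    (hFg 0 (mem_ball_self hR₁)).symm
  refine ⟨G, fun p hp => ?_, ?_, ?_⟩
  · obtain ⟨φ, hφ, ψ, hψ, hz, hz', he⟩ := hrel (G p)
    refine compatAt_of_chart hφ hz (hGc p hp) ?_
    have h1 := (hF p hp).2 ψ hψ (hGπ p hp ▸ hz')
    refine h1.congr ?_
    filter_upwards [hSo.mem_nhds hp, (hGc p hp).eventually he] with q h2 h3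
    simp only [Function.comp_apply] at h3 ⊢
    rw [h3, hGπ q h2]
  · refine hπ.eqOn_of_comp_eqOn (convex_ball (0 : A) R₁).isPreconnected
      (g₁ := fun a => G (a, 0)) (g₂ := g) (fun a ha => ?_)
      (fun a ha => (hg a ha).1.continuousWithinAt) (fun a ha => ?_) (mem_ball_self hR₁) hG0
    · exact (ContinuousAt.comp (f := fun a : A => (a, (0 : ℂ))) (hGc _ ⟨ha, mem_ball_self hR₂⟩)
        (by fun_prop)).continuousWithinAt
    · simp only [Function.comp_apply]
      rw [hGπ _ ⟨ha, mem_ball_self hR₂⟩, hFg a ha]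
      rfl
  · refine hπ.eqOn_of_comp_eqOn (convex_ball (0 : ℂ) R₂).isPreconnected
      (g₁ := fun b => G (0, b)) (g₂ := k) (fun b hb => ?_)
      (fun b hb => (hk b hb).1.continuousWithinAt) (fun b hb => ?_) (mem_ball_self hR₂)
      (hG0.trans h0)
    · exact (ContinuousAt.comp (f := fun b : ℂ => ((0 : A), b)) (hGc _ ⟨mem_ball_self hR₁, hb⟩)
        (by fun_prop)).continuousWithinAt
    · simp only [Function.comp_apply]
      rw [hGπ _ ⟨mem_ball_self hR₁, hb⟩, hFk b hb]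
      rfl

end Vale.Agent.P278
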