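import Vale.Agent.P278.Abs

/-! The atlas of all adapted charts. -/

open Set Filter Topology Metric
open scoped Manifold ContDiff

namespace Vale.Agent.P278

variable {E : Type*} [NormedAddCommGroup E] [NormedSpace ℂ E] [FiniteDimensional ℂ E]
  {X : Type*} [TopologicalSpace X] [ChartedSpace E X] [IsManifold 𝓘(ℂ, E) ω X]
  {ι : Type} [Fintype ι] [DecidableEq ι]

variable {A : ι → Type*} [∀ i, NormedAddCommGroup (A i)] [∀ i, NormedSpace ℂ (A i)]
  [∀ i, FiniteDimensional ℂ (A i)]


omit [FiniteDimensional ℂ E] [IsManifold 𝓘(ℂ, E) ω X] in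
/-- An analytic map whose derivative preserves each coordinate subspace is locally a product: on a
small ball (a product of balls) `T v j` does not change when a coordinate `i ≠ j` changes; take
`f j a = T (update v₀ j a) j`. -/
theorem prod_of_fderiv {T : (∀ i, A i) → ∀ i, A i} {v₀ : ∀ i, A i} (hT : AnalyticAt ℂ T v₀)
    (h : ∀ᶠ v in 𝓝 v₀, ∀ i (a : A i) j, j ≠ i → fderiv ℂ T v (Pi.single i a) j = 0) :
    ∃ f : ∀ i, A i → A i, (∀ i, AnalyticAt ℂ (f i) (v₀ i)) ∧
      T =ᶠ[𝓝 v₀] fun v i => f i (v i) := by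
  obtain ⟨r, hr, hb⟩ := Metric.eventually_nhds_iff_ball.1 (h.and hT.eventually_analyticAt)
  refine ⟨fun j a => T (Function.update v₀ j a) j, fun j => ?_, ?_⟩
  · have h1 : AnalyticAt ℂ (fun a : A j => Function.update v₀ j a) (v₀ j) :=
      (contDiff_update ω v₀ j).contDiffAt.analyticAt
    have h2 : AnalyticAt ℂ T (Function.update v₀ j (v₀ j)) := by rwa [Function.update_eq_self]
    exact analyticAt_pi_iff.1 (AnalyticAt.comp (f := fun a : A j => Function.update v₀ j a) h2 h1) j
  · filter_upwards [ball_mem_nhds v₀ (by positivity : 0 < r / 8)] with v hv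
    funext j
    set w := Function.update v₀ j (v j) with hw
    have hv' : ‖v - v₀‖ < r / 8 := by simpa [dist_eq_norm] using hv
    have hw' : ‖w - v₀‖ < r / 8 := by
      refine lt_of_le_of_lt ((pi_norm_le_iff_of_nonneg (norm_nonneg _)).2 fun i => ?_) hv'
      by_cases hi : i = j
      · subst hi
        simpa [hw] using norm_le_pi_norm (v - v₀) i
      · simp [hw, hi]
    have hd : ‖v - w‖ < r / 4 := by
      have := norm_sub_le (v - v₀) (w - v₀)
      rw [sub_sub_sub_cancel_right] at this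
      linarith
    have hm : ∀ t ∈ ball (0 : ℂ) 2, w + t • (v - w) ∈ ball v₀ r := fun t ht => by
      have h1 : ‖t‖ < 2 := by simpa using ht
      have h2 : ‖t • (v - w)‖ ≤ 2 * (r / 4) := by
        rw [norm_smul]
        gcongr
      have h3 := norm_add_le (w - v₀) (t • (v - w))
      rw [mem_ball, dist_eq_norm, add_sub_right_comm]
      linarith
    have hder : ∀ t ∈ ball (0 : ℂ) 2, HasDerivAt (fun t : ℂ => T (w + t • (v - w)) j) 0 t := by
      intro t ht
      have h1 : HasDerivAt (fun t : ℂ => w + t • (v - w)) (v - w) t := by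
        simpa using ((hasDerivAt_id t).smul_const (v - w)).const_add w
      have h2 := (hb _ (hm t ht)).2.differentiableAt.hasFDerivAt.comp_hasDerivAt t h1
      have h3 : fderiv ℂ T (w + t • (v - w)) (v - w) j = 0 := by
        rw [← Finset.univ_sum_single (v - w), map_sum, Finset.sum_apply, Finset.univ_sum_single]
        refine Finset.sum_eq_zero fun i _ => ?_
        by_cases hi : j = i
        · subst hi
          simp [hw]
        · exact (hb _ (hm t ht)).1 i _ j hi
      exact h3 ▸ hasDerivAt_pi.1 h2 j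
    have := isOpen_ball.is_const_of_deriv_eq_zero (convex_ball (0 : ℂ) 2).isPreconnected
      (fun t ht => (hder t ht).differentiableAt.differentiableWithinAt)
      (fun t ht => (hder t ht).deriv) (x := 1) (y := 0) (by simp) (by simp)
    simpa using this

/-- Proof idea: the transition map is analytic (`contMDiffOn_iff_contDiffOn`,
`ContDiffAt.analyticAt`), and by the chain rule its derivative maps `Pi.single i a` to
`mfderiv ψ x v` with `v = mfderiv φ.symm (φ x) (Pi.single i a) ∈ V i x`. -/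
theorem exists_multiAtlas {V : ι → ∀ x : X, Submodule ℂ (TangentSpace 𝓘(ℂ, E) x)}
    (hc : ∀ x : X, ∃ φ : OpenPartialHomeomorph X (∀ i, A i), AdaptedChart V φ ∧ x ∈ φ.source) :
    ∃ ℳ : MultiAtlas X A, ℳ.charts = {φ | AdaptedChart V φ} := by
  refine ⟨⟨{φ | AdaptedChart V φ}, fun x => hc x, fun φ hφ ψ hψ z hz hz' => ?_⟩, rfl⟩
  have hω : (ω : WithTop ℕ∞) ≠ 0 := by simp
  have h1 : ∀ x ∈ φ.source, ContMDiffAt 𝓘(ℂ, E) 𝓘(ℂ, ∀ i, A i) ω φ x := fun x hx =>
    hφ.1.1.contMDiffAt (φ.open_source.mem_nhds hx)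
  have h2 : ∀ v ∈ φ.target, ContMDiffAt 𝓘(ℂ, ∀ i, A i) 𝓘(ℂ, E) ω φ.symm v := fun v hv =>
    hφ.1.2.contMDiffAt (φ.open_target.mem_nhds hv)
  have h3 : ∀ x ∈ ψ.source, ContMDiffAt 𝓘(ℂ, E) 𝓘(ℂ, ∀ i, A i) ω ψ x := fun x hx =>
    hψ.1.1.contMDiffAt (ψ.open_source.mem_nhds hx)
  have hz0 : φ.symm (φ z) ∈ ψ.source := by rwa [φ.left_inv hz]
  refine prod_of_fderiv
    ((h3 _ hz0).comp _ (h2 _ (φ.map_source hz))).contDiffAt.analyticAt ?_
  filter_upwards [φ.open_target.mem_nhds (φ.map_source hz),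
    (φ.continuousAt_symm (φ.map_source hz)).eventually (ψ.open_source.mem_nhds hz0)]
    with v hv hv' i a j hj
  have d2 := (h2 v hv).mdifferentiableAt hω
  have hx := φ.map_target hv
  rw [← mfderiv_eq_fderiv, mfderiv_comp v ((h3 _ hv').mdifferentiableAt hω) d2]
  refine (hψ.2 _ hv' i _).1 ((hφ.2 _ hx i _).2 fun k hk => ?_) j hj
  have e1 : φ ∘ φ.symm =ᶠ[𝓝 v] id := φ.eventually_right_inverse hv
  have e2 := mfderiv_comp v ((h1 _ hx).mdifferentiableAt hω) d2
  rw [e1.mfderiv_eq, mfderiv_id] at e2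
  have e3 := congrArg (fun L => (L (Pi.single i a) : ∀ i, A i) k) e2
  exact e3.symm.trans (Pi.single_eq_of_ne hk a)

theorem HolChart.split {φ : OpenPartialHomeomorph X (∀ i, A i)} (h : HolChart E φ) (i : ι) :
    HolChart E (splitChart i φ) := by
  have h1 : ContDiff ℂ ω (Homeomorph.piSplitAt i A) :=
    (ContinuousLinearMap.proj (R := ℂ) (φ := A) i).contDiff.prodMk
      (contDiff_pi.2 fun j : {j // j ≠ i} =>
        (ContinuousLinearMap.proj (R := ℂ) (φ := A) j.1).contDiff)
  have h2 : ContDiff ℂ ω (Homeomorph.piSplitAt i A).symm := by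
    refine contDiff_pi.2 fun j => ?_
    by_cases hj : j = i
    · subst hj
      simpa using contDiff_fst
    · have e : (fun q => (Homeomorph.piSplitAt i A).symm q j) = fun q => q.2 ⟨j, hj⟩ := by
        funext q
        simp [hj]
      rw [e]
      exact (ContinuousLinearMap.proj (R := ℂ) (φ := fun j : {j // j ≠ i} => A j)
        ⟨j, hj⟩).contDiff.comp contDiff_snd
  exact ⟨h1.contMDiff.comp_contMDiffOn h.1, h.2.comp h2.contMDiff.contMDiffOn fun _ hq => hq⟩

end Vale.Agent.P278
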