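import Vale.Agent.P278.Basic

/-! Local structure of the map to the product of the leaves. -/

open Set Filter Topology Metric
open scoped Manifold ContDiff

namespace Vale.Agent.P278

variable {ι : Type} [Fintype ι] [DecidableEq ι] {A : ι → Type*} [∀ i, NormedAddCommGroup (A i)]
  [∀ i, NormedSpace ℂ (A i)] [∀ i, FiniteDimensional ℂ (A i)] {Z : Type*} [TopologicalSpace Z]
  {ℳ : MultiAtlas Z A} {p : ι → Z → Z}


/-- Use `Retr.loc` for the chart `splitChart i φ` at `z` and the chart given by `FixCharts` at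
`p i z`. -/
theorem locProd (hp : ∀ i, Retr (ℳ.split i) (p i))
    [∀ i, ChartedSpace (A i) {y // p i y = y}] (hc : ∀ i, FixCharts (ℳ.split i) (p i))
    {φ : OpenPartialHomeomorph Z (∀ i, A i)} (hφ : φ ∈ ℳ.charts) {z : Z} (hz : z ∈ φ.source) :
    LocProd (Y := fun i => {y // p i y = y}) (fun z i => ⟨p i z, (hp i).idem z⟩) φ z := by
  intro i
  set y : {y // p i y = y} := ⟨p i z, (hp i).idem z⟩ with hy
  obtain ⟨ψ, hψ, hyψ, hch⟩ := hc i y
  obtain ⟨f, L, hf, hL, hev⟩ := (hp i).loc z (splitChart i φ) ⟨φ, hφ, rfl⟩ hz ψ hψ hyψ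
  refine ⟨f, L, hf, hL, ?_⟩
  have hcont : Continuous fun z' => (⟨p i z', (hp i).idem z'⟩ : {y // p i y = y}) :=
    (hp i).cont.subtype_mk _
  filter_upwards [hev, hcont.continuousAt.eventually (chart_source_mem_nhds (A i) y)] with z' h1 h2
  have h3 := (hch _ h2).2
  rw [h1] at h3
  exact (congrArg Prod.fst h3).symm

/-- Proof idea: near `z`, `P` is `χ.symm ∘ Θ ∘ φ` with `χ` the product of the charts at `P z` and
`Θ` the product of the local homeomorphisms given by the inverse function theorem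
(`HasStrictFDerivAt.toOpenPartialHomeomorph`, `OpenPartialHomeomorph.pi`); restrict to an open set
on which the equality holds. -/
theorem isLocalHomeomorph_of_locProd {Y : ι → Type*} [∀ i, TopologicalSpace (Y i)]
    [∀ i, ChartedSpace (A i) (Y i)] {P : Z → ∀ i, Y i} (hP : Continuous P)
    (h : ∀ z, ∃ φ : OpenPartialHomeomorph Z (∀ i, A i), z ∈ φ.source ∧ LocProd P φ z) :
    IsLocalHomeomorph P := by
  refine IsLocalHomeomorph.mk P fun z => ?_
  obtain ⟨φ, hz, hl⟩ := h z
  choose f L hf hL hev using hl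
  have : ∀ i, CompleteSpace (A i) := fun i => FiniteDimensional.complete ℂ _
  have hs : ∀ i, HasStrictFDerivAt (f i) (L i : A i →L[ℂ] A i) (φ z i) := fun i => by
    have := (hf i).hasStrictFDerivAt
    rwa [(hL i).fderiv] at this
  let Θ := OpenPartialHomeomorph.pi fun i => (hs i).toOpenPartialHomeomorph (f i)
  let χ := OpenPartialHomeomorph.pi fun i => chartAt (A i) (P z i)
  have hχ : P z ∈ χ.source := fun i _ => mem_chart_source (A i) (P z i)
  have h1 : ∀ᶠ z' in 𝓝 z, P z' ∈ χ.source ∧ χ (P z') = Θ (φ z') := by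
    filter_upwards [hP.continuousAt.eventually (χ.open_source.mem_nhds hχ),
      eventually_all.2 hev] with z' h1 h2
    exact ⟨h1, funext h2⟩
  obtain ⟨U, hU, hUo, hzU⟩ := eventually_nhds_iff.1 h1
  refine ⟨((φ.trans Θ).trans χ.symm).restrOpen U hUo, ⟨⟨⟨hz, ?_⟩, ?_⟩, hzU⟩, fun z' hz' => ?_⟩
  · exact fun i _ => (hs i).mem_toOpenPartialHomeomorph_source
  · change Θ (φ z) ∈ χ.target
    rw [← (hU z hzU).2]
    exact χ.map_source hχ
  · change P z' = χ.symm (Θ (φ z'))
    rw [← (hU z' hz'.2).2, χ.left_inv (hU z' hz'.2).1]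

end Vale.Agent.P278
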