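import Vale.Agent.P278.Basic

/-! Coordinate moves. -/

open Set Filter Topology Metric
open scoped Manifold ContDiff

namespace Vale.Agent.P278

variable {ι : Type} [Fintype ι] [DecidableEq ι] {A : ι → Type*} [∀ i, NormedAddCommGroup (A i)]
  [∀ i, NormedSpace ℂ (A i)] [∀ i, FiniteDimensional ℂ (A i)] {Z : Type*} [TopologicalSpace Z]
  {ℳ : MultiAtlas Z A} {p : ι → Z → Z}


/-- A horizontal map for the factor `i` does not change the projection `p j`, `j ≠ i`: by
`Retr.loc`, near a point `p j z` only depends on `φ z j`, which is locally constant along `g`;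
a locally constant map on a ball is constant. -/
theorem retr_const_of_hor (hp : ∀ i, Retr (ℳ.split i) (p i)) {i j : ι} (hij : j ≠ i)
    {g : A i → Z} {R : ℝ} (hg : ∀ a ∈ ball (0 : A i) R, HorAt (ℳ.split i) g a) :
    ∀ a ∈ ball (0 : A i) R, p j (g a) = p j (g 0) := by
  intro a ha
  have key : ∀ a ∈ ball (0 : A i) R, ∀ᶠ a' in 𝓝 a, p j (g a') = p j (g a) := by
    intro a ha
    obtain ⟨φ, hφ, hz⟩ := ℳ.cover (g a)
    obtain ⟨ψ, hψ, hzψ⟩ := (ℳ.split j).cover (p j (g a))
    obtain ⟨f, -, -, -, hev⟩ := (hp j).loc (g a) (splitChart j φ) ⟨φ, hφ, rfl⟩ hz ψ hψ hzψ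
    obtain ⟨f', -, hev'⟩ := (hg a ha).2 (splitChart i φ) ⟨φ, hφ, rfl⟩ hz
    have hc := (hg a ha).1
    filter_upwards [hc.eventually hev, hev',
      ((hp j).cont.continuousAt.comp hc).eventually (ψ.open_source.mem_nhds hzψ)] with a' h1 h2 h3
    have h4 : φ (g a') j = φ (g a) j := congrFun (congrArg Prod.snd h2) ⟨j, hij⟩
    refine ψ.injOn (x₁ := p j (g a')) h3 hzψ ?_
    have h5 : (splitChart j φ (g a')).1 = (splitChart j φ (g a)).1 := h4
    rw [h1, h5]
    exact hev.self_of_nhds.symm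
  exact (convex_ball (0 : A i) R).isPreconnected.induction₂'
    (fun a b => p j (g a) = p j (g b))
    (fun x hx => ((key x hx).filter_mono nhdsWithin_le_nhds).mono fun _ h => ⟨h.symm, h⟩)
    (fun _ _ _ _ _ _ h1 h2 => h1.trans h2) ha (mem_ball_self (pos_of_mem_ball ha))

/-- Proof idea: `χ = chartAt (A i) y`, `ball (χ y) (3r) ⊆ χ.target`,
`W = χ.source ∩ χ ⁻¹' ball (χ y) r`, `c t a b = χ.symm (χ a + t • (χ b - χ a))`. For `x` with
`P x i ∈ W` the map `u a = (χ.symm (χ (P x i) + a)).1` is horizontal on `ball 0 (2r)` (by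
`FixCharts` it is `φ.symm (·, const)`, use `horAt_symm`); `Retr.move` gives `g`, and
`a ↦ g (χ a - χ (P x i))` is the required map. -/
theorem moves (hp : ∀ i, Retr (ℳ.split i) (p i))
    [∀ i, ChartedSpace (A i) {y // p i y = y}] (hc : ∀ i, FixCharts (ℳ.split i) (p i))
    (i : ι) (y : {y // p i y = y}) :
    ∃ W ∈ 𝓝 y, ∃ c : ℝ → {y // p i y = y} → {y // p i y = y} → {y // p i y = y},
      ContinuousOn (fun q : ℝ × {y // p i y = y} × {y // p i y = y} => c q.1 q.2.1 q.2.2)
        (Icc 0 1 ×ˢ W ×ˢ W) ∧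
      (∀ t ∈ Icc (0 : ℝ) 1, ∀ a ∈ W, ∀ b ∈ W, c t a b ∈ W) ∧
      (∀ a ∈ W, ∀ b ∈ W, c 0 a b = a ∧ c 1 a b = b) ∧
      ∀ x, (⟨p i x, (hp i).idem x⟩ : {y // p i y = y}) ∈ W →
        ∃ g : {y // p i y = y} → Z, ContinuousOn g W ∧ g ⟨p i x, (hp i).idem x⟩ = x ∧
          ∀ a ∈ W, (fun j => (⟨p j (g a), (hp j).idem _⟩ : {y // p j y = y})) =
            Function.update (fun j => (⟨p j x, (hp j).idem x⟩ : {y // p j y = y})) i a := by
  obtain ⟨ψ, hψ, -, hch⟩ := hc i y
  set χ := chartAt (A i) y with hχ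
  have hy : y ∈ χ.source := mem_chart_source (A i) y
  obtain ⟨R, hR, hRt⟩ := Metric.isOpen_iff.1 χ.open_target (χ y) (χ.map_source hy)
  set r := R / 3 with hr
  have hr0 : 0 < r := by positivity
  have hsub : ball (χ y) r ⊆ χ.target := (ball_subset_ball (by linarith)).trans hRt
  let W := χ.source ∩ χ ⁻¹' ball (χ y) r
  have hWo : IsOpen W := χ.continuousOn.isOpen_inter_preimage χ.open_source isOpen_ball
  have hconv : ∀ t ∈ Icc (0 : ℝ) 1, ∀ a ∈ W, ∀ b ∈ W, χ a + t • (χ b - χ a) ∈ ball (χ y) r :=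
    fun t ht a ha b hb => (convex_ball (χ y) r).add_smul_sub_mem ha.2 hb.2 ht
  refine ⟨W, hWo.mem_nhds ⟨hy, mem_ball_self hr0⟩,
    fun t a b => χ.symm (χ a + t • (χ b - χ a)), ?_, fun t ht a ha b hb => ?_,
    fun a ha b hb => ?_, fun x hx => ?_⟩
  · have h1 : ContinuousOn (fun q : ℝ × {y // p i y = y} × {y // p i y = y} => χ q.2.1)
        (Icc 0 1 ×ˢ W ×ˢ W) :=
      χ.continuousOn.comp (by fun_prop) fun q hq => hq.2.1.1
    have h2 : ContinuousOn (fun q : ℝ × {y // p i y = y} × {y // p i y = y} => χ q.2.2)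
        (Icc 0 1 ×ˢ W ×ˢ W) :=
      χ.continuousOn.comp (by fun_prop) fun q hq => hq.2.2.1
    exact χ.continuousOn_symm.comp (h1.add (continuousOn_fst.smul (h2.sub h1)))
      fun q hq => hsub (hconv _ hq.1 _ hq.2.1 _ hq.2.2)
  · have h1 := hconv t ht a ha b hb
    refine ⟨χ.map_target (hsub h1), ?_⟩
    rw [mem_preimage, χ.right_inv (hsub h1)]
    exact h1
  · simp only [zero_smul, add_zero, one_smul, add_sub_cancel]
    exact ⟨χ.left_inv ha.1, χ.left_inv hb.1⟩
  · set x₀ : {y // p i y = y} := ⟨p i x, (hp i).idem x⟩ with hx₀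
    have hsymm : ∀ a ∈ χ.source, ψ.symm (χ a, (ψ y.1).2) = a.1 := fun a ha => by
      rw [← (hch a ha).2, ψ.left_inv (hch a ha).1]
    have htgt : ∀ a ∈ ball (0 : A i) (2 * r), (χ x₀ + a, (ψ y.1).2) ∈ ψ.target := fun a ha => by
      have h1 : χ x₀ + a ∈ χ.target := by
        refine hRt ?_
        have h2 : dist (χ x₀) (χ y) < r := hx.2
        rw [mem_ball_zero_iff] at ha
        rw [mem_ball]
        have h3 := dist_triangle (χ x₀ + a) (χ x₀) (χ y)
        rw [dist_self_add_left] at h3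
        linarith
      have h4 := hch _ (χ.map_target h1)
      rw [χ.right_inv h1] at h4
      rw [← h4.2]
      exact ψ.map_source h4.1
    obtain ⟨g, hg, hg0, hgu⟩ := (hp i).move x (2 * r)
      (fun a => ψ.symm (χ x₀ + a, (ψ y.1).2)) (by positivity)
      (fun a ha => horAt_symm (f := fun a => χ x₀ + a) hψ (htgt a ha)
        (analyticAt_const.add analyticAt_id))
      (by rw [add_zero, hsymm x₀ hx.1])
    have hmem : ∀ a ∈ W, χ a - χ x₀ ∈ ball (0 : A i) (2 * r) := fun a ha => by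
      have h2 : dist (χ x₀) (χ y) < r := hx.2
      have h3 : dist (χ a) (χ y) < r := ha.2
      rw [mem_ball_zero_iff, ← dist_eq_norm]
      linarith [dist_triangle_right (χ a) (χ x₀) (χ y)]
    refine ⟨fun a => g (χ a - χ x₀), ?_, by simp only [sub_self, hg0], fun a ha => ?_⟩
    · have h1 : ContinuousOn g (ball (0 : A i) (2 * r)) := fun a ha => (hg a ha).1.continuousWithinAt
      exact h1.comp ((χ.continuousOn.mono inter_subset_left).sub continuousOn_const) hmem
    · funext j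
      by_cases hj : j = i
      · subst hj
        rw [Function.update_self]
        refine Subtype.ext ?_
        change p j (g (χ a - χ x₀)) = a.1
        rw [hgu _ (hmem a ha), add_sub_cancel, hsymm a ha.1]
      · rw [Function.update_of_ne hj]
        refine Subtype.ext ?_
        change p j (g (χ a - χ x₀)) = p j x
        rw [retr_const_of_hor hp hj hg _ (hmem a ha), hg0]

end Vale.Agent.P278
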