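import Vale.Agent.P278.GoodA
import Vale.Agent.P278.Transport

/-! Properties of a global holonomy projection. -/

open Set Filter Topology Metric
open scoped Manifold ContDiff

namespace Vale.Agent.P278

variable {A B A' B' D : Type*} [NormedAddCommGroup A] [NormedSpace ℂ A]
  [NormedAddCommGroup B] [NormedSpace ℂ B] [NormedAddCommGroup A'] [NormedSpace ℂ A']
  [NormedAddCommGroup B'] [NormedSpace ℂ B'] [NormedAddCommGroup D] [NormedSpace ℂ D]
  {Z : Type*} [TopologicalSpace Z] {𝒜 : ProdAtlas Z A B}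

theorem good_idem [T2Space Z] [ConnectedSpace Z] [CompleteSpace A] [CompleteSpace B]
    {p : Z → Z} (hp : ∀ x, Good 𝒜 x p) {x₀ : Z} (h₀ : ∀ᶠ z in 𝓝 x₀, p (p z) = p z) (z : Z) :
    p (p z) = p z := by
  have key : (univ : Set Z) ⊆ {x | ∀ᶠ z in 𝓝 x, p (p z) = p z} := by
    refine isPreconnected_univ.subset_of_closure_inter_subset isOpen_setOfPred_eventually_nhds
      ⟨x₀, mem_univ _, h₀⟩ ?_
    rintro x ⟨hcl, -⟩
    have hf := mem_closure_iff_frequently.1 hcl
    obtain ⟨φ, hφ, hx⟩ := 𝒜.cover x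
    have hs : ∀ m ∈ φ.target, HolAt 𝒜 φ.symm m := fun m hm =>
      holAt_symm (T := id) hφ hm analyticAt_id
    have a1 : ∀ m ∈ φ.target, HolAt 𝒜 (p ∘ φ.symm) m := fun m hm =>
      Good.holAt_comp (hp _) (hs m hm)
    have a2 : ∀ m ∈ φ.target, HolAt 𝒜 (p ∘ p ∘ φ.symm) m := fun m hm =>
      Good.holAt_comp (hp _) (a1 m hm)
    obtain ⟨ε, hε, hb⟩ := Metric.isOpen_iff.1 φ.open_target _ (φ.map_source hx)
    obtain ⟨x', b1, b2, b3⟩ := (hf.and_eventually
      (((φ.continuousAt hx).eventually (ball_mem_nhds _ hε)).and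
        (φ.open_source.mem_nhds hx))).exists
    have := ident (convex_ball (φ x) ε).isPreconnected (fun m hm => a2 m (hb hm))
      (fun m hm => a1 m (hb hm)) b2 ((φ.tendsto_symm b3).eventually b1) (φ x) (mem_ball_self hε)
    filter_upwards [(φ.continuousAt hx).eventually this, φ.open_source.mem_nhds hx] with y c1 c2
    simpa [φ.left_inv c2] using c1
  exact (key (mem_univ z)).self_of_nhds

theorem tendsto_coord {φ : OpenPartialHomeomorph Z (A × B)} {x : Z} (hx : x ∈ φ.source) :
    Tendsto (fun y => (φ y).1 - (φ x).1) (𝓝 x) (𝓝 0) := by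
  have : ContinuousAt (fun y => (φ y).1 - (φ x).1) x :=
    (φ.continuousAt hx).fst.sub continuousAt_const
  simpa using this.tendsto

/-- Proof idea. `idem`: the set of `x` with `p ∘ p = p` near `x` is open, nonempty and closed
(`ident` in a chart, with `Good.holAt_comp` twice). `loc`: `Good.chart` and the definition of
`HorEt` for `g₁`. `fix`: with `φ ∘ g₁ = (f, b)` near `0`, idempotence gives
`f (f u - a) = f u`, `a = (φ y).1 = f 0`, and `f` is injective near `0` (strict derivative,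
`HasStrictFDerivAt.toOpenPartialHomeomorph`), so `f u = a + u`. `move`: `HorEt.factor` gives
`u = g₁ ∘ κ` near `0`; `Hol u (plaque φ x ∘ κ)`; `transport` gives `g`; `p ∘ g = u` near `0`, hence
on the ball by `ident`. -/
theorem retr_of_good [T2Space Z] [ConnectedSpace Z] [CompleteSpace A] [CompleteSpace B]
    (hB : BRC 𝒜) {p : Z → Z} (hp : ∀ x, Good 𝒜 x p) {x₀ : Z}
    (h₀ : ∀ᶠ z in 𝓝 x₀, p (p z) = p z) : Retr 𝒜 p := by
  have hi := good_idem hp h₀
  refine ⟨continuous_iff_continuousAt.2 fun x => (hp x).continuousAt, hi, ?_, ?_, ?_⟩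
  · intro x φ hφ hx ψ hψ hpx
    obtain ⟨g₁, -, k2, k3, k4⟩ := (hp x).chart hφ hx
    obtain ⟨f, L, hf, hL, he⟩ := k2.2 ψ hψ (by rwa [k3])
    refine ⟨fun a => f (a - (φ x).1), L, ?_, ?_, ?_⟩
    · exact AnalyticAt.comp (g := f) (f := fun a => a - (φ x).1) (by simpa using hf)
        (analyticAt_id.sub analyticAt_const)
    · exact HasFDerivAt.comp (φ x).1 (g := f) (f := fun a => a - (φ x).1) (by simpa using hL)
        ((hasFDerivAt_id _).sub_const _)
    · filter_upwards [k4, (tendsto_coord hx).eventually he] with z a1 a2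
      rw [a1, ← k3]
      exact a2
  · intro y hy φ hφ hx
    obtain ⟨g₁, -, k2, k3, k4⟩ := (hp y).chart hφ hx
    rw [hy] at k3
    obtain ⟨f, L, hf, hL, he⟩ := k2.2 φ hφ (by rwa [k3])
    rw [k3] at he
    have hs : HasStrictFDerivAt f (L : A →L[ℂ] A) 0 := by
      have := hf.hasStrictFDerivAt
      rwa [hL.fderiv] at this
    set Θ := hs.toOpenPartialHomeomorph f with hΘ
    have hΘa : Θ.source ∈ 𝓝 (0 : A) :=
      Θ.open_source.mem_nhds hs.mem_toOpenPartialHomeomorph_source
    have t : Tendsto p (𝓝 y) (𝓝 y) := by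
      have := (hp y).continuousAt.tendsto
      rwa [hy] at this
    have t1 := tendsto_coord hx
    filter_upwards [k4, t.eventually k4, t1.eventually he, (t1.comp t).eventually he,
      t1.eventually hΘa, (t1.comp t).eventually hΘa, t.eventually (φ.open_source.mem_nhds hx)]
      with z a1 a2 a3 a4 a5 a6 a7
    simp only [Function.comp_apply] at a3 a4 a6
    rw [← a2, hi] at a4
    rw [← a1] at a3
    have e1 : f ((φ (p z)).1 - (φ y).1) = f ((φ z).1 - (φ y).1) :=
      congrArg Prod.fst (a4.symm.trans a3)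
    have e2 : (φ (p z)).1 = (φ z).1 := sub_left_injective (Θ.injOn a6 a5 e1)
    have e3 : (φ (p z)).2 = (φ y).2 := by rw [a3]
    rw [← e2, ← e3, φ.left_inv a7]
  · intro x R u hR hu h0
    obtain ⟨φ, hφ, hx⟩ := 𝒜.cover x
    obtain ⟨g₁, k1, k2, k3, k4⟩ := (hp x).chart hφ hx
    obtain ⟨κ, hκ, hκ0, he⟩ := k2.factor (hu 0 (mem_ball_self hR)) (h0.trans k3.symm)
    obtain ⟨g, l1, l2, -⟩ := transport hB (k1.comp hκ hκ0).symm hR hu he
    have g0 : g 0 = x := by
      rw [l2.eq_of_nhds, Function.comp_apply, hκ0, plaque_zero hx]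
    refine ⟨g, l1, g0, fun a ha => ?_⟩
    have t : Tendsto g (𝓝 0) (𝓝 x) := g0 ▸ (l1 0 (mem_ball_self hR)).1.tendsto
    have t2 : Tendsto (fun a => ((φ x).1 + κ a, (φ x).2)) (𝓝 0) (𝓝 (φ x)) := by
      have : ContinuousAt (fun a => ((φ x).1 + κ a, (φ x).2)) 0 :=
        (continuousAt_const.add hκ.continuousAt).prodMk continuousAt_const
      simpa [hκ0] using this.tendsto
    have e : p ∘ g =ᶠ[𝓝 0] u := by
      filter_upwards [t.eventually k4, l2, he,
        t2.eventually (φ.open_target.mem_nhds (φ.map_source hx))] with a a1 a2 a3 a4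
      simp only [Function.comp_apply, plaque] at a2 a3 ⊢
      rw [a1, a2, φ.right_inv a4, a3]
      simp
    exact (ident (convex_ball (0 : A) R).isPreconnected
      (fun m hm => Good.holAt_comp (hp _) (l1 m hm).holAt) (fun m hm => (hu m hm).holAt)
      (mem_ball_self hR) e a ha).eq_of_nhds

end Vale.Agent.P278
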