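import Vale.Agent.P278.Mono

/-! A local homeomorphism to a product with liftable coordinate moves. -/

open Set Filter Topology Metric
open scoped Manifold ContDiff

namespace Vale.Agent.P278

/-- A finite product of simply connected spaces is simply connected
(`simply_connected_iff_paths_homotopic`, `Path.Homotopic.pi`). -/
theorem simplyConnected_pi {ι : Type} [Fintype ι] {Y : ι → Type*} [∀ i, TopologicalSpace (Y i)]
    [∀ i, SimplyConnectedSpace (Y i)] : SimplyConnectedSpace (∀ i, Y i) := by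
  refine simply_connected_iff_paths_homotopic.2 ⟨inferInstance, fun x y => ⟨fun p q => ?_⟩⟩
  rw [← Path.Homotopic.pi_proj p, ← Path.Homotopic.pi_proj q]
  exact congrArg _ (funext fun i => Subsingleton.elim _ _)

theorem locallyPathConnected_pi {ι : Type} [Fintype ι] {Y : ι → Type*}
    [∀ i, TopologicalSpace (Y i)] [∀ i, LocallyPathConnectedSpace (Y i)] :
    LocallyPathConnectedSpace (∀ i, Y i) := inferInstance

namespace TopProdAux

theorem joint {ι : Type} [DecidableEq ι] {Y : ι → Type*} [∀ i, TopologicalSpace (Y i)]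
    {Z : Type*} [TopologicalSpace Z] [T2Space Z] {P : Z → ∀ i, Y i} (hP : IsLocalHomeomorph P)
    {i : ι} {W : Set (Y i)} {c : ℝ → Y i → Y i → Y i}
    (hc : ContinuousOn (fun q : ℝ × Y i × Y i => c q.1 q.2.1 q.2.2) (Icc 0 1 ×ˢ W ×ˢ W))
    (hW : ∀ t ∈ Icc (0 : ℝ) 1, ∀ a ∈ W, ∀ b ∈ W, c t a b ∈ W)
    (he : ∀ a ∈ W, ∀ b ∈ W, c 0 a b = a ∧ c 1 a b = b) {G : Z → Y i → Z}
    (hG : ∀ x, P x i ∈ W → ContinuousOn (G x) W ∧ G x (P x i) = x ∧
      ∀ a ∈ W, P (G x a) = Function.update (P x) i a) :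
    ContinuousOn (fun q : Z × Y i => G q.1 q.2) {q | P q.1 i ∈ W ∧ q.2 ∈ W} := by
  rw [continuousOn_iff_continuous_domRestrict]
  have hPc := hP.continuous
  have h1 : Continuous fun z : unitInterval × {q : Z × Y i | P q.1 i ∈ W ∧ q.2 ∈ W} =>
      c z.1 (P z.2.1.1 i) z.2.1.2 :=
    hc.comp_continuous (f := fun z : unitInterval × {q : Z × Y i | P q.1 i ∈ W ∧ q.2 ∈ W} =>
      ((z.1 : ℝ), P z.2.1.1 i, z.2.1.2)) (by fun_prop) fun z => ⟨z.1.2, z.2.2.1, z.2.2.2⟩
  have h2 : ∀ z : unitInterval × {q : Z × Y i | P q.1 i ∈ W ∧ q.2 ∈ W},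
      c z.1 (P z.2.1.1 i) z.2.1.2 ∈ W := fun z => hW _ z.1.2 _ z.2.2.1 _ z.2.2.2
  have h3 := hP.continuous_lift (T2Space.isSeparatedMap P)
    (⟨fun z : unitInterval × {q : Z × Y i | P q.1 i ∈ W ∧ q.2 ∈ W} =>
      Function.update (P z.2.1.1) i (c z.1 (P z.2.1.1 i) z.2.1.2),
      Continuous.update (by fun_prop) i h1⟩)
    (g := fun z => G z.2.1.1 (c z.1 (P z.2.1.1 i) z.2.1.2))
    (funext fun z => (hG _ z.2.2.1).2.2 _ (h2 z)) ?_ fun q => ?_
  · refine (h3.comp (Continuous.prodMk_right 1)).congr fun q => ?_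
    exact congrArg (G q.1.1) (he _ q.2.1 _ q.2.2).2
  · refine (continuous_fst.comp continuous_subtype_val).congr fun q => ?_
    exact ((congrArg (G q.1.1) (he _ q.2.1 _ q.2.2).1).trans (hG _ q.2.1).2.1).symm
  · exact (hG _ q.2.1).1.comp_continuous (h1.comp (Continuous.prodMk_left q)) fun t => h2 (t, q)

end TopProdAux

/-- Proof idea. Choose the maps `g = g i x`. The map `(x, a) ↦ g i x a` is continuous on
`{x | P x i ∈ W} × W` by `IsLocalHomeomorph.continuous_lift` applied to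
`(t, x, a) ↦ g i x (c t (P x i) a)`, which lifts `update (P x) i (c t (P x i) a)`. By induction on
a finset `s` of indices, build a continuous map on `∏ W i` lifting `a ↦ s.piecewise a (P x)` and
sending `P x` to `x`. So `exists_section` gives a global section `σ` through a point; `σ ∘ P = id`
by uniqueness of lifts on the connected space `Z` (`IsSeparatedMap.eq_of_comp_eq`). -/
theorem bijective_of_moves {ι : Type} [Fintype ι] [DecidableEq ι] {Y : ι → Type*}
    [∀ i, TopologicalSpace (Y i)] [∀ i, SimplyConnectedSpace (Y i)]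
    [∀ i, LocallyPathConnectedSpace (Y i)] {Z : Type*} [TopologicalSpace Z] [T2Space Z]
    [ConnectedSpace Z] {P : Z → ∀ i, Y i} (hP : IsLocalHomeomorph P)
    (hmove : ∀ (i : ι) (y : Y i), ∃ W ∈ 𝓝 y, ∃ c : ℝ → Y i → Y i → Y i,
      ContinuousOn (fun q : ℝ × Y i × Y i => c q.1 q.2.1 q.2.2) (Icc 0 1 ×ˢ W ×ˢ W) ∧
      (∀ t ∈ Icc (0 : ℝ) 1, ∀ a ∈ W, ∀ b ∈ W, c t a b ∈ W) ∧
      (∀ a ∈ W, ∀ b ∈ W, c 0 a b = a ∧ c 1 a b = b) ∧
      ∀ x, P x i ∈ W → ∃ g : Y i → Z, ContinuousOn g W ∧ g (P x i) = x ∧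
        ∀ a ∈ W, P (g a) = Function.update (P x) i a) :
    Function.Bijective P := by
  have := simplyConnected_pi (Y := Y)
  have hs := T2Space.isSeparatedMap P
  have h1 : ∀ (i : ι) (y : Y i), ∃ W ∈ 𝓝 y, ∃ G : Z → Y i → Z,
      ContinuousOn (fun q : Z × Y i => G q.1 q.2) {q | P q.1 i ∈ W ∧ q.2 ∈ W} ∧
      ∀ x, P x i ∈ W → G x (P x i) = x ∧ ∀ a ∈ W, P (G x a) = Function.update (P x) i a := by
    intro i y
    obtain ⟨W, hW, c, hc, h2, h3, h4⟩ := hmove i y
    have h5 : ∀ x, ∃ g : Y i → Z, P x i ∈ W → ContinuousOn g W ∧ g (P x i) = x ∧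
        ∀ a ∈ W, P (g a) = Function.update (P x) i a := by
      intro x
      by_cases hx : P x i ∈ W
      · exact (h4 x hx).imp fun g hg _ => hg
      · exact ⟨fun _ => x, fun h6 => absurd h6 hx⟩
    choose G hG using h5
    exact ⟨W, hW, G, TopProdAux.joint hP hc h2 h3 hG, fun x hx => (hG x hx).2⟩
  obtain ⟨e₀⟩ : Nonempty Z := inferInstance
  obtain ⟨σ, hσ, h2, h3⟩ := exists_section hP hs (fun b => by
    choose W hW G hG hG' using fun i => h1 i (b i)
    refine ⟨Set.pi univ W, set_pi_mem_nhds finite_univ fun i _ => hW i, fun e he => ?_⟩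
    have h4 : ∀ s : Finset ι, ∃ σ : (∀ i, Y i) → Z, ContinuousOn σ (Set.pi univ W) ∧
        (∀ a ∈ Set.pi univ W, P (σ a) = s.piecewise a (P e)) ∧ σ (P e) = e := by
      intro s
      induction s using Finset.induction_on with
      | empty => exact ⟨fun _ => e, continuousOn_const, fun a _ => by simp, rfl⟩
      | insert i s _ ih =>
        obtain ⟨σ, h5, h6, h7⟩ := ih
        have h8 : ∀ a ∈ Set.pi univ W, P (σ a) i ∈ W i := by
          intro a ha
          rw [h6 a ha]
          exact s.piecewise_mem_set_pi ha he i trivial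
        refine ⟨fun a => G i (σ a) (a i), ?_, fun a ha => ?_, ?_⟩
        · exact (hG i).comp (h5.prodMk (continuous_apply i).continuousOn)
            fun a ha => ⟨h8 a ha, ha i trivial⟩
        · rw [(hG' i _ (h8 a ha)).2 _ (ha i trivial), h6 a ha, Finset.piecewise_insert]
        · simp only [h7]
          exact (hG' i e (he i trivial)).1
    obtain ⟨σ, h5, h6, h7⟩ := h4 Finset.univ
    exact ⟨σ, h5, fun a ha => by rw [h6 a ha, Finset.piecewise_univ], h7⟩) e₀
  have h4 : σ ∘ P = id := hs.eq_of_comp_eq hP.isLocallyInjective (hσ.comp hP.continuous)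
    continuous_id (funext fun x => h2 (P x)) e₀ h3
  exact ⟨Function.LeftInverse.injective (g := σ) (congrFun h4), fun b => ⟨σ b, h2 b⟩⟩

end Vale.Agent.P278
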