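import Vale.Agent.P278.Basic

/-! The fixed point set of the projection is a complex manifold. -/

open Set Filter Topology Metric
open scoped Manifold ContDiff

namespace Vale.Agent.P278

variable {A B A' B' D : Type*} [NormedAddCommGroup A] [NormedSpace ℂ A]
  [NormedAddCommGroup B] [NormedSpace ℂ B] [NormedAddCommGroup A'] [NormedSpace ℂ A']
  [NormedAddCommGroup B'] [NormedSpace ℂ B'] [NormedAddCommGroup D] [NormedSpace ℂ D]
  {Z : Type*} [TopologicalSpace Z] {𝒜 : ProdAtlas Z A B}

namespace YManAux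

theorem exists_chart {p : Z → Z} (hp : Retr 𝒜 p) (y : {y // p y = y}) :
    ∃ e : OpenPartialHomeomorph {y // p y = y} A, y ∈ e.source ∧ ∃ φ ∈ 𝒜.charts,
      y.1 ∈ φ.source ∧ ∀ y' ∈ e.source, y'.1 ∈ φ.source ∧ φ y'.1 = (e y', (φ y.1).2) := by
  classical
  obtain ⟨φ, hφ, hy⟩ := 𝒜.cover y.1
  set b₀ := (φ y.1).2 with hb₀
  have h1 : ∀ᶠ z in 𝓝 y.1, ((φ z).1, b₀) ∈ φ.target := by
    have hc : ContinuousAt (fun z => ((φ z).1, b₀)) y.1 :=
      (φ.continuousAt hy).fst.prodMk continuousAt_const
    exact hc.eventually (φ.open_target.mem_nhds (φ.map_source hy))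
  obtain ⟨U, hU, hUo, hyU⟩ := eventually_nhds_iff.1
    ((hp.fix y.1 y.2 φ hφ hy).and (h1.and (φ.open_source.mem_nhds hy)))
  have hfix : ∀ y' : {y // p y = y}, y'.1 ∈ U → φ y'.1 = ((φ y'.1).1, b₀) := fun y' hy' => by
    have h2 := (hU _ hy').1
    rw [y'.2] at h2
    have h3 := φ.right_inv (hU _ hy').2.1
    rwa [← h2] at h3
  let W : Set A := {a | (a, b₀) ∈ φ.target ∧ φ.symm (a, b₀) ∈ U}
  have hW : ∀ a ∈ W, p (φ.symm (a, b₀)) = φ.symm (a, b₀) := fun a ha => by
    rw [(hU _ ha.2).1, φ.right_inv ha.1]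
  have hcs : ContinuousOn (fun a : A => φ.symm (a, b₀)) {a | (a, b₀) ∈ φ.target} :=
    φ.continuousOn_symm.comp (continuous_id.prodMk continuous_const).continuousOn fun _ ha => ha
  have hWo : IsOpen W :=
    hcs.isOpen_inter_preimage (φ.open_target.preimage (continuous_id.prodMk continuous_const)) hUo
  let inv : A → {y // p y = y} := fun a => if h : a ∈ W then ⟨φ.symm (a, b₀), hW a h⟩ else y
  have hinv : ∀ a ∈ W, (inv a).1 = φ.symm (a, b₀) := fun a ha => by
    simp only [inv, dif_pos ha]
  have hmap : ∀ y' : {y // p y = y}, y'.1 ∈ U → (φ y'.1).1 ∈ W := fun y' hy' =>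
    ⟨(hU _ hy').2.1, by rw [← hfix y' hy', φ.left_inv (hU _ hy').2.2]; exact hy'⟩
  refine ⟨{ toFun := fun y' => (φ y'.1).1
            invFun := inv
            source := {y' | y'.1 ∈ U}
            target := W
            map_source' := hmap
            map_target' := fun a ha => by
              change (inv a).1 ∈ U
              rw [hinv a ha]
              exact ha.2
            left_inv' := fun y' hy' => Subtype.ext (by
              rw [hinv _ (hmap y' hy'), ← hfix y' hy', φ.left_inv (hU _ hy').2.2])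
            right_inv' := fun a ha => by
              rw [hinv a ha, φ.right_inv ha.1]
            open_source := hUo.preimage continuous_subtype_val
            open_target := hWo
            continuousOn_toFun := continuous_fst.comp_continuousOn
              (φ.continuousOn.comp continuous_subtype_val.continuousOn
                fun y' hy' => (hU _ hy').2.2)
            continuousOn_invFun := IsInducing.subtypeVal.continuousOn_iff.2
              ((hcs.mono fun a ha => ha.1).congr hinv) }, hyU, φ, hφ, hy, fun y' hy' =>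
    ⟨(hU _ hy').2.2, hfix y' hy'⟩⟩

end YManAux

/-- Proof idea. For a fixed point `y` choose a chart `φ`, `(a₀, b₀) = φ y`, an open `U ∋ y` inside
`φ.source` on which `p z = φ.symm ((φ z).1, b₀)` (`Retr.fix`) and `((φ z).1, b₀) ∈ φ.target`, and
the open set `W = {a | (a, b₀) ∈ φ.target ∧ φ.symm (a, b₀) ∈ U}`. The chart has source
`{y' | y'.1 ∈ U}`, target `W`, map `y' ↦ (φ y'.1).1` and inverse `a ↦ φ.symm (a, b₀)` (a fixed
point when `a ∈ W`; junk value `y` otherwise). Transition maps are analytic by `compat`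
(`isManifold_of_contDiffOn`, `AnalyticAt.contDiffAt`). -/
theorem exists_fixCharts [CompleteSpace A] [CompleteSpace B] {p : Z → Z} (hp : Retr 𝒜 p) :
    ∃ _ : ChartedSpace A {y // p y = y}, IsManifold 𝓘(ℂ, A) ω {y // p y = y} ∧ FixCharts 𝒜 p := by
  choose e he φ hφ hy hφe using YManAux.exists_chart hp
  let cs : ChartedSpace A {y // p y = y} :=
    { atlas := range e
      chartAt := e
      mem_chart_source := he
      chart_mem_atlas := fun y => ⟨y, rfl⟩ }
  refine ⟨cs, isManifold_of_contDiffOn _ _ _ ?_, fun y => ⟨φ y, hφ y, hy y, hφe y⟩⟩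
  rintro _ _ ⟨y₁, rfl⟩ ⟨y₂, rfl⟩ a ha
  simp only [modelWithCornersSelf_coe, modelWithCornersSelf_coe_symm, preimage_id_eq, id_eq,
    range_id, inter_univ, OpenPartialHomeomorph.trans_source, OpenPartialHomeomorph.symm_source,
    mem_inter_iff, mem_preimage, Function.comp_id, Function.id_comp] at ha ⊢
  refine ContDiffAt.contDiffWithinAt ?_
  have hz₁ := hφe y₁ _ ((e y₁).map_target ha.1)
  have hz₂ := hφe y₂ _ ha.2
  rw [(e y₁).right_inv ha.1] at hz₁
  obtain ⟨f₁, f₂, hf₁, -, hev⟩ := 𝒜.compat _ (hφ y₁) _ (hφ y₂) _ hz₁.1 hz₂.1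
  rw [hz₁.2] at hf₁ hev
  refine (AnalyticAt.congr hf₁ ?_).contDiffAt
  have t : ContinuousAt (fun a' : A => (a', (φ y₁ y₁.1).2)) a :=
    (continuous_id.prodMk continuous_const).continuousAt
  filter_upwards [t.eventually hev, (e y₁).open_target.mem_nhds ha.1,
    ((e y₁).continuousAt_symm ha.1).eventually ((e y₂).open_source.mem_nhds ha.2)] with a' h1 h2 h3
  have h4 := hφe y₁ _ ((e y₁).map_target h2)
  have h5 := hφe y₂ _ h3
  rw [(e y₁).right_inv h2] at h4
  rw [Function.comp_apply, ← h4.2, (φ y₁).left_inv h4.1, h5.2] at h1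
  exact (congrArg Prod.fst h1).symm

/-- A retract of a simply connected space is simply connected. -/
theorem simplyConnected_fix [SimplyConnectedSpace Z] {p : Z → Z} (hc : Continuous p)
    (hi : ∀ z, p (p z) = p z) : SimplyConnectedSpace {y // p y = y} := by
  let r : C(Z, {y // p y = y}) := ⟨fun z => ⟨p z, hi z⟩, hc.subtype_mk _⟩
  have hr : ∀ y : {y // p y = y}, r y.1 = y := fun y => Subtype.ext y.2
  rw [simply_connected_iff_paths_homotopic']
  refine ⟨Function.Surjective.pathConnectedSpace (fun y => ⟨y.1, hr y⟩) r.continuous,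
    fun {x y} γ₁ γ₂ => ?_⟩
  have h : ContinuousMap.HomotopicRel (γ₁.map continuous_subtype_val).toContinuousMap
      (γ₂.map continuous_subtype_val).toContinuousMap {0, 1} :=
    SimplyConnectedSpace.paths_homotopic
      (γ₁.map continuous_subtype_val) (γ₂.map continuous_subtype_val)
  have h2 := h.comp_continuousMap r
  have e : ∀ γ : Path x y,
      r.comp (γ.map continuous_subtype_val).toContinuousMap = γ.toContinuousMap := fun γ =>
    ContinuousMap.ext fun t => hr (γ t)
  rw [e, e] at h2
  exact h2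

end Vale.Agent.P278
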