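import Vale.Agent.P278.Core
import Vale.Agent.P278.BRC3
import Vale.Agent.P278.Lift
import Vale.Agent.P278.GoodB
import Vale.Agent.P278.Retr
import Vale.Agent.P278.YMan
import Vale.Agent.P278.TopProd
import Vale.Agent.P278.MultiA
import Vale.Agent.P278.MultiB
import Vale.Agent.P278.CoverX
import Vale.Agent.P278.MkAtlas
import Vale.Agent.P278.CoverZ
import Vale.Agent.P278.Kahler
import Vale.Agent.P278.FinalMfd

/-! Assembly of the proof of the splitting theorem. -/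

open Set Filter Topology Metric
open scoped Manifold ContDiff

namespace Vale.Agent.P278

universe u

theorem main
    {E : Type*} [NormedAddCommGroup E] [NormedSpace ℂ E] [FiniteDimensional ℂ E]
    {X : Type*} [TopologicalSpace X] [ChartedSpace E X] [IsManifold 𝓘(ℂ, E) ω X]
    [T2Space X] [CompactSpace X] [ConnectedSpace X]
    (g : X → E →L[ℝ] E →L[ℝ] ℝ) (hg : IsKahlerMetric g)
    {k : ℕ} (V : Fin k → ∀ x : X, Submodule ℂ (TangentSpace 𝓘(ℂ, E) x))
    (hhol : ∀ i, IsHolSubbundle (V i))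
    (hsum : ∀ x, DirectSum.IsInternal fun i => V i x)
    (hint : ∀ I : Finset (Fin k), IsIntegrable fun x => ⨆ i ∈ I, V i x)
    {Z : Type u} [TopologicalSpace Z] [ChartedSpace E Z] [IsManifold 𝓘(ℂ, E) ω Z]
    [T2Space Z] [SecondCountableTopology Z] [SimplyConnectedSpace Z]
    (π : Z → X) (hcov : IsCoveringMap π) (hloc : IsLocalDiffeomorph 𝓘(ℂ, E) 𝓘(ℂ, E) ω π) :
    ∃ (r : Fin k → ℕ) (Y : Fin k → Type u) (_ : ∀ i, TopologicalSpace (Y i))
      (_ : ∀ i, ChartedSpace (Fin (r i) → ℂ) (Y i)),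
      (∀ i, IsManifold 𝓘(ℂ, Fin (r i) → ℂ) ω (Y i) ∧ T2Space (Y i) ∧
        SecondCountableTopology (Y i) ∧ SimplyConnectedSpace (Y i)) ∧
      ∃ Φ : Diffeomorph 𝓘(ℂ, E) (ModelWithCorners.pi fun i => 𝓘(ℂ, Fin (r i) → ℂ))
          Z (∀ i, Y i) ω,
        ∀ (z : Z) (i : Fin k) (w : ∀ j, Fin (r j) → ℂ),
          (∃ v : TangentSpace 𝓘(ℂ, E) z, mfderiv 𝓘(ℂ, E) 𝓘(ℂ, E) π z v ∈ V i (π z) ∧
            mfderiv 𝓘(ℂ, E) (ModelWithCorners.pi fun i => 𝓘(ℂ, Fin (r i) → ℂ)) Φ z v = w) ↔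
          ∀ j, j ≠ i → w j = 0 := by
  classical
  obtain ⟨r, hr⟩ := exists_adapted hhol hsum hint
  obtain ⟨ℳ, hℳ⟩ := exists_multiAtlas hr
  set V' : Fin k → ∀ z : Z, Submodule ℂ (TangentSpace 𝓘(ℂ, E) z) :=
    fun i z => (V i (π z)).comap (mfderiv 𝓘(ℂ, E) 𝓘(ℂ, E) π z).toLinearMap with hV'
  have hlift : ∀ z : Z, ∃ φ' : OpenPartialHomeomorph Z (∀ i, Fin (r i) → ℂ),
      ∃ φ : OpenPartialHomeomorph X (∀ i, Fin (r i) → ℂ), AdaptedChart V' φ' ∧
        AdaptedChart V φ ∧ z ∈ φ'.source ∧ π z ∈ φ.source ∧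
        (φ' : Z → ∀ i, Fin (r i) → ℂ) =ᶠ[𝓝 z] φ ∘ π := by
    intro z
    obtain ⟨φ, hφ, hz⟩ := hr (π z)
    obtain ⟨φ', h1, h2, h3⟩ := adapted_lift hloc hφ hz
    exact ⟨φ', φ, h1, hφ, h2, hz, h3⟩
  obtain ⟨ℳ', hℳ'⟩ := exists_multiAtlas (V := V') (A := fun i => Fin (r i) → ℂ) fun z => by
    obtain ⟨φ', -, h1, -, h2, -⟩ := hlift z
    exact ⟨φ', h1, h2⟩
  have : LocallyPathConnectedSpace E := inferInstance
  have : LocallyPathConnectedSpace Z := ChartedSpace.locallyPathConnectedSpace E Z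
  have hret : ∀ i, ∃ p : Z → Z, Retr (ℳ'.split i) p := by
    intro i
    obtain ⟨w, hw⟩ := exists_tameForm hg (ℳ.split i) (by
      rintro _ ⟨φ, hφ, rfl⟩
      rw [hℳ] at hφ
      exact hφ.1.split i)
    have hB : BRC (ℳ.split i) := brc_of_cone (coneProp hw)
    have hB' : BRC (ℳ'.split i) := by
      refine brc_lift hcov (fun z => ?_) hB
      obtain ⟨φ', φ, h1, h2, h3, h4, h5⟩ := hlift z
      refine ⟨splitChart i φ', ⟨φ', by rw [hℳ']; exact h1, rfl⟩, splitChart i φ,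
        ⟨φ, by rw [hℳ]; exact h2, rfl⟩, h3, h4, ?_⟩
      filter_upwards [h5] with z' hz'
      have hz'' : φ' z' = φ (π z') := hz'
      change splitChart i φ' z' = splitChart i φ (π z')
      rw [splitChart_apply, splitChart_apply, hz'']
    obtain ⟨p, hp, x₀, h₀⟩ := exists_good hB'
    exact ⟨p, retr_of_good hB' hp h₀⟩
  choose p hp using hret
  choose cs hman hfix using fun i => exists_fixCharts (hp i)
  have hsc : ∀ i, SimplyConnectedSpace {y // p i y = y} :=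
    fun i => simplyConnected_fix (hp i).cont (hp i).idem
  have : ∀ i, LocallyPathConnectedSpace {y // p i y = y} :=
    fun i => ChartedSpace.locallyPathConnectedSpace (Fin (r i) → ℂ) _
  set P : Z → ∀ i, {y // p i y = y} := fun z i => ⟨p i z, (hp i).idem z⟩ with hP
  have hPc : Continuous P := continuous_pi fun i => (hp i).cont.subtype_mk _
  have hLP : ∀ z, ∃ φ : OpenPartialHomeomorph Z (∀ i, Fin (r i) → ℂ), AdaptedChart V' φ ∧
      z ∈ φ.source ∧ LocProd P φ z := by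
    intro z
    obtain ⟨φ, hφ, hz⟩ := ℳ'.cover z
    exact ⟨φ, by rw [hℳ'] at hφ; exact hφ, hz, locProd hp hfix hφ hz⟩
  have hLH : IsLocalHomeomorph P := isLocalHomeomorph_of_locProd hPc fun z => by
    obtain ⟨φ, -, h1, h2⟩ := hLP z
    exact ⟨φ, h1, h2⟩
  have hbij : Function.Bijective P := bijective_of_moves hLH fun i y => moves hp hfix i y
  let Φ : Z ≃ₜ ∀ i, {y // p i y = y} :=
    (Equiv.ofBijective P hbij).toHomeomorphOfContinuousOpen hPc hLH.isOpenMap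
  obtain ⟨Ψ, hΨ⟩ := exists_diffeomorph (V := V') Φ hLP
  refine ⟨r, fun i => {y // p i y = y}, inferInstance, cs,
    fun i => ⟨hman i, inferInstance,
      Topology.IsInducing.subtypeVal.secondCountableTopology, hsc i⟩, Ψ, fun z i w => ?_⟩
  rw [← hΨ z i w]
  exact Iff.rfl

end Vale.Agent.P278
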