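import Vale.Agent.P278.Abs

/-! Sections of local homeomorphisms over simply connected spaces. -/

open Set Filter Topology Metric
open scoped Manifold ContDiff

namespace Vale.Agent.P278

open unitInterval in
theorem MonoAux.lift {E B : Type*} [TopologicalSpace E] [TopologicalSpace B] {p : E → B}
    (LS : ∀ b : B, ∃ W ∈ 𝓝 b, ∀ e, p e ∈ W → ∃ s : B → E, ContinuousOn s W ∧
      (∀ b' ∈ W, p (s b') = b') ∧ s (p e) = e) (γ : C(I, B)) (e : E) (γ_0 : γ 0 = p e) :
    ∃ Γ : C(I, E), Γ 0 = e ∧ ∀ t, p (Γ t) = γ t := by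
  choose W hW hs using LS
  obtain ⟨t, t_0, t_mono, ⟨m, hm⟩, t_sub⟩ := exists_monotone_Icc_subset_open_cover_unitInterval
    (fun x => (isOpen_interior (s := W x)).preimage γ.continuous)
    fun t _ => mem_iUnion.2 ⟨γ t, mem_interior_iff_mem_nhds.2 (hW _)⟩
  suffices h : ∀ n, ∃ Γ : I → E, ContinuousOn Γ (Icc 0 (t n)) ∧
      (∀ s ∈ Icc 0 (t n), p (Γ s) = γ s) ∧ Γ 0 = e by
    obtain ⟨Γ, cont, eqOn, Γ_0⟩ := h m
    rw [hm _ le_rfl] at cont eqOn
    exact ⟨⟨Γ, continuousOn_univ.1 (cont.mono fun t _ => ⟨bot_le, le_top⟩)⟩, Γ_0,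
      fun _ => eqOn _ ⟨bot_le, le_top⟩⟩
  intro n
  induction n with
  | zero =>
    refine ⟨fun _ => e, continuous_const.continuousOn, fun s hs => ?_, rfl⟩
    rw [t_0, Icc_self, mem_singleton_iff] at hs
    rw [hs, γ_0]
  | succ n ih =>
    obtain ⟨Γ, cont, eqOn, Γ_0⟩ := ih
    obtain ⟨x, hx⟩ := t_sub n
    have hx' : ∀ s ∈ Icc (t n) (t (n + 1)), γ s ∈ W x := fun s h => interior_subset (hx h)
    have h1 : p (Γ (t n)) = γ (t n) := eqOn _ ⟨bot_le, le_rfl⟩
    obtain ⟨q, h2, h3, h4⟩ := hs x (Γ (t n)) (h1 ▸ hx' _ ⟨le_rfl, t_mono n.le_succ⟩)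
    refine ⟨fun s => if s ≤ t n then Γ s else q (γ s),
      .if (fun s hs => ?_) (cont.mono fun _ h => ?_) ?_, fun s hs => ?_, ?_⟩
    · cases frontier_Iic_subset _ hs.2
      rw [← h1, h4]
    · rw [closure_le_eq continuous_id' continuous_const] at h
      exact ⟨h.1.1, h.2⟩
    · refine h2.comp γ.2.continuousOn fun s h => hx' s ⟨?_, h.1.2⟩
      simp only [not_le] at h
      exact closure_lt_subset_le continuous_const continuous_subtype_val h.2
    · dsimp only
      split_ifs with h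
      exacts [eqOn s ⟨hs.1, h⟩, h3 _ (hx' s ⟨le_of_not_ge h, hs.2⟩)]
    · exact (if_pos bot_le).trans Γ_0

/-- Proof idea: every path lifts from every starting point (real induction on the parameter, or a
Lebesgue subdivision, using the local sections; glue with uniqueness
`IsSeparatedMap.eq_of_comp_eq`/`eqOn_of_comp_eqOn`), then
`IsLocalHomeomorph.existsUnique_continuousMap_lifts` for the identity map, with
`IsLocalHomeomorph.monodromy_theorem` for the uniqueness clause. -/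
theorem exists_section {E B : Type*} [TopologicalSpace E] [TopologicalSpace B]
    [SimplyConnectedSpace B] [LocallyPathConnectedSpace B] {p : E → B}
    (hp : IsLocalHomeomorph p) (hs : IsSeparatedMap p)
    (LS : ∀ b : B, ∃ W ∈ 𝓝 b, ∀ e, p e ∈ W → ∃ s : B → E, ContinuousOn s W ∧
      (∀ b' ∈ W, p (s b') = b') ∧ s (p e) = e) (e₀ : E) :
    ∃ s : B → E, Continuous s ∧ (∀ b, p (s b) = b) ∧ s (p e₀) = e₀ := by
  obtain ⟨F, ⟨h1, h2⟩, -⟩ := hp.existsUnique_continuousMap_lifts (.id B) (p e₀) e₀ rfl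
    (fun γ h => (MonoAux.lift LS γ e₀ h).imp fun Γ hΓ => ⟨hΓ.1, funext hΓ.2⟩)
    fun γ γ' Γ Γ' γ_0 γ'_0 Γ_0 Γ'_0 l l' h => by
      obtain ⟨H⟩ := SimplyConnectedSpace.paths_homotopic
        (⟨γ, γ_0, rfl⟩ : Path (p e₀) (γ 1)) ⟨γ', γ'_0, h.symm⟩
      choose Θ Θ_0 Θ_l using fun t => MonoAux.lift LS (H.toContinuousMap.curry t) e₀
        ((H.eq_fst t (.inl rfl)).trans γ_0)
      have h3 := hp.monodromy_theorem hs H Θ Θ_l (fun t => (Θ_0 t).trans (Θ_0 0).symm) 1
      have h4 := hs.eq_of_comp_eq hp.isLocallyInjective Γ.continuous (Θ 0).continuous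
        (l.trans (funext fun t => ((Θ_l 0 t).trans (H.apply_zero t)).symm)) 0
        (Γ_0.trans (Θ_0 0).symm)
      have h5 := hs.eq_of_comp_eq hp.isLocallyInjective Γ'.continuous (Θ 1).continuous
        (l'.trans (funext fun t => ((Θ_l 1 t).trans (H.apply_one t)).symm)) 0
        (Γ'_0.trans (Θ_0 1).symm)
      rw [h4, h5, h3]
  exact ⟨F, F.continuous, congrFun h2, h1⟩

end Vale.Agent.P278
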