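import Vale.Agent.P278.Abs

/-! Finite speed of propagation for the area of diagonal discs. -/

open Set Filter Topology Metric
open scoped Manifold ContDiff

namespace Vale.Agent.P278

theorem cut_nonneg (t : ℝ) : 0 ≤ cut t := Real.smoothTransition.nonneg _

theorem cut_le_one (t : ℝ) : cut t ≤ 1 := Real.smoothTransition.le_one _

theorem cut_eq_one {t : ℝ} (ht : t ≤ 1 / 4) : cut t = 1 :=
  Real.smoothTransition.one_of_one_le (by linarith)

theorem cut_eq_zero {t : ℝ} (ht : 1 ≤ t) : cut t = 0 :=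
  Real.smoothTransition.zero_of_nonpos (by linarith)

theorem cut_antitone : Antitone cut := fun _ _ h =>
  Real.smoothTransition.monotone (by linarith)

namespace MonotAux
open MeasureTheory

/-- Continuously differentiable on a slab and zero for large `y`. -/
structure Nice (a b R : ℝ) (F : ℝ × ℂ → ℝ) : Prop where
  cd : ∀ s ∈ Icc a b, ∀ y, ContDiffAt ℝ 1 F (s, y)
  zero : ∀ s ∈ Icc a b, ∀ y, R < ‖y‖ → F =ᶠ[𝓝 (s, y)] 0

variable {a b R : ℝ} {F g : ℝ × ℂ → ℝ}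

theorem Nice.cont (h : Nice a b R F) : ContinuousOn F (Icc a b ×ˢ univ) := fun p hp =>
  (h.cd p.1 hp.1 p.2).continuousAt.continuousWithinAt

theorem Nice.contD (h : Nice a b R F) (w : ℝ × ℂ) :
    ContinuousOn (fun p => fderiv ℝ F p w) (Icc a b ×ˢ univ) := fun p hp =>
  (((h.cd p.1 hp.1 p.2).continuousAt_fderiv one_ne_zero).clm_apply
    continuousAt_const).continuousWithinAt

theorem Nice.zeroD (h : Nice a b R F) (w : ℝ × ℂ) (s : ℝ) (hs : s ∈ Icc a b) (y : ℂ)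
    (hy : R < ‖y‖) : fderiv ℝ F (s, y) w = 0 := by
  rw [(h.zero s hs y hy).fderiv_eq]
  simp

theorem Nice.hasD (h : Nice a b R F) {s : ℝ} (hs : s ∈ Icc a b) (y : ℂ) :
    HasFDerivAt F (fderiv ℝ F (s, y)) (s, y) :=
  ((h.cd s hs y).differentiableAt one_ne_zero).hasFDerivAt

theorem slice_int (hg : ContinuousOn g (Icc a b ×ˢ univ))
    (h0 : ∀ s ∈ Icc a b, ∀ y : ℂ, R < ‖y‖ → g (s, y) = 0) {s : ℝ} (hs : s ∈ Icc a b) :
    Integrable fun y => g (s, y) := by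
  have hc : Continuous fun y : ℂ => g (s, y) :=
    hg.comp_continuous (by fun_prop) fun y => ⟨hs, mem_univ _⟩
  refine hc.integrable_of_hasCompactSupport
    (HasCompactSupport.intro (isCompact_closedBall (0 : ℂ) R) fun y hy => h0 s hs y ?_)
  simpa using hy

theorem prod_int (hab : a ≤ b) (hg : ContinuousOn g (Icc a b ×ˢ univ))
    (h0 : ∀ s ∈ Icc a b, ∀ y : ℂ, R < ‖y‖ → g (s, y) = 0) :
    Integrable (Function.uncurry fun s y => g (s, y))
      ((volume.restrict (uIoc a b)).prod volume) := by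
  rw [Measure.restrict_prod_eq_prod_univ, uIoc_of_le hab]
  have h1 : IntegrableOn g (Icc a b ×ˢ closedBall (0 : ℂ) R) (volume.prod volume) :=
    (hg.mono (prod_mono_right (subset_univ _))).integrableOn_compact
      (isCompact_Icc.prod (isCompact_closedBall _ _))
  refine h1.of_forall_sdiff_eq_zero (measurableSet_Ioc.prod MeasurableSet.univ) fun p hp => ?_
  have h2 : p.1 ∈ Icc a b := Ioc_subset_Icc_self hp.1.1
  refine h0 p.1 h2 p.2 (lt_of_not_ge fun h3 => hp.2 ⟨h2, ?_⟩)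
  simpa using h3

theorem Nice.intD (h : Nice a b R F) (w : ℝ × ℂ) {s : ℝ} (hs : s ∈ Icc a b) :
    Integrable fun y => fderiv ℝ F (s, y) w :=
  slice_int (g := fun p => fderiv ℝ F p w) (h.contD w) (h.zeroD w) hs

theorem Nice.int (h : Nice a b R F) {s : ℝ} (hs : s ∈ Icc a b) : Integrable fun y => F (s, y) :=
  slice_int h.cont (fun s hs y hy => (h.zero s hs y hy).self_of_nhds) hs

theorem Nice.int_zero (h : Nice a b R F) {s : ℝ} (hs : s ∈ Icc a b) (v : ℂ) :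
    ∫ y, fderiv ℝ F (s, y) (0, v) = 0 := by
  have h1 : ∀ y : ℂ, HasFDerivAt (fun y => F (s, y))
      ((fderiv ℝ F (s, y)).comp (ContinuousLinearMap.inr ℝ ℝ ℂ)) y := fun y =>
    (h.hasD hs y).comp y (hasFDerivAt_prodMk_right s y)
  have h2 : ∀ y : ℂ, fderiv ℝ (fun y => F (s, y)) y v = fderiv ℝ F (s, y) (0, v) := fun y => by
    rw [(h1 y).fderiv]
    rfl
  have h3 := integral_mul_fderiv_eq_neg_fderiv_mul_of_integrable (μ := (volume : Measure ℂ))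
    (f := fun _ => (1 : ℝ)) (g := fun y => F (s, y)) (v := v) (by simp)
    (by simpa only [one_mul, h2] using h.intD (0, v) hs)
    (by simpa only [one_mul] using h.int hs) (fun _ _ => differentiableAt_const _)
    fun y _ => (h1 y).differentiableAt
  simpa [h2] using h3

/-- The divergence theorem on a slab, as an inequality. -/
theorem div_le {G A B : ℝ × ℂ → ℝ} (hab : a ≤ b) (hG : Nice a b R G) (hA : Nice a b R A)
    (hB : Nice a b R B) (h : ∀ s ∈ Icc a b, ∀ y, fderiv ℝ A (s, y) (0, 1)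
      + fderiv ℝ B (s, y) (0, Complex.I) ≤ fderiv ℝ G (s, y) (1, 0)) :
    ∫ y, G (a, y) ≤ ∫ y, G (b, y) := by
  rw [← sub_nonneg, ← integral_sub (hG.int (right_mem_Icc.2 hab)) (hG.int (left_mem_Icc.2 hab))]
  have h1 : ∀ y : ℂ, G (b, y) - G (a, y) = ∫ s in a..b, fderiv ℝ G (s, y) (1, 0) := by
    intro y
    refine (intervalIntegral.integral_eq_sub_of_hasDerivAt (f := fun s => G (s, y))
      (fun s hs => ?_) ?_).symm
    · rw [uIcc_of_le hab] at hs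
      exact (hG.hasD hs y).comp_hasDerivAt s ((hasDerivAt_id s).prodMk (hasDerivAt_const s y))
    · refine ContinuousOn.intervalIntegrable ?_
      rw [uIcc_of_le hab]
      exact (hG.contD (1, 0)).comp (f := fun s => (s, y)) (by fun_prop)
        fun s hs => ⟨hs, mem_univ _⟩
  simp_rw [h1]
  rw [← intervalIntegral_integral_swap
    (prod_int (g := fun p => fderiv ℝ G p (1, 0)) hab (hG.contD _) (hG.zeroD _))]
  refine intervalIntegral.integral_nonneg hab fun s hs => ?_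
  refine le_trans (le_of_eq ?_)
    (integral_mono ((hA.intD _ hs).add (hB.intD _ hs)) (hG.intD _ hs) (h s hs))
  rw [integral_add' (hA.intD _ hs) (hB.intD _ hs), hA.int_zero hs, hB.int_zero hs, add_zero]

theorem cut_cd : ContDiff ℝ 1 cut := Real.smoothTransition.contDiff.comp (by fun_prop)

theorem cut_deriv {t : ℝ} (ht : t < 1 / 4) : deriv cut t = 0 := by
  have : cut =ᶠ[𝓝 t] fun _ => 1 := (gt_mem_nhds ht).mono fun _ h => cut_eq_one h.le
  rw [this.deriv_eq, deriv_const]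

/-- The linear map behind `dpt`. -/
noncomputable def LL : ℝ × ℂ →L[ℝ] ℂ × ℂ :=
  (-Complex.ofRealCLM.comp (ContinuousLinearMap.fst ℝ ℝ ℂ) + ContinuousLinearMap.snd ℝ ℝ ℂ).prod
    (-Complex.ofRealCLM.comp (ContinuousLinearMap.fst ℝ ℝ ℂ) - ContinuousLinearMap.snd ℝ ℝ ℂ)

theorem LL_apply (p : ℝ × ℂ) : LL p = dpt p.1 p.2 := rfl

/-- The argument of the cutoff. -/
noncomputable def qq (C t ρ : ℝ) (p : ℝ × ℂ) : ℝ := ‖p.2‖ ^ 2 / (ρ + 2 * C * (p.1 - t)) ^ 2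

theorem qq_cd {C t ρ : ℝ} {p : ℝ × ℂ} (h : 0 < ρ + 2 * C * (p.1 - t)) :
    ContDiffAt ℝ 1 (qq C t ρ) p :=
  ((contDiff_norm_sq ℝ).contDiffAt.comp p contDiffAt_snd).div (by fun_prop) (by positivity)

theorem qq_der {C t ρ s r : ℝ} (y : ℂ) (hr : r = ρ + 2 * C * (s - t)) (h : 0 < r) :
    ∃ Q : ℝ × ℂ →L[ℝ] ℝ, HasFDerivAt (qq C t ρ) Q (s, y) ∧ Q (1, 0) = -(4 * C * ‖y‖ ^ 2 / r ^ 3) ∧
      Q (0, 1) = 2 / r ^ 2 * y.re ∧ Q (0, Complex.I) = 2 / r ^ 2 * y.im := by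
  have h1 : HasFDerivAt (fun p : ℝ × ℂ => ‖p.2‖ ^ 2) _ (s, y) := hasFDerivAt_snd.norm_sq
  have h2 : HasDerivAt (fun s => ((ρ + 2 * C * (s - t)) ^ 2)⁻¹) (-(4 * C / r ^ 3)) s := by
    have h3 := (((((hasDerivAt_id s).sub_const t).const_mul (2 * C)).const_add ρ).pow 2).inv
      (by rw [Pi.pow_apply, id, ← hr]; positivity)
    refine h3.congr_deriv ?_
    simp only [Pi.pow_apply, id, ← hr]
    field_simp
    ring
  have h4 := h1.mul (h2.comp_hasFDerivAt (s, y) (hasFDerivAt_fst (p := (s, y))))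
  refine ⟨_, h4.congr_of_eventuallyEq (Eventually.of_forall fun p => div_eq_mul_inv _ _),
    ?_, ?_, ?_⟩
  · simp
    ring
  · simp [← hr]
    ring
  · simp [← hr]
    ring

/-- A coefficient of the form, cut off. -/
noncomputable def WW (Ω : ℂ × ℂ → (ℂ × ℂ) →L[ℝ] (ℂ × ℂ) →L[ℝ] ℝ) (C t ρ : ℝ) (u v : ℂ × ℂ)
    (p : ℝ × ℂ) : ℝ := cut (qq C t ρ p) * Ω (LL p) u v

variable {O : Set (ℂ × ℂ)} {Ω : ℂ × ℂ → (ℂ × ℂ) →L[ℝ] (ℂ × ℂ) →L[ℝ] ℝ} {C t ρ : ℝ}

theorem WW_zero {s : ℝ} {y : ℂ} (h : 0 < ρ + 2 * C * (s - t)) (hy : ρ + 2 * C * (s - t) < ‖y‖)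
    (u v : ℂ × ℂ) : WW Ω C t ρ u v =ᶠ[𝓝 (s, y)] 0 := by
  have h1 : 1 < qq C t ρ (s, y) := by
    rw [qq, one_lt_div (by positivity)]
    exact pow_lt_pow_left₀ hy h.le two_ne_zero
  filter_upwards [(qq_cd (p := (s, y)) h).continuousAt.eventually (lt_mem_nhds h1)] with p hp
  rw [WW, cut_eq_zero hp.le, zero_mul, Pi.zero_apply]

theorem WW_cd (h : DiagForm O Ω C) {p : ℝ × ℂ} (hr : 0 < ρ + 2 * C * (p.1 - t)) (hp : LL p ∈ O)
    (u v : ℂ × ℂ) : ContDiffAt ℝ 1 (WW Ω C t ρ u v) p :=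
  (cut_cd.contDiffAt.comp p (qq_cd hr)).mul
    ((((h.smooth.contDiffAt (h.isOpen.mem_nhds hp)).comp p LL.contDiff.contDiffAt).clm_apply
      contDiffAt_const).clm_apply contDiffAt_const)

theorem WW_der (h : DiagForm O Ω C) {p : ℝ × ℂ} (hp : LL p ∈ O) {Q : ℝ × ℂ →L[ℝ] ℝ}
    (hQ : HasFDerivAt (qq C t ρ) Q p) (u v : ℂ × ℂ) (w : ℝ × ℂ) :
    fderiv ℝ (WW Ω C t ρ u v) p w = cut (qq C t ρ p) * fderiv ℝ Ω (LL p) (LL w) u v
      + Ω (LL p) u v * (deriv cut (qq C t ρ p) * Q w) := by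
  have h1 := ((h.smooth.contDiffAt (h.isOpen.mem_nhds hp)).differentiableAt
    one_ne_zero).hasFDerivAt.comp p LL.hasFDerivAt
  have h2 := (h1.clm_apply (hasFDerivAt_const u p)).clm_apply (hasFDerivAt_const v p)
  have h3 := ((cut_cd.differentiable one_ne_zero) _).hasDerivAt.comp_hasFDerivAt p hQ
  have h4 : HasFDerivAt (WW Ω C t ρ u v) _ p := h3.mul h2
  rw [h4.fderiv]
  simp

theorem pointwise (h : DiagForm O Ω C) (hC : 0 < C) {s : ℝ} {y : ℂ}
    (hr : 0 < ρ + 2 * C * (s - t)) (hp : dpt s y ∈ O) :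
    fderiv ℝ (WW Ω C t ρ (Complex.I • dY) (1, 1)) (s, y) (0, 1)
      + fderiv ℝ (WW Ω C t ρ (1, 1) dY) (s, y) (0, Complex.I)
      ≤ fderiv ℝ (WW Ω C t ρ dY (Complex.I • dY)) (s, y) (1, 0) := by
  obtain ⟨r, er⟩ : ∃ r, r = ρ + 2 * C * (s - t) := ⟨_, rfl⟩
  rw [← er] at hr
  obtain ⟨Q, hQ, q0, q1, q2⟩ := qq_der y er hr
  have e0 : LL (1, 0) = -(1, 1) := by simp [LL_apply, dpt]
  have e1 : LL (0, 1) = dY := by simp [LL_apply, dpt, dY]
  have e2 : LL (0, Complex.I) = Complex.I • dY := by simp [LL_apply, dpt, dY]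
  rw [WW_der h hp hQ, WW_der h hp hQ, WW_der h hp hQ, e0, e1, e2, q0, q1, q2, map_neg,
    neg_apply, neg_apply, LL_apply]
  have a1 := h.closed _ hp (1, 1) dY (Complex.I • dY)
  have a2 := h.anti _ hp (Complex.I • dY) (1, 1)
  have a3 := h.nonneg _ hp
  have a4 := (abs_le.1 (h.bound _ hp (((2 / r ^ 2 : ℝ) : ℂ) * (-Complex.I * y)))).1
  have e3 : (((2 / r ^ 2 : ℝ) : ℂ) * (-Complex.I * y)) • dY
      = (2 / r ^ 2 * y.im) • dY - (2 / r ^ 2 * y.re) • Complex.I • dY := by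
    obtain ⟨k, hk⟩ : ∃ k : ℝ, k = 2 / r ^ 2 := ⟨_, rfl⟩
    rw [← hk]
    refine Prod.ext (Complex.ext ?_ ?_) (Complex.ext ?_ ?_) <;> simp [dY]
  have e4 : ‖((2 / r ^ 2 : ℝ) : ℂ) * (-Complex.I * y)‖ = 2 / r ^ 2 * ‖y‖ := by
    rw [norm_mul, norm_mul, Complex.norm_real, Real.norm_of_nonneg (by positivity)]
    simp
  rw [e3, e4, map_sub, (Ω (dpt s y) (1, 1)).map_smul, (Ω (dpt s y) (1, 1)).map_smul, smul_eq_mul,
    smul_eq_mul] at a4
  have key : deriv cut (qq C t ρ (s, y)) * (Ω (dpt s y) (Complex.I • dY) (1, 1) * (2 / r ^ 2 * y.re)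
      + Ω (dpt s y) (1, 1) dY * (2 / r ^ 2 * y.im)
      + Ω (dpt s y) dY (Complex.I • dY) * (4 * C * ‖y‖ ^ 2 / r ^ 3)) ≤ 0 := by
    rcases lt_or_ge (qq C t ρ (s, y)) (1 / 4) with hq | hq
    · rw [cut_deriv hq, zero_mul]
    refine mul_nonpos_of_nonpos_of_nonneg cut_antitone.deriv_nonpos ?_
    rw [qq, ← er, le_div_iff₀ (by positivity)] at hq
    have b1 : r ≤ 2 * ‖y‖ := le_of_pow_le_pow_left₀ two_ne_zero (by positivity) (by linarith)
    have b2 : C * (2 / r ^ 2 * ‖y‖) ≤ 4 * C * ‖y‖ ^ 2 / r ^ 3 := by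
      rw [le_div_iff₀ (by positivity)]
      calc _ = 2 * C * ‖y‖ * r := by field_simp
        _ ≤ 2 * C * ‖y‖ * (2 * ‖y‖) := by gcongr
        _ = _ := by ring
    have b3 := mul_le_mul_of_nonneg_right b2 a3
    rw [a2]
    linarith
  simp only
  linear_combination key + cut (qq C t ρ (s, y)) * a1

end MonotAux

open MonotAux in
/-- Proof idea. Put `X = (1,1)`, `Y = dY`, so `dpt s y = -s X + y • Y`, `e(s,y) = Ω Y (iY)`,
`ρ(s) = ρ + 2C(s - τ')`, `χ(s,y) = cut (‖y‖^2 / ρ(s)^2)`. Closedness for `(X, Y, iY)` and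
antisymmetry give `∂_s e = -∂₁ (Ω X (iY)) + ∂₂ (Ω X Y)` (`∂₁, ∂₂` along `1` and `i` in `y`).
Integrating by parts in `y` (compact support; `integral_mul_fderiv_eq_neg_fderiv_mul_of_integrable`
or `integral_fderiv_eq_zero` type lemmas) `∫ χ ∂_s e = ∫ Ω X ((χ₁ i - χ₂) • Y)`, whose integrand is
at most `C |∇χ| e` in absolute value, while `∂_s χ ≥ C |∇χ|` because `cut'` vanishes off
`[1/4, 1]` and is nonpositive. So `s ↦ ∫ χ e` has nonnegative derivative on `[τ', τ]`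
(differentiate under the integral, or use the fundamental theorem in `s` and Fubini). -/
theorem monot {O : Set (ℂ × ℂ)} {Ω : ℂ × ℂ → (ℂ × ℂ) →L[ℝ] (ℂ × ℂ) →L[ℝ] ℝ} {C : ℝ}
    (h : DiagForm O Ω C) (hC : 0 < C) {τ' τ ρ : ℝ} (hτ : τ' ≤ τ) (hρ : 0 < ρ)
    (hO : ∀ s ∈ Icc τ' τ, ∀ y : ℂ, ‖y‖ ≤ ρ + 2 * C * (s - τ') → dpt s y ∈ O) :
    en Ω τ' ρ ≤ en Ω τ (ρ + 2 * C * (τ - τ')) := by
  have hr : ∀ s ∈ Icc τ' τ, 0 < ρ + 2 * C * (s - τ') := fun s hs => by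
    have := sub_nonneg.2 hs.1
    positivity
  have hN : ∀ u v, Nice τ' τ (ρ + 2 * C * (τ - τ')) (WW Ω C τ' ρ u v) := by
    refine fun u v => ⟨fun s hs y => ?_, fun s hs y hy => WW_zero (hr s hs) ?_ u v⟩
    · rcases le_or_gt ‖y‖ (ρ + 2 * C * (s - τ')) with hy | hy
      · exact WW_cd h (hr s hs) (hO s hs y hy) u v
      · exact contDiffAt_const.congr_of_eventuallyEq (WW_zero (hr s hs) hy u v)
    · nlinarith [hs.2]
  have key := div_le hτ (hN dY (Complex.I • dY)) (hN (Complex.I • dY) (1, 1)) (hN (1, 1) dY) ?_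
  · simpa only [en, WW, qq, LL_apply, sub_self, mul_zero, add_zero] using key
  intro s hs y
  rcases le_or_gt ‖y‖ (ρ + 2 * C * (s - τ')) with hy | hy
  · exact pointwise h hC (hr s hs) (hO s hs y hy)
  · simp [(WW_zero (Ω := Ω) (hr s hs) hy _ _).fderiv_eq]

end Vale.Agent.P278
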