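import Vale.Agent.P278.Defs

/-! The two notions used in the conclusion of the splitting theorem. -/

open scoped Manifold ContDiff

namespace Vale.Agent.P278

/-- `Y` is a (connected) simply connected complex manifold modelled on `F`. -/
def IsSCManifold (F : Type*) [NormedAddCommGroup F] [NormedSpace ℂ F] (Y : Type*)
    [TopologicalSpace Y] [ChartedSpace F Y] : Prop :=
  IsManifold 𝓘(ℂ, F) ω Y ∧ T2Space Y ∧ SecondCountableTopology Y ∧ SimplyConnectedSpace Y

/-- There is a biholomorphism `Φ : Z → W` whose differential at each point `z` maps the preimage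
of `V i (π z)` under the differential of `π` onto `S i`. -/
def ExistsCompatBihol {E : Type*} [NormedAddCommGroup E] [NormedSpace ℂ E]
    {X : Type*} [TopologicalSpace X] [ChartedSpace E X]
    {Z : Type*} [TopologicalSpace Z] [ChartedSpace E Z]
    {F : Type*} [NormedAddCommGroup F] [NormedSpace ℂ F] {H : Type*} [TopologicalSpace H]
    (I : ModelWithCorners ℂ F H) (W : Type*) [TopologicalSpace W] [ChartedSpace H W]
    (π : Z → X) {k : ℕ} (V : Fin k → ∀ x : X, Submodule ℂ (TangentSpace 𝓘(ℂ, E) x))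
    (S : Fin k → Set F) : Prop :=
  ∃ Φ : Diffeomorph 𝓘(ℂ, E) I Z W ω, ∀ (z : Z) (i : Fin k) (w : F),
    (∃ v : TangentSpace 𝓘(ℂ, E) z, mfderiv 𝓘(ℂ, E) 𝓘(ℂ, E) π z v ∈ V i (π z) ∧
      mfderiv 𝓘(ℂ, E) I Φ z v = w) ↔ w ∈ S i

end Vale.Agent.P278
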