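import Vale.Agent.P278.Abs

/-! Uniform charts on a compact space. -/

open Set Filter Topology Metric
open scoped Manifold ContDiff

namespace Vale.Agent.P278

variable {A B A' B' D : Type*} [NormedAddCommGroup A] [NormedSpace ℂ A]
  [NormedAddCommGroup B] [NormedSpace ℂ B] [NormedAddCommGroup A'] [NormedSpace ℂ A']
  [NormedAddCommGroup B'] [NormedSpace ℂ B'] [NormedAddCommGroup D] [NormedSpace ℂ D]
  {Z : Type*} [TopologicalSpace Z] {𝒜 : ProdAtlas Z A B}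

namespace UnifAux

theorem coercive {D : Type*} [NormedAddCommGroup D] [NormedSpace ℂ D] [FiniteDimensional ℂ D]
    (W : D →L[ℝ] D →L[ℝ] ℝ) (hW : ∀ v, v ≠ 0 → 0 < W v (Complex.I • v)) :
    ∃ c > 0, ∀ v, c * ‖v‖ ^ 2 ≤ W v (Complex.I • v) := by
  have : ProperSpace D := FiniteDimensional.proper ℂ D
  have hc : Continuous fun v : D => W v (Complex.I • v) := by fun_prop
  obtain ⟨c, hc0, hc1⟩ := (isCompact_sphere (0 : D) 1).exists_forall_le' hc.continuousOn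
    (a := 0) fun v hv => hW v (by
      rintro rfl
      simp at hv)
  refine ⟨c, hc0, fun v => ?_⟩
  rcases eq_or_ne v 0 with rfl | hv
  · simp
  have hn : 0 < ‖v‖ := norm_pos_iff.2 hv
  have h1 := hc1 (‖v‖⁻¹ • v) (by
    rw [mem_sphere_zero_iff_norm, norm_smul, norm_inv, norm_norm, inv_mul_cancel₀ hn.ne'])
  rw [smul_comm Complex.I, map_smul, W.map_smul, smul_apply, smul_eq_mul, smul_eq_mul] at h1
  have h2 := mul_le_mul_of_nonneg_right h1 (sq_nonneg ‖v‖)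
  have h3 : ‖v‖⁻¹ * (‖v‖⁻¹ * W v (Complex.I • v)) * ‖v‖ ^ 2 = W v (Complex.I • v) := by
    field_simp
  rwa [h3] at h2

theorem near {D : Type*} [NormedAddCommGroup D] [NormedSpace ℝ D]
    {W : D → D →L[ℝ] D →L[ℝ] ℝ} {T : Set D} {q : D} (h : ContDiffOn ℝ 1 W T) (hT : T ∈ 𝓝 q)
    {ε : ℝ} (hε : 0 < ε) :
    (∀ᶠ z in 𝓝 q, ∀ u v, |W z u v - W q u v| ≤ ε * ‖u‖ * ‖v‖) ∧
      ∃ C > 0, ∀ u v, |W q u v| ≤ C * ‖u‖ * ‖v‖ := by
  constructor
  · filter_upwards [Metric.tendsto_nhds.1 (h.continuousOn.continuousAt hT) ε hε] with z hz u v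
    rw [dist_eq_norm] at hz
    exact ((W z - W q).le_opNorm₂ u v).trans (mul_le_mul_of_nonneg_right
      (mul_le_mul_of_nonneg_right hz.le (norm_nonneg _)) (norm_nonneg _))
  · exact ⟨‖W q‖ + 1, by positivity, fun u v => ((W q).le_opNorm₂ u v).trans
      (mul_le_mul_of_nonneg_right (mul_le_mul_of_nonneg_right (by linarith) (norm_nonneg _))
        (norm_nonneg _))⟩

/-- The uniform bounds at one point. -/
def At (𝒜 : ProdAtlas Z A B)
    (w : OpenPartialHomeomorph Z (A × B) → A × B → (A × B) →L[ℝ] (A × B) →L[ℝ] ℝ)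
    (r c C : ℝ) (x : Z) : Prop :=
  ∃ φ ∈ 𝒜.charts, x ∈ φ.source ∧ closedBall (φ x) (3 * r) ⊆ φ.target ∧
    ∀ z ∈ closedBall (φ x) (3 * r),
      (∀ v, c * ‖v‖ ^ 2 ≤ w φ z v (Complex.I • v)) ∧ ∀ u v, |w φ z u v| ≤ C * ‖u‖ * ‖v‖

theorem At.mono
    {w : OpenPartialHomeomorph Z (A × B) → A × B → (A × B) →L[ℝ] (A × B) →L[ℝ] ℝ}
    {r c C r' c' C' : ℝ} {x : Z} (h : At 𝒜 w r c C x) (hr : r' ≤ r) (hc : c' ≤ c) (hC : C ≤ C') :
    At 𝒜 w r' c' C' x := by
  obtain ⟨φ, hφ, hx, h1, h2⟩ := h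
  have hs : closedBall (φ x) (3 * r') ⊆ closedBall (φ x) (3 * r) :=
    closedBall_subset_closedBall (by linarith)
  refine ⟨φ, hφ, hx, hs.trans h1, fun z hz => ⟨fun v => ?_, fun u v => ?_⟩⟩
  · exact (mul_le_mul_of_nonneg_right hc (sq_nonneg _)).trans ((h2 z (hs hz)).1 v)
  · exact ((h2 z (hs hz)).2 u v).trans (mul_le_mul_of_nonneg_right
      (mul_le_mul_of_nonneg_right hC (norm_nonneg _)) (norm_nonneg _))

theorem loc [FiniteDimensional ℂ A] [FiniteDimensional ℂ B]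
    {w : OpenPartialHomeomorph Z (A × B) → A × B → (A × B) →L[ℝ] (A × B) →L[ℝ] ℝ}
    (hw : TameForm 𝒜 w) (x₀ : Z) :
    ∃ t ∈ 𝓝 x₀, ∃ r > 0, ∃ c > 0, ∃ C > 0, ∀ x ∈ t, At 𝒜 w r c C x := by
  obtain ⟨φ, hφ, hx₀⟩ := 𝒜.cover x₀
  have hq := φ.map_source hx₀
  have hT : φ.target ∈ 𝓝 (φ x₀) := φ.open_target.mem_nhds hq
  obtain ⟨c, hc, hc1⟩ := coercive (w φ (φ x₀)) (hw.tame φ hφ _ hq)
  obtain ⟨h0, C, hC, hC1⟩ := near (hw.smooth φ hφ) hT (half_pos hc)
  have h1 := Eventually.and (p := fun z => z ∈ φ.target) hT h0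
  obtain ⟨ρ, hρ, h2⟩ := Metric.eventually_nhds_iff.1 h1
  refine ⟨φ.source ∩ φ ⁻¹' ball (φ x₀) (ρ / 2), inter_mem (φ.open_source.mem_nhds hx₀)
    ((φ.continuousAt hx₀).preimage_mem_nhds (ball_mem_nhds _ (half_pos hρ))), ρ / 6,
    by positivity, c / 2, half_pos hc, C + c / 2, by positivity, fun x hx => ?_⟩
  have h3 : ∀ z ∈ closedBall (φ x) (3 * (ρ / 6)), dist z (φ x₀) < ρ := fun z hz => by
    have h4 : dist (φ x) (φ x₀) < ρ / 2 := hx.2
    have h5 : dist z (φ x) ≤ 3 * (ρ / 6) := hz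
    linarith [dist_triangle z (φ x) (φ x₀)]
  refine ⟨φ, hφ, hx.1, fun z hz => (h2 (h3 z hz)).1, fun z hz => ?_⟩
  have h4 := (h2 (h3 z hz)).2
  constructor
  · intro v
    have h5 := h4 v (Complex.I • v)
    rw [norm_smul, Complex.norm_I, one_mul, mul_assoc, ← sq] at h5
    linarith [hc1 v, neg_abs_le (w φ z v (Complex.I • v) - w φ (φ x₀) v (Complex.I • v))]
  · intro u v
    linarith [abs_sub_abs_le_abs_sub (w φ z u v) (w φ (φ x₀) u v), h4 u v, hC1 u v]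

end UnifAux

/-- Proof idea: for each `x` choose a chart `φ` and `ρ > 0` with `closedBall (φ x) (2ρ)` in the
target; finitely many of the open sets `φ.source ∩ φ ⁻¹' ball (φ x) ρ` cover `Z`; take `3r` the
least `ρ`. On each compact ball the form is bounded, and `w z v (i v)` has a positive minimum on
ball times unit sphere (continuity from `smooth`); use homogeneity. -/
theorem exists_unif [CompactSpace Z] [FiniteDimensional ℂ A] [FiniteDimensional ℂ B]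
    {w : OpenPartialHomeomorph Z (A × B) → A × B → (A × B) →L[ℝ] (A × B) →L[ℝ] ℝ}
    (hw : TameForm 𝒜 w) : ∃ r > 0, ∃ c > 0, ∃ C > 0, Unif 𝒜 w r c C := by
  have h := isCompact_univ.induction_on
    (p := fun S : Set Z => ∃ r > 0, ∃ c > 0, ∃ C > 0, ∀ x ∈ S, UnifAux.At 𝒜 w r c C x)
    ⟨1, one_pos, 1, one_pos, 1, one_pos, fun _ hx => hx.elim⟩
    (fun _ _ hst ⟨r, hr, c, hc, C, hC, h⟩ => ⟨r, hr, c, hc, C, hC, fun x hx => h x (hst hx)⟩)
    (fun _ _ ⟨r, hr, c, hc, C, hC, h⟩ ⟨r', hr', c', hc', C', _, h'⟩ =>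
      ⟨min r r', lt_min hr hr', min c c', lt_min hc hc', max C C', lt_max_of_lt_left hC,
        fun x hx => hx.elim
          (fun hx => (h x hx).mono (min_le_left _ _) (min_le_left _ _) (le_max_left _ _))
          (fun hx => (h' x hx).mono (min_le_right _ _) (min_le_right _ _) (le_max_right _ _))⟩)
    fun x _ => by
      rw [nhdsWithin_univ]
      exact UnifAux.loc hw x
  obtain ⟨r, hr, c, hc, C, hC, h⟩ := h
  exact ⟨r, hr, c, hc, C, hC, fun x => h x (mem_univ x)⟩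

end Vale.Agent.P278
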